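import Vale.Agent.P097.H438.Angle

/-!
# P097, block LIT: a table whose support function is that of an ellipse is an ellipse
-/

open Real Set Filter Topology
open scoped ContDiff ComplexConjugate

namespace Vale.Agent.P097.H438

namespace Table

variable (B : Table)

/-- a table is the set of points strictly inside all supporting half planes -/
theorem mem_Ω_iff (z : ℂ) :
    z ∈ B.Ω ↔ ∀ ψ : ℝ, (Complex.exp (-(ψ * Complex.I)) * z).re < B.hs ψ := by
  constructor
  · intro hz ψ
    have h := B.support_Ω (B.pos ψ) hz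
    rw [B.ang_pos] at h
    exact h
  · intro h
    by_contra hz
    obtain ⟨f, hf⟩ := geometric_hahn_banach_open_point B.convex B.isOpen hz
    obtain ⟨a, ha⟩ := B.nonempty
    -- the direction of the functional
    set v : ℂ := ⟨f 1, f Complex.I⟩ with hv
    have hfv : ∀ x : ℂ, f x = (conj v * x).re := by
      intro x
      have h1 : x = x.re • (1 : ℂ) + x.im • Complex.I := by
        rw [Complex.real_smul, Complex.real_smul, mul_one, Complex.re_add_im]
      conv_lhs => rw [h1]
      rw [map_add, map_smul, map_smul, smul_eq_mul, smul_eq_mul]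
      simp only [Complex.mul_re, Complex.conj_re, Complex.conj_im, hv]
      ring
    have hv0 : v ≠ 0 := by
      intro h0
      have := hf a ha
      rw [hfv, hfv, h0] at this
      simp at this
    have hnorm : 0 < ‖v‖ := norm_pos_iff.2 hv0
    have hpol : conj v = (‖v‖ : ℂ) * Complex.exp (-(Complex.arg v * Complex.I)) := by
      conv_lhs => rw [← Complex.norm_mul_exp_arg_mul_I v]
      rw [map_mul, Complex.conj_ofReal, ← Complex.exp_conj, map_mul, Complex.conj_ofReal,
        Complex.conj_I, mul_neg]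
    have hfp : ∀ x : ℂ, f x = ‖v‖ * (Complex.exp (-(Complex.arg v * Complex.I)) * x).re := by
      intro x
      rw [hfv, hpol, mul_assoc, Complex.re_ofReal_mul]
    have hle : f (B.γ (B.pos (Complex.arg v))) ≤ f z := by
      have h1 : closure B.Ω ⊆ {x | f x ≤ f z} :=
        closure_minimal (fun a ha => (hf a ha).le) (isClosed_le f.continuous continuous_const)
      exact h1 (B.γ_mem_closure _)
    rw [hfp, hfp] at hle
    have h2 := le_of_mul_le_mul_left hle hnorm
    have h3 := h (Complex.arg v)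
    rw [hs, w] at h3
    linarith

end Table

/-- the affine map of the plane with centre `c`, half axes `a`, `b` and angle `φ` -/
theorem exists_affine {a b : ℝ} (ha : 0 < a) (hb : 0 < b) (φ p q : ℝ) :
    ∃ A : ℂ ≃ᵃ[ℝ] ℂ, ∀ w : ℂ, A w = ((p : ℂ) + q * Complex.I) +
      Complex.exp (φ * Complex.I) * ((a * w.re : ℝ) + (b * w.im : ℝ) * Complex.I) := by
  set c : ℂ := (p : ℂ) + q * Complex.I with hc
  set e : ℂ := Complex.exp (φ * Complex.I) with he
  have he0 : e ≠ 0 := Complex.exp_ne_zero _
  have hfwd : ∀ w : ℂ, ((a * w.re : ℝ) + (b * w.im : ℝ) * Complex.I : ℂ) = ⟨a * w.re, b * w.im⟩ := by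
    intro w
    apply Complex.ext <;> simp
  set lin : ℂ ≃ₗ[ℝ] ℂ :=
    { toFun := fun w => e * ⟨a * w.re, b * w.im⟩
      invFun := fun w => ⟨(e⁻¹ * w).re / a, (e⁻¹ * w).im / b⟩
      map_add' := fun x y => by
        rw [← mul_add]
        congr 1
        apply Complex.ext <;> simp [mul_add]
      map_smul' := fun r x => by
        rw [RingHom.id_apply, Complex.real_smul, Complex.real_smul, mul_left_comm]
        congr 1
        apply Complex.ext <;> simp <;> ring
      left_inv := fun w => by
        simp only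
        rw [inv_mul_cancel_left₀ he0]
        apply Complex.ext
        · simp only; field_simp
        · simp only; field_simp
      right_inv := fun w => by
        simp only
        rw [mul_div_cancel₀ _ ha.ne', mul_div_cancel₀ _ hb.ne']
        rw [show (⟨(e⁻¹ * w).re, (e⁻¹ * w).im⟩ : ℂ) = e⁻¹ * w from Complex.eta _,
          mul_inv_cancel_left₀ he0] } with hlin
  refine ⟨lin.toAffineEquiv.trans (AffineEquiv.constVAdd ℝ ℂ c), fun w => ?_⟩
  change c + e * ⟨a * w.re, b * w.im⟩ = _
  rw [hfwd]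

theorem re_affine {a b : ℝ} (φ p q ψ : ℝ) (w : ℂ) :
    (Complex.exp (-(ψ * Complex.I)) * (((p : ℂ) + q * Complex.I) +
      Complex.exp (φ * Complex.I) * ((a * w.re : ℝ) + (b * w.im : ℝ) * Complex.I))).re =
    p * cos ψ + q * sin ψ + (a * cos (ψ - φ) * w.re + b * sin (ψ - φ) * w.im) := by
  have e1 : Complex.exp (-(ψ * Complex.I)) * Complex.exp (φ * Complex.I) =
      Complex.exp (((-(ψ - φ) : ℝ) : ℂ) * Complex.I) := by
    rw [← Complex.exp_add]
    congr 1
    push_cast
    ring
  have e2 : Complex.exp (-(ψ * Complex.I)) = Complex.exp (((-ψ : ℝ) : ℂ) * Complex.I) := by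
    congr 1
    push_cast
    ring
  rw [mul_add, ← mul_assoc, e1, e2]
  simp only [Complex.mul_re, Complex.mul_im, Complex.add_re, Complex.add_im, Complex.ofReal_re,
    Complex.ofReal_im, Complex.I_re, Complex.I_im, Complex.exp_ofReal_mul_I_re,
    Complex.exp_ofReal_mul_I_im, cos_neg, sin_neg]
  ring

theorem cs_lt {c s x y : ℝ} (h : c ^ 2 + s ^ 2 ≠ 0) (hw : x ^ 2 + y ^ 2 < 1) :
    c * x + s * y < √(c ^ 2 + s ^ 2) := by
  have hpos : 0 < c ^ 2 + s ^ 2 := lt_of_le_of_ne (by positivity) h.symm
  have h1 : (c * x + s * y) ^ 2 < c ^ 2 + s ^ 2 := by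
    have h2 : (c * x + s * y) ^ 2 ≤ (c ^ 2 + s ^ 2) * (x ^ 2 + y ^ 2) := by
      nlinarith [sq_nonneg (c * y - s * x)]
    nlinarith
  exact lt_of_le_of_lt (le_abs_self _) (by rw [← Real.sqrt_sq_eq_abs]; exact Real.sqrt_lt_sqrt (sq_nonneg _) h1)

/-- A table whose support function is the support function of an ellipse is an ellipse. -/
theorem Table.ellipse_of_support (B : Table) {a b φ p q : ℝ} (ha : 0 < a) (hb : 0 < b)
    (h : ∀ ψ, B.hs ψ = p * cos ψ + q * sin ψ +
      √(a ^ 2 * cos (ψ - φ) ^ 2 + b ^ 2 * sin (ψ - φ) ^ 2)) : EllipseDomain B.Ω := by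
  obtain ⟨A, hA⟩ := exists_affine ha hb φ p q
  refine ⟨A, ?_⟩
  ext z
  obtain ⟨w, rfl⟩ := A.surjective z
  rw [B.mem_Ω_iff]
  have e3 : A w ∈ A '' Metric.ball 0 1 ↔ w ∈ Metric.ball (0 : ℂ) 1 := A.injective.mem_set_image
  rw [e3, mem_ball_zero_iff]
  have hnorm : ‖w‖ ^ 2 = w.re ^ 2 + w.im ^ 2 := by
    rw [← Complex.normSq_eq_norm_sq, Complex.normSq_apply]; ring
  constructor
  · intro hz
    by_contra hcon
    rw [not_lt] at hcon
    -- the direction in which the point is outside
    set u : ℂ := ⟨w.re / a, w.im / b⟩ with hu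
    have hu0 : u ≠ 0 := by
      intro h0
      have h1 := congrArg Complex.re h0
      have h2 := congrArg Complex.im h0
      simp only [hu, Complex.zero_re, Complex.zero_im, div_eq_zero_iff, ha.ne', hb.ne', or_false] at h1 h2
      rw [h1, h2] at hnorm
      nlinarith
    have hun : 0 < ‖u‖ := norm_pos_iff.2 hu0
    have hcos : ‖u‖ * cos (Complex.arg u) = w.re / a := Complex.norm_mul_cos_arg u
    have hsin : ‖u‖ * sin (Complex.arg u) = w.im / b := Complex.norm_mul_sin_arg u
    have h1 := hz (φ + Complex.arg u)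
    rw [hA, re_affine, h, add_sub_cancel_left] at h1
    -- rescale the inequality
    have hcx : cos (Complex.arg u) = w.re / (a * ‖u‖) := by
      rw [eq_div_iff (by positivity)]
      have : ‖u‖ * cos (Complex.arg u) * a = w.re / a * a := by rw [hcos]
      rw [div_mul_cancel₀ _ ha.ne'] at this
      linarith
    have hsx : sin (Complex.arg u) = w.im / (b * ‖u‖) := by
      rw [eq_div_iff (by positivity)]
      have : ‖u‖ * sin (Complex.arg u) * b = w.im / b * b := by rw [hsin]
      rw [div_mul_cancel₀ _ hb.ne'] at this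
      linarith
    have h3 : a * cos (Complex.arg u) * w.re + b * sin (Complex.arg u) * w.im = ‖w‖ ^ 2 / ‖u‖ := by
      rw [hcx, hsx, hnorm]
      field_simp
    have h4 : a ^ 2 * cos (Complex.arg u) ^ 2 + b ^ 2 * sin (Complex.arg u) ^ 2 =
        (‖w‖ / ‖u‖) ^ 2 := by
      rw [hcx, hsx, div_pow ‖w‖, hnorm]
      field_simp
    rw [h3, h4, Real.sqrt_sq (by positivity)] at h1
    have h5 : ‖w‖ / ‖u‖ ≤ ‖w‖ ^ 2 / ‖u‖ := by
      gcongr
      nlinarith
    linarith
  · intro hw ψ
    rw [hA, re_affine, h]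
    have h1 : w.re ^ 2 + w.im ^ 2 < 1 := by
      rw [← hnorm]
      nlinarith [norm_nonneg w]
    have h2 : (a * cos (ψ - φ)) ^ 2 + (b * sin (ψ - φ)) ^ 2 ≠ 0 := by
      intro h0
      have e1 : a * cos (ψ - φ) = 0 := by nlinarith [sq_nonneg (a * cos (ψ - φ)), sq_nonneg (b * sin (ψ - φ))]
      have e2 : b * sin (ψ - φ) = 0 := by nlinarith [sq_nonneg (a * cos (ψ - φ)), sq_nonneg (b * sin (ψ - φ))]
      have f1 := (mul_eq_zero.1 e1).resolve_left ha.ne'
      have f2 := (mul_eq_zero.1 e2).resolve_left hb.ne'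
      have := Real.sin_sq_add_cos_sq (ψ - φ)
      rw [f1, f2] at this
      norm_num at this
    have h3 := cs_lt h2 h1
    rw [mul_pow, mul_pow] at h3
    linarith

end Vale.Agent.P097.H438
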