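import Vale.Agent.P097.H438.Dict
import Vale.Agent.P097.H438.Ell

/-!
# P097, block LIT: the literal form of the conjecture follows from its collar form
-/

open Real Set

namespace Vale.Agent.P097.H438

/-- The literal question Q1 for the table `B` follows from the statement for support functions. -/
theorem literal_of_collar
    (main : ∀ (h : ℝ → ℝ) (η : ℝ), SmoothTable h → 0 < η → Collar h η →
      ∃ a b φ p q : ℝ, 0 < a ∧ 0 < b ∧ ∀ ψ, h ψ = p * cos ψ + q * sin ψ +
        √(a ^ 2 * cos (ψ - φ) ^ 2 + b ^ 2 * sin (ψ - φ) ^ 2))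
    (B : Table) (hB : B.IntegrableNearBoundary) : EllipseDomain B.Ω := by
  obtain ⟨η, hη, hc⟩ := B.collar_of_integrable hB
  obtain ⟨a, b, φ, p, q, ha, hb, h⟩ := main B.hs η B.hs_table hη hc
  exact B.ellipse_of_support ha hb h

end Vale.Agent.P097.H438
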