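import Vale.Agent.P097.Defs
import Vale.Agent.P097.Reg.STab

/-!
# P097, block LIT: line coordinates and the billiard map as a homeomorphism of the plane
-/

open Real Set Filter Topology
open scoped ContDiff

namespace Vale.Agent.P097.H438

/-- value at the boundary point with normal angle `x` of the linear functional of direction `φ` -/
noncomputable def kf (h : ℝ → ℝ) (φ x : ℝ) : ℝ := h x * cos (x - φ) - deriv h x * sin (x - φ)

/-- value at the boundary point with normal angle `x` of the linear functional of direction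
`φ + π / 2` -/
noncomputable def tf (h : ℝ → ℝ) (φ x : ℝ) : ℝ := h x * sin (x - φ) + deriv h x * cos (x - φ)

theorem kf_self (h : ℝ → ℝ) (φ : ℝ) : kf h φ φ = h φ := by simp [kf]

theorem kf_rot (h : ℝ → ℝ) (φ₁ φ₂ x : ℝ) :
    kf h φ₂ x = cos (φ₂ - φ₁) * kf h φ₁ x + sin (φ₂ - φ₁) * tf h φ₁ x := by
  have e : x - φ₂ = (x - φ₁) - (φ₂ - φ₁) := by ring
  have e1 : cos (x - φ₂) = cos (x - φ₁) * cos (φ₂ - φ₁) + sin (x - φ₁) * sin (φ₂ - φ₁) := by
    rw [e, cos_sub]
  have e2 : sin (x - φ₂) = sin (x - φ₁) * cos (φ₂ - φ₁) - cos (x - φ₁) * sin (φ₂ - φ₁) := by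
    rw [e, sin_sub]
  rw [kf, kf, tf, e1, e2]
  ring

theorem bdry_eq_kf (h : ℝ → ℝ) (φ x : ℝ) :
    bdry h x = ((kf h φ x : ℂ) + (tf h φ x : ℂ) * Complex.I) *
      Complex.exp ((φ : ℂ) * Complex.I) := by
  have e : Complex.exp ((x : ℂ) * Complex.I) =
      Complex.exp (((x - φ : ℝ) : ℂ) * Complex.I) * Complex.exp ((φ : ℂ) * Complex.I) := by
    rw [← Complex.exp_add]
    congr 1
    push_cast
    ring
  rw [bdry, e, ← mul_assoc]
  congr 1
  apply Complex.ext <;>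
    simp only [Complex.mul_re, Complex.mul_im, Complex.add_re, Complex.add_im, Complex.ofReal_re,
      Complex.ofReal_im, Complex.I_re, Complex.I_im, Complex.exp_ofReal_mul_I_re,
      Complex.exp_ofReal_mul_I_im, kf, tf] <;> ring

section

variable {h : ℝ → ℝ}

theorem deriv_per (hp : ∀ x, h (x + 2 * π) = h x) (x : ℝ) :
    deriv h (x + 2 * π) = deriv h x := by
  have : (fun y => h (y + 2 * π)) = h := funext hp
  conv_rhs => rw [← this]
  rw [deriv_comp_add_const]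

theorem kf_per (hp : ∀ x, h (x + 2 * π) = h x) (φ x : ℝ) : kf h φ (x + 2 * π) = kf h φ x := by
  rw [kf, kf, hp, deriv_per hp, show x + 2 * π - φ = x - φ + 2 * π by ring, cos_add_two_pi,
    sin_add_two_pi]

theorem kf_per' (hp : ∀ x, h (x + 2 * π) = h x) (φ x : ℝ) :
    kf h (φ + 2 * π) (x + 2 * π) = kf h φ x := by
  rw [kf, kf, hp, deriv_per hp, show x + 2 * π - (φ + 2 * π) = x - φ by ring]

theorem kf_pi (φ : ℝ) : kf h φ (φ + π) = -h (φ + π) := by
  rw [kf, add_sub_cancel_left, cos_pi, sin_pi]; ring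

theorem kf_neg_pi (hp : ∀ x, h (x + 2 * π) = h x) (φ : ℝ) : kf h φ (φ - π) = -h (φ + π) := by
  rw [← kf_pi, ← kf_per hp φ (φ - π)]
  congr 1
  ring

variable (H : SmoothTable h)
include H

theorem hd (x : ℝ) : HasDerivAt h (deriv h x) x :=
  ((contDiff_infty_iff_deriv.1 H.1).1 x).hasDerivAt

theorem hdd (x : ℝ) : HasDerivAt (deriv h) (deriv (deriv h) x) x :=
  ((contDiff_infty_iff_deriv.1 (contDiff_infty_iff_deriv.1 H.1).2).1 x).hasDerivAt

theorem cont_h : Continuous h := H.1.continuous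

theorem cont_dh : Continuous (deriv h) := (contDiff_infty_iff_deriv.1 H.1).2.continuous

theorem kf_deriv (φ x : ℝ) :
    HasDerivAt (kf h φ) (-((h x + deriv (deriv h) x) * sin (x - φ))) x := by
  have h1 := hd H x
  have h2 := hdd H x
  have h3 : HasDerivAt (fun x : ℝ => x - φ) 1 x := (hasDerivAt_id x).sub_const φ
  have h4 := (h1.mul h3.cos).sub (h2.mul h3.sin)
  refine h4.congr_deriv ?_
  ring

theorem continuous_kf : Continuous fun z : ℝ × ℝ => kf h z.1 z.2 := by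
  have h1 := cont_h H
  have h2 := cont_dh H
  unfold kf
  fun_prop

theorem kf_strictAnti (φ : ℝ) : StrictAntiOn (kf h φ) (Icc φ (φ + π)) := by
  apply strictAntiOn_of_deriv_neg (convex_Icc _ _)
  · exact fun x _ => (kf_deriv H φ x).continuousAt.continuousWithinAt
  · intro x hx
    rw [interior_Icc] at hx
    rw [(kf_deriv H φ x).deriv]
    have h1 : 0 < sin (x - φ) := sin_pos_of_pos_of_lt_pi (by linarith [hx.1]) (by linarith [hx.2])
    have := mul_pos (H.2.2 x) h1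
    linarith

theorem kf_strictMono (φ : ℝ) : StrictMonoOn (kf h φ) (Icc (φ - π) φ) := by
  apply strictMonoOn_of_deriv_pos (convex_Icc _ _)
  · exact fun x _ => (kf_deriv H φ x).continuousAt.continuousWithinAt
  · intro x hx
    rw [interior_Icc] at hx
    rw [(kf_deriv H φ x).deriv]
    have h1 : sin (x - φ) < 0 :=
      sin_neg_of_neg_of_neg_pi_lt (by linarith [hx.2]) (by linarith [hx.1])
    have := mul_neg_of_pos_of_neg (H.2.2 x) h1
    linarith

theorem kf_lt {ψ x : ℝ} (h1 : ψ < x) (h2 : x < ψ + 2 * π) : kf h ψ x < kf h ψ ψ := by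
  have hπ := pi_pos
  rcases le_or_gt x (ψ + π) with h3 | h3
  · exact kf_strictAnti H ψ ⟨le_rfl, by linarith⟩ ⟨h1.le, h3⟩ h1
  · rw [show x = x - 2 * π + 2 * π by ring, kf_per H.2.1]
    exact kf_strictMono H ψ ⟨by linarith, by linarith⟩ ⟨by linarith, le_rfl⟩ (by linarith)

/-- the flight length is positive -/
theorem tf_lt {φ ψ ψ' : ℝ} (h1 : φ - π < ψ) (h2 : ψ < φ) (h3 : φ ≤ ψ') (h4 : ψ' ≤ φ + π)
    (hk : kf h φ ψ = kf h φ ψ') : tf h φ ψ < tf h φ ψ' := by
  have e1 := kf_rot h φ ψ ψ'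
  have e2 := kf_rot h φ ψ ψ
  have e3 := kf_lt H (ψ := ψ) (x := ψ') (by linarith) (by linarith)
  have e4 : sin (ψ - φ) < 0 := sin_neg_of_neg_of_neg_pi_lt (by linarith) (by linarith)
  rw [hk] at e2
  by_contra hcon
  rw [not_lt] at hcon
  nlinarith

theorem tf_lt' {φ ψ ψ' : ℝ} (h1 : φ - π ≤ ψ) (h2 : ψ ≤ φ) (h3 : φ < ψ') (h4 : ψ' < φ + π)
    (hk : kf h φ ψ = kf h φ ψ') : tf h φ ψ < tf h φ ψ' := by
  have e1 := kf_rot h φ ψ' ψ'
  have e2 := kf_rot h φ ψ' ψ
  have e3 : kf h ψ' ψ < kf h ψ' ψ' := by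
    rw [← kf_per H.2.1 ψ' ψ]
    exact kf_lt H (by linarith) (by linarith)
  have e4 : 0 < sin (ψ' - φ) := sin_pos_of_pos_of_lt_pi (by linarith) (by linarith)
  rw [hk] at e2
  by_contra hcon
  rw [not_lt] at hcon
  nlinarith

/-- the target moves forward with the angle -/
theorem twist_fwd {ψ φ₁ φ₂ x₁ x₂ : ℝ} (h1 : ψ ≤ φ₁) (h2 : φ₁ < φ₂) (h3 : φ₂ < ψ + π)
    (hx₁ : φ₁ ≤ x₁) (hx₁' : x₁ ≤ φ₁ + π) (hx₂ : φ₂ ≤ x₂) (hx₂' : x₂ ≤ φ₂ + π)
    (hk₁ : kf h φ₁ ψ = kf h φ₁ x₁) (hk₂ : kf h φ₂ ψ = kf h φ₂ x₂) : x₁ < x₂ := by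
  have hπ := pi_pos
  rcases h1.eq_or_lt with h0 | h0
  · subst h0
    have : ψ = x₁ := (kf_strictAnti H ψ).injOn ⟨le_rfl, by linarith⟩ ⟨hx₁, hx₁'⟩ hk₁
    linarith
  · have hT := tf_lt H (φ := φ₁) (ψ := ψ) (ψ' := x₁) (by linarith) h0 hx₁ hx₁' hk₁
    have hs : 0 < sin (φ₂ - φ₁) := sin_pos_of_pos_of_lt_pi (by linarith) (by linarith)
    have e1 := kf_rot h φ₁ φ₂ x₁
    have e2 := kf_rot h φ₁ φ₂ ψ
    rw [hk₁] at e2
    have e3 : kf h φ₂ x₂ < kf h φ₂ x₁ := by
      rw [← hk₂, e1, e2]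
      have := mul_pos hs (sub_pos.2 hT)
      nlinarith
    by_contra hcon
    rw [not_lt] at hcon
    have := (kf_strictAnti H φ₂).antitoneOn ⟨hx₂, hx₂'⟩ ⟨by linarith, by linarith⟩ hcon
    linarith

/-- the origin moves backward with the angle -/
theorem twist_bwd {ψ' φ₁ φ₂ x₁ x₂ : ℝ} (h1 : φ₁ ≤ ψ') (h2 : φ₂ < φ₁) (h3 : ψ' - π < φ₂)
    (hx₁ : φ₁ - π ≤ x₁) (hx₁' : x₁ ≤ φ₁) (hx₂ : φ₂ - π ≤ x₂) (hx₂' : x₂ ≤ φ₂)
    (hk₁ : kf h φ₁ x₁ = kf h φ₁ ψ') (hk₂ : kf h φ₂ x₂ = kf h φ₂ ψ') : x₂ < x₁ := by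
  have hπ := pi_pos
  rcases h1.eq_or_lt with h0 | h0
  · subst h0
    have : x₁ = φ₁ := (kf_strictMono H φ₁).injOn ⟨hx₁, hx₁'⟩ ⟨by linarith, le_rfl⟩ hk₁
    linarith
  · have hT := tf_lt' H (φ := φ₁) (ψ := x₁) (ψ' := ψ') hx₁ hx₁' h0 (by linarith) hk₁
    have hs : sin (φ₂ - φ₁) < 0 := sin_neg_of_neg_of_neg_pi_lt (by linarith) (by linarith)
    have e1 := kf_rot h φ₁ φ₂ x₁
    have e2 := kf_rot h φ₁ φ₂ ψ'
    rw [← hk₁] at e2
    have e3 : kf h φ₂ x₂ < kf h φ₂ x₁ := by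
      rw [hk₂, e1, e2]
      have := mul_pos (neg_pos.2 hs) (sub_pos.2 hT)
      nlinarith
    by_contra hcon
    rw [not_lt] at hcon
    have := (kf_strictMono H φ₂).monotoneOn ⟨by linarith, by linarith⟩ ⟨hx₂, hx₂'⟩ hcon
    linarith

end

/-! ### Homeomorphisms of the plane over the first coordinate -/

/-- A continuous family of decreasing bijections of the line is a homeomorphism of the plane. -/
noncomputable def fiberHomeo (G : ℝ → ℝ → ℝ) (hG : Continuous fun z : ℝ × ℝ => G z.1 z.2)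
    (hanti : ∀ φ, StrictAnti (G φ)) (hsurj : ∀ φ, Function.Surjective (G φ)) :
    (ℝ × ℝ) ≃ₜ (ℝ × ℝ) where
  toFun z := (z.1, G z.1 z.2)
  invFun z := (z.1, Classical.choose (hsurj z.1 z.2))
  left_inv z := by
    refine Prod.ext rfl ?_
    exact (hanti z.1).injective (Classical.choose_spec (hsurj z.1 (G z.1 z.2)))
  right_inv z := by
    refine Prod.ext rfl ?_
    exact Classical.choose_spec (hsurj z.1 z.2)
  continuous_toFun := continuous_fst.prodMk hG
  continuous_invFun := by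
    refine continuous_fst.prodMk ?_
    have hspec : ∀ z : ℝ × ℝ, G z.1 (Classical.choose (hsurj z.1 z.2)) = z.2 := fun z =>
      Classical.choose_spec (hsurj z.1 z.2)
    rw [continuous_iff_continuousAt]
    intro z₀
    rw [Metric.continuousAt_iff']
    intro ε hε
    set δ₀ := Classical.choose (hsurj z₀.1 z₀.2) with hδ₀
    have h0 : G z₀.1 δ₀ = z₀.2 := hspec z₀
    have h1 : G z₀.1 (δ₀ + ε / 2) < z₀.2 := by
      rw [← h0]; exact hanti z₀.1 (by linarith)
    have h2 : z₀.2 < G z₀.1 (δ₀ - ε / 2) := by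
      rw [← h0]; exact hanti z₀.1 (by linarith)
    have c1 : Continuous fun z : ℝ × ℝ => G z.1 (δ₀ + ε / 2) :=
      hG.comp (continuous_fst.prodMk continuous_const)
    have c2 : Continuous fun z : ℝ × ℝ => G z.1 (δ₀ - ε / 2) :=
      hG.comp (continuous_fst.prodMk continuous_const)
    have h3 : ∀ᶠ z : ℝ × ℝ in 𝓝 z₀, G z.1 (δ₀ + ε / 2) < z.2 :=
      (isOpen_lt c1 continuous_snd).mem_nhds h1
    have h4 : ∀ᶠ z : ℝ × ℝ in 𝓝 z₀, z.2 < G z.1 (δ₀ - ε / 2) :=
      (isOpen_lt continuous_snd c2).mem_nhds h2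
    filter_upwards [h3, h4] with z hz1 hz2
    rw [← hspec z] at hz1 hz2
    have e1 := (hanti z.1).lt_iff_gt.1 hz1
    have e2 := (hanti z.1).lt_iff_gt.1 hz2
    rw [Real.dist_eq, abs_lt]
    constructor <;> linarith

theorem fiberHomeo_apply (G : ℝ → ℝ → ℝ) (hG : Continuous fun z : ℝ × ℝ => G z.1 z.2)
    (hanti : ∀ φ, StrictAnti (G φ)) (hsurj : ∀ φ, Function.Surjective (G φ)) (z : ℝ × ℝ) :
    fiberHomeo G hG hanti hsurj z = (z.1, G z.1 z.2) := rfl

/-- projection to the interval `[0, π]` -/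
noncomputable def cl (x : ℝ) : ℝ := max 0 (min x π)

theorem continuous_cl : Continuous cl := by unfold cl; fun_prop

theorem cl_mem (x : ℝ) : cl x ∈ Icc 0 π :=
  ⟨le_max_left _ _, max_le pi_pos.le (min_le_right _ _)⟩

theorem cl_of_mem {x : ℝ} (h : x ∈ Icc 0 π) : cl x = x := by
  rw [cl, min_eq_left h.2, max_eq_right h.1]

theorem cl_of_neg {x : ℝ} (h : x ≤ 0) : cl x = 0 := by
  rw [cl, min_eq_left (h.trans pi_pos.le), max_eq_left h]

theorem cl_of_gt {x : ℝ} (h : π ≤ x) : cl x = π := by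
  rw [cl, min_eq_right h, max_eq_right pi_pos.le]

theorem cl_mono : Monotone cl := fun _ _ hxy => max_le_max_left _ (min_le_min_right _ hxy)

theorem cl_lip {x y : ℝ} (h : x ≤ y) : cl y - cl x ≤ y - x := by
  unfold cl
  rcases le_total x 0 with h1 | h1 <;> rcases le_total y π with h2 | h2 <;>
    rcases le_total y 0 with h3 | h3 <;> rcases le_total x π with h4 | h4 <;>
    simp only [max_def, min_def] <;> split_ifs <;> linarith [pi_pos]

/-- the extension of a family of decreasing functions on `[0, π]` with slope `-1` -/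
noncomputable def extG (g : ℝ → ℝ → ℝ) (φ δ : ℝ) : ℝ := g φ (cl δ) - (δ - cl δ)

theorem extG_of_mem {g : ℝ → ℝ → ℝ} {φ δ : ℝ} (h : δ ∈ Icc 0 π) : extG g φ δ = g φ δ := by
  rw [extG, cl_of_mem h]; ring

theorem extG_of_neg {g : ℝ → ℝ → ℝ} {φ δ : ℝ} (h : δ ≤ 0) : extG g φ δ = g φ 0 - δ := by
  rw [extG, cl_of_neg h]; ring

theorem extG_of_gt {g : ℝ → ℝ → ℝ} {φ δ : ℝ} (h : π ≤ δ) : extG g φ δ = g φ π - (δ - π) := by
  rw [extG, cl_of_gt h]

theorem extG_continuous {g : ℝ → ℝ → ℝ} (hg : Continuous fun z : ℝ × ℝ => g z.1 z.2) :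
    Continuous fun z : ℝ × ℝ => extG g z.1 z.2 := by
  unfold extG
  have h1 : Continuous fun z : ℝ × ℝ => g z.1 (cl z.2) :=
    hg.comp (continuous_fst.prodMk (continuous_cl.comp continuous_snd))
  have h2 := continuous_cl
  fun_prop

theorem extG_strictAnti {g : ℝ → ℝ → ℝ} (hg : ∀ φ, StrictAntiOn (g φ) (Icc 0 π)) (φ : ℝ) :
    StrictAnti (extG g φ) := by
  intro x y hxy
  unfold extG
  have h1 := cl_lip hxy.le
  rcases (cl_mono hxy.le).lt_or_eq with h2 | h2
  · have := hg φ (cl_mem x) (cl_mem y) h2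
    linarith
  · rw [h2]; linarith

theorem extG_surjective {g : ℝ → ℝ → ℝ} (hc : Continuous fun z : ℝ × ℝ => g z.1 z.2) (φ : ℝ) :
    Function.Surjective (extG g φ) := by
  have h1 : Continuous (extG g φ) :=
    (extG_continuous hc).comp (continuous_const.prodMk continuous_id)
  intro p
  have h2 : p ∈ range (extG g φ) := mem_range_of_exists_le_of_exists_ge h1
    ⟨π + |g φ π| + |p|, by
      rw [extG_of_gt (by linarith [abs_nonneg (g φ π), abs_nonneg p])]
      have := le_abs_self (g φ π)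
      have := neg_abs_le p
      linarith⟩
    ⟨-(|g φ 0| + |p|), by
      rw [extG_of_neg (by linarith [abs_nonneg (g φ 0), abs_nonneg p])]
      have := neg_abs_le (g φ 0)
      have := le_abs_self p
      linarith⟩
  exact h2

/-- the shear `(ψ, δ) ↦ (ψ + c δ, δ)` -/
noncomputable def shear (c : ℝ → ℝ) (hc : Continuous c) : (ℝ × ℝ) ≃ₜ (ℝ × ℝ) where
  toFun z := (z.1 + c z.2, z.2)
  invFun z := (z.1 - c z.2, z.2)
  left_inv z := by simp
  right_inv z := by simp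
  continuous_toFun := by fun_prop
  continuous_invFun := by fun_prop

/-! ### The billiard map -/

section

variable {h : ℝ → ℝ}

noncomputable def gout (h : ℝ → ℝ) (φ δ : ℝ) : ℝ := kf h φ (φ - δ)

noncomputable def gin (h : ℝ → ℝ) (φ δ : ℝ) : ℝ := kf h φ (φ + δ)

theorem continuous_gout (H : SmoothTable h) : Continuous fun z : ℝ × ℝ => gout h z.1 z.2 :=
  (continuous_kf H).comp (continuous_fst.prodMk (continuous_fst.sub continuous_snd))

theorem continuous_gin (H : SmoothTable h) : Continuous fun z : ℝ × ℝ => gin h z.1 z.2 :=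
  (continuous_kf H).comp (continuous_fst.prodMk (continuous_fst.add continuous_snd))

theorem gout_anti (H : SmoothTable h) (φ : ℝ) : StrictAntiOn (gout h φ) (Icc 0 π) := by
  intro x hx y hy hxy
  exact kf_strictMono H φ ⟨by linarith [hy.2], by linarith [hy.1]⟩
    ⟨by linarith [hx.2], by linarith [hx.1]⟩ (by linarith)

theorem gin_anti (H : SmoothTable h) (φ : ℝ) : StrictAntiOn (gin h φ) (Icc 0 π) := by
  intro x hx y hy hxy
  exact kf_strictAnti H φ ⟨by linarith [hx.1], by linarith [hx.2]⟩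
    ⟨by linarith [hy.1], by linarith [hy.2]⟩ (by linarith)

/-- line coordinates of the outgoing line -/
noncomputable def outH (H : SmoothTable h) : (ℝ × ℝ) ≃ₜ (ℝ × ℝ) :=
  (shear cl continuous_cl).trans (fiberHomeo (extG (gout h)) (extG_continuous (continuous_gout H))
    (extG_strictAnti (gout_anti H)) (extG_surjective (continuous_gout H)))

/-- line coordinates of the incoming line -/
noncomputable def inH (H : SmoothTable h) : (ℝ × ℝ) ≃ₜ (ℝ × ℝ) :=
  (shear (fun x => -cl x) continuous_cl.neg).trans (fiberHomeo (extG (gin h))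
    (extG_continuous (continuous_gin H)) (extG_strictAnti (gin_anti H))
    (extG_surjective (continuous_gin H)))

/-- the billiard map, extended by the identity below and by the deck translation above -/
noncomputable def bil (H : SmoothTable h) : (ℝ × ℝ) ≃ₜ (ℝ × ℝ) := (outH H).trans (inH H).symm

theorem outH_apply (H : SmoothTable h) (z : ℝ × ℝ) :
    outH H z = (z.1 + cl z.2, extG (gout h) (z.1 + cl z.2) z.2) := rfl

theorem inH_apply (H : SmoothTable h) (z : ℝ × ℝ) :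
    inH H z = (z.1 - cl z.2, extG (gin h) (z.1 - cl z.2) z.2) := rfl

theorem bil_eq_iff (H : SmoothTable h) (z w : ℝ × ℝ) : bil H z = w ↔ inH H w = outH H z := by
  change (inH H).symm (outH H z) = w ↔ _
  rw [Homeomorph.symm_apply_eq]
  exact eq_comm

theorem gin_zero (φ : ℝ) : gin h φ 0 = gout h φ 0 := by rw [gin, gout]; simp

theorem gin_pi (H : SmoothTable h) (φ : ℝ) : gin h φ π = gout h φ π := by
  rw [gin, gout, kf_pi, kf_neg_pi H.2.1]

theorem bil_low (H : SmoothTable h) (z : ℝ × ℝ) (hz : z.2 ≤ 0) : bil H z = z := by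
  rw [bil_eq_iff, inH_apply, outH_apply, cl_of_neg hz, extG_of_neg hz, extG_of_neg hz, add_zero,
    sub_zero, gin_zero]

theorem snd_lt_iff_out (H : SmoothTable h) (z : ℝ × ℝ) :
    z.2 < π ↔ gout h (outH H z).1 π < (outH H z).2 := by
  rw [outH_apply]
  simp only
  rw [← (extG_strictAnti (gout_anti H) (z.1 + cl z.2)).lt_iff_gt,
    extG_of_mem (g := gout h) ⟨pi_pos.le, le_rfl⟩]

theorem snd_lt_iff_in (H : SmoothTable h) (z : ℝ × ℝ) :
    z.2 < π ↔ gin h (inH H z).1 π < (inH H z).2 := by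
  rw [inH_apply]
  simp only
  rw [← (extG_strictAnti (gin_anti H) (z.1 - cl z.2)).lt_iff_gt,
    extG_of_mem (g := gin h) ⟨pi_pos.le, le_rfl⟩]

theorem in_bil (H : SmoothTable h) (z : ℝ × ℝ) : inH H (bil H z) = outH H z :=
  (bil_eq_iff H z _).1 rfl

theorem bil_high (H : SmoothTable h) (z : ℝ × ℝ) : (bil H z).2 < π ↔ z.2 < π := by
  rw [snd_lt_iff_in H, snd_lt_iff_out H, in_bil, gin_pi H]

theorem outH_per (H : SmoothTable h) (z : ℝ × ℝ) :
    outH H (z + (2 * π, 0)) = outH H z + (2 * π, 0) := by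
  rw [outH_apply, outH_apply]
  simp only [Prod.fst_add, Prod.snd_add, add_zero, Prod.mk_add_mk]
  rw [show z.1 + 2 * π + cl z.2 = z.1 + cl z.2 + 2 * π by ring]
  congr 1
  unfold extG gout
  rw [show z.1 + cl z.2 + 2 * π - cl z.2 = z.1 + 2 * π by ring,
    show z.1 + cl z.2 - cl z.2 = z.1 by ring, kf_per' H.2.1]

theorem inH_per (H : SmoothTable h) (z : ℝ × ℝ) :
    inH H (z + (2 * π, 0)) = inH H z + (2 * π, 0) := by
  rw [inH_apply, inH_apply]
  simp only [Prod.fst_add, Prod.snd_add, add_zero, Prod.mk_add_mk]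
  rw [show z.1 + 2 * π - cl z.2 = z.1 - cl z.2 + 2 * π by ring]
  congr 1
  unfold extG gin
  rw [show z.1 - cl z.2 + 2 * π + cl z.2 = z.1 + 2 * π by ring,
    show z.1 - cl z.2 + cl z.2 = z.1 by ring, kf_per' H.2.1]

theorem bil_per (H : SmoothTable h) (z : ℝ × ℝ) :
    bil H (z + (2 * π, 0)) = bil H z + (2 * π, 0) := by
  rw [bil_eq_iff, inH_per, in_bil, outH_per]

theorem bil_pos (H : SmoothTable h) {z : ℝ × ℝ} (hz : 0 < z.2) : 0 < (bil H z).2 := by
  by_contra hcon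
  rw [not_lt] at hcon
  have h1 : bil H (bil H z) = bil H z := bil_low H _ hcon
  have h2 := (bil H).injective h1
  rw [h2] at hcon
  linarith

/-- the relation between a point of the closed strip and its image -/
theorem bil_spec (H : SmoothTable h) {ψ δ : ℝ} (h0 : 0 ≤ δ) (h1 : δ < π) :
    0 ≤ (bil H (ψ, δ)).2 ∧ (bil H (ψ, δ)).2 < π ∧
      (bil H (ψ, δ)).1 = ψ + δ + (bil H (ψ, δ)).2 ∧
      kf h (ψ + δ) ψ = kf h (ψ + δ) (bil H (ψ, δ)).1 := by
  have hlt : (bil H (ψ, δ)).2 < π := (bil_high H (ψ, δ)).2 h1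
  have hge : 0 ≤ (bil H (ψ, δ)).2 := by
    rcases h0.eq_or_lt with h2 | h2
    · rw [bil_low H (ψ, δ) (by simp only; linarith)]; exact h0
    · exact (bil_pos H (z := (ψ, δ)) h2).le
  have hin := in_bil H (ψ, δ)
  rw [inH_apply, outH_apply, cl_of_mem ⟨hge, hlt.le⟩] at hin
  simp only at hin
  rw [cl_of_mem ⟨h0, h1.le⟩, extG_of_mem ⟨h0, h1.le⟩, extG_of_mem ⟨hge, hlt.le⟩,
    Prod.mk.injEq] at hin
  obtain ⟨e1, e2⟩ := hin
  rw [e1, gout, gin, add_sub_cancel_right] at e2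
  refine ⟨hge, hlt, by linarith, ?_⟩
  rw [← e2]
  congr 1
  linarith

theorem bil_of_spec (H : SmoothTable h) {ψ δ ψ' δ' : ℝ} (h0 : 0 ≤ δ) (h1 : δ ≤ π) (h2 : 0 ≤ δ')
    (h3 : δ' ≤ π) (h4 : ψ' = ψ + δ + δ') (h5 : kf h (ψ + δ) ψ = kf h (ψ + δ) ψ') :
    bil H (ψ, δ) = (ψ', δ') := by
  rw [bil_eq_iff, inH_apply, outH_apply]
  simp only
  rw [cl_of_mem ⟨h0, h1⟩, cl_of_mem ⟨h2, h3⟩, extG_of_mem ⟨h0, h1⟩, extG_of_mem ⟨h2, h3⟩, gout, gin]
  have e : ψ' - δ' = ψ + δ := by linarith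
  rw [e, add_sub_cancel_right, h5]
  congr 2
  linarith

theorem bil_twist (H : SmoothTable h) (x y y' : ℝ) (h0 : 0 ≤ y) (h1 : y < y') (h2 : y' < π) :
    (bil H (x, y)).1 < (bil H (x, y')).1 := by
  obtain ⟨a1, a2, a3, a4⟩ := bil_spec H (ψ := x) h0 (h1.trans h2)
  obtain ⟨b1, b2, b3, b4⟩ := bil_spec H (ψ := x) (h0.trans h1.le) h2
  exact twist_fwd H (ψ := x) (φ₁ := x + y) (φ₂ := x + y') (by linarith) (by linarith)
    (by linarith) (by linarith) (by linarith) (by linarith) (by linarith) a4 b4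

theorem bil_twist' (H : SmoothTable h) (x y y' : ℝ) (h0 : 0 ≤ y) (h1 : y < y') (h2 : y' < π) :
    ((bil H).symm (x, y')).1 < ((bil H).symm (x, y)).1 := by
  have key : ∀ y, 0 ≤ y → y < π → 0 ≤ ((bil H).symm (x, y)).2 ∧ ((bil H).symm (x, y)).2 < π ∧
      ((bil H).symm (x, y)).1 = x - y - ((bil H).symm (x, y)).2 ∧
      kf h (x - y) ((bil H).symm (x, y)).1 = kf h (x - y) x := by
    intro y hy hy'
    set w := (bil H).symm (x, y) with hw
    have hbw : bil H w = (x, y) := by rw [hw, Homeomorph.apply_symm_apply]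
    have hwlt : w.2 < π := by
      rw [← bil_high H, hbw]; exact hy'
    have hw0 : 0 ≤ w.2 := by
      by_contra hcon
      rw [not_le] at hcon
      rw [bil_low H w hcon.le] at hbw
      rw [hbw] at hcon
      simp only at hcon
      linarith
    obtain ⟨c1, c2, c3, c4⟩ := bil_spec H (ψ := w.1) hw0 hwlt
    rw [show ((w.1, w.2) : ℝ × ℝ) = w from rfl, hbw] at c1 c2 c3 c4
    simp only at c1 c2 c3 c4
    refine ⟨hw0, hwlt, by linarith, ?_⟩
    rw [show x - y = w.1 + w.2 by linarith]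
    exact c4
  obtain ⟨a1, a2, a3, a4⟩ := key y h0 (h1.trans h2)
  obtain ⟨b1, b2, b3, b4⟩ := key y' (h0.trans h1.le) h2
  exact twist_bwd H (ψ' := x) (φ₁ := x - y) (φ₂ := x - y') (by linarith) (by linarith)
    (by linarith) (by linarith) (by linarith) (by linarith) (by linarith) a4 b4

theorem step_iff (H : SmoothTable h) {ψ δ ψ' δ' : ℝ} (h0 : 0 < δ) (h1 : δ < π) :
    Step h ψ δ ψ' δ' ↔ bil H (ψ, δ) = (ψ', δ') := by
  constructor
  · rintro ⟨-, -, h2, h3, h4, ℓ, hℓ, he⟩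
    refine bil_of_spec H h0.le h1.le h2.le h3.le h4 ?_
    rw [bdry_eq_kf h (ψ + δ) ψ', bdry_eq_kf h (ψ + δ) ψ] at he
    have hne : Complex.exp (((ψ + δ : ℝ) : ℂ) * Complex.I) ≠ 0 := Complex.exp_ne_zero _
    have he2 : ((kf h (ψ + δ) ψ' : ℂ) + (tf h (ψ + δ) ψ' : ℂ) * Complex.I) =
        (kf h (ψ + δ) ψ : ℂ) + (tf h (ψ + δ) ψ : ℂ) * Complex.I + (ℓ : ℂ) * Complex.I := by
      apply mul_right_cancel₀ hne
      rw [he]; ring
    have := congrArg Complex.re he2
    simp at this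
    exact this.symm
  · intro he
    obtain ⟨a1, a2, a3, a4⟩ := bil_spec H (ψ := ψ) h0.le h1
    have a1' := bil_pos H (z := (ψ, δ)) h0
    rw [he] at a1 a2 a3 a4 a1'
    simp only at a1 a2 a3 a4 a1'
    refine ⟨h0, h1, a1', a2, a3, tf h (ψ + δ) ψ' - tf h (ψ + δ) ψ, ?_, ?_⟩
    · have := tf_lt H (φ := ψ + δ) (ψ := ψ) (ψ' := ψ') (by linarith) (by linarith)
        (by linarith) (by linarith) a4
      linarith
    · rw [bdry_eq_kf h (ψ + δ) ψ', bdry_eq_kf h (ψ + δ) ψ, a4]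
      push_cast
      ring

end

end Vale.Agent.P097.H438
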