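import Vale.Agent.P097.H438.Lit
import Vale.Agent.P097.H438.Line

/-!
# P097, block LIT: the normal angle and the support function of a table
-/

open Real Set Filter Topology
open scoped ContDiff ComplexConjugate

namespace Vale.Agent.P097.H438

namespace Table

variable (B : Table)

theorem hasDerivAt_γ (s : ℝ) : HasDerivAt B.γ (deriv B.γ s) s :=
  ((contDiff_infty_iff_deriv.1 B.smooth).1 s).hasDerivAt

theorem smooth' : ContDiff ℝ ∞ (deriv B.γ) := (contDiff_infty_iff_deriv.1 B.smooth).2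

theorem smooth'' : ContDiff ℝ ∞ (deriv (deriv B.γ)) := (contDiff_infty_iff_deriv.1 B.smooth').2

theorem hasDerivAt_γ' (s : ℝ) : HasDerivAt (deriv B.γ) (deriv (deriv B.γ) s) s :=
  ((contDiff_infty_iff_deriv.1 B.smooth').1 s).hasDerivAt

/-- curvature -/
noncomputable def κ (s : ℝ) : ℝ := (conj (deriv B.γ s) * deriv (deriv B.γ) s).im

theorem κ_pos (s : ℝ) : 0 < B.κ s := B.curv s

theorem κ_smooth : ContDiff ℝ ∞ B.κ := by
  have h1 : ContDiff ℝ ∞ fun s => (conj (deriv B.γ s) : ℂ) :=
    Complex.conjCLE.contDiff.comp B.smooth'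
  exact Complex.imCLM.contDiff.comp (h1.mul B.smooth'')

theorem conj_mul (s : ℝ) : conj (deriv B.γ s) * deriv B.γ s = 1 := by
  rw [mul_comm, Complex.mul_conj, Complex.normSq_eq_norm_sq, B.unit]
  simp

theorem re_zero (s : ℝ) : (conj (deriv B.γ s) * deriv (deriv B.γ) s).re = 0 := by
  have h1 : HasDerivAt (fun s => (deriv B.γ s).re) (deriv (deriv B.γ) s).re s :=
    Complex.reCLM.hasFDerivAt.comp_hasDerivAt s (B.hasDerivAt_γ' s)
  have h2 : HasDerivAt (fun s => (deriv B.γ s).im) (deriv (deriv B.γ) s).im s :=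
    Complex.imCLM.hasFDerivAt.comp_hasDerivAt s (B.hasDerivAt_γ' s)
  have h3 := (h1.mul h1).add (h2.mul h2)
  have h4 : (fun s => (deriv B.γ s).re) * (fun s => (deriv B.γ s).re) +
      (fun s => (deriv B.γ s).im) * (fun s => (deriv B.γ s).im) = fun _ => (1 : ℝ) := by
    funext s
    simp only [Pi.add_apply, Pi.mul_apply]
    rw [← Complex.normSq_apply, Complex.normSq_eq_norm_sq, B.unit]
    simp
  rw [h4] at h3
  have h5 := h3.unique (hasDerivAt_const s (1 : ℝ))
  simp only [Complex.mul_re, Complex.conj_re, Complex.conj_im]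
  linarith

theorem dd_eq (s : ℝ) : deriv (deriv B.γ) s = B.κ s * Complex.I * deriv B.γ s := by
  have h1 : conj (deriv B.γ s) * deriv (deriv B.γ) s = B.κ s * Complex.I := by
    apply Complex.ext
    · rw [B.re_zero]; simp
    · rw [κ]; simp
  have h2 := B.conj_mul s
  calc deriv (deriv B.γ) s = (conj (deriv B.γ s) * deriv B.γ s) * deriv (deriv B.γ) s := by
        rw [h2, one_mul]
    _ = (conj (deriv B.γ s) * deriv (deriv B.γ) s) * deriv B.γ s := by ring
    _ = _ := by rw [h1]

/-- the normal angle along the boundary -/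
noncomputable def ang (s : ℝ) : ℝ :=
  Complex.arg (-Complex.I * deriv B.γ 0) + ∫ u in (0 : ℝ)..s, B.κ u

theorem ang_hasDerivAt (s : ℝ) : HasDerivAt B.ang (B.κ s) s :=
  (B.κ_smooth.continuous.integral_hasStrictDerivAt 0 s).hasDerivAt.const_add _

theorem γ'_eq (s : ℝ) : deriv B.γ s = Complex.I * Complex.exp (B.ang s * Complex.I) := by
  have h1 : ∀ s, HasDerivAt (fun s => deriv B.γ s * Complex.exp (-(B.ang s * Complex.I))) 0 s := by
    intro s
    have e1 : HasDerivAt (fun s => (B.ang s : ℂ)) (B.κ s : ℂ) s := (B.ang_hasDerivAt s).ofReal_comp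
    have e2 := ((e1.mul_const Complex.I).neg).cexp
    have e3 := (B.hasDerivAt_γ' s).mul e2
    refine e3.congr_deriv ?_
    rw [B.dd_eq]
    ring
  have h2 := is_const_of_deriv_eq_zero (fun s => (h1 s).differentiableAt) (fun s => (h1 s).deriv) s 0
  have h3 : Complex.exp (B.ang 0 * Complex.I) = -Complex.I * deriv B.γ 0 := by
    have e1 : B.ang 0 = Complex.arg (-Complex.I * deriv B.γ 0) := by simp [ang]
    have e2 := Complex.norm_mul_exp_arg_mul_I (-Complex.I * deriv B.γ 0)
    rw [norm_mul, norm_neg, Complex.norm_I, B.unit, one_mul, Complex.ofReal_one, one_mul] at e2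
    rw [e1, e2]
  have h4 : deriv B.γ 0 = Complex.I * Complex.exp (B.ang 0 * Complex.I) := by
    rw [h3, ← mul_assoc, mul_neg, Complex.I_mul_I, neg_neg, one_mul]
  rw [h4, mul_assoc, ← Complex.exp_add, add_neg_cancel, Complex.exp_zero, mul_one] at h2
  have h5 : deriv B.γ s = deriv B.γ s * Complex.exp (-(B.ang s * Complex.I)) *
      Complex.exp (B.ang s * Complex.I) := by
    rw [mul_assoc, ← Complex.exp_add, neg_add_cancel, Complex.exp_zero, mul_one]
  rw [h5, h2]

theorem γ'_per (s : ℝ) : deriv B.γ (s + B.L) = deriv B.γ s := by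
  have : (fun y => B.γ (y + B.L)) = B.γ := funext B.periodic
  conv_rhs => rw [← this]
  rw [deriv_comp_add_const]

theorem γ''_per (s : ℝ) : deriv (deriv B.γ) (s + B.L) = deriv (deriv B.γ) s := by
  have : (fun y => deriv B.γ (y + B.L)) = deriv B.γ := funext B.γ'_per
  conv_rhs => rw [← this]
  rw [deriv_comp_add_const]

theorem κ_per (s : ℝ) : B.κ (s + B.L) = B.κ s := by
  rw [κ, κ, B.γ'_per, B.γ''_per]

theorem ang_strictMono : StrictMono B.ang := by
  apply strictMono_of_deriv_pos
  intro s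
  rw [(B.ang_hasDerivAt s).deriv]
  exact B.κ_pos s

theorem ang_continuous : Continuous B.ang :=
  continuous_iff_continuousAt.2 fun s => (B.ang_hasDerivAt s).continuousAt

theorem ang_shift : ∃ k : ℤ, 0 < k ∧ ∀ s, B.ang (s + B.L) = B.ang s + 2 * π * k := by
  have h1 : ∀ s, HasDerivAt (fun s => B.ang (s + B.L) - B.ang s) 0 s := by
    intro s
    have e1 := (B.ang_hasDerivAt (s + B.L)).comp_add_const s B.L
    have e2 := e1.sub (B.ang_hasDerivAt s)
    rw [B.κ_per, sub_self] at e2
    exact e2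
  have h2 := fun s =>
    is_const_of_deriv_eq_zero (fun s => (h1 s).differentiableAt) (fun s => (h1 s).deriv) s 0
  simp only [zero_add] at h2
  have h3 : Complex.exp (((B.ang B.L - B.ang 0 : ℝ) : ℂ) * Complex.I) = 1 := by
    have e1 := B.γ'_per 0
    rw [zero_add, B.γ'_eq, B.γ'_eq] at e1
    have e2 := mul_left_cancel₀ Complex.I_ne_zero e1
    push_cast
    rw [sub_mul, Complex.exp_sub, e2, div_self (Complex.exp_ne_zero _)]
  obtain ⟨k, hk⟩ := Complex.exp_eq_one_iff.1 h3
  have h4 : B.ang B.L - B.ang 0 = 2 * π * k := by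
    have e1 : ((B.ang B.L - B.ang 0 : ℝ) : ℂ) * Complex.I = ((2 * π * k : ℝ) : ℂ) * Complex.I := by
      rw [hk]; push_cast; ring
    exact_mod_cast mul_right_cancel₀ Complex.I_ne_zero e1
  refine ⟨k, ?_, fun s => by linarith [h2 s]⟩
  have h5 := B.ang_strictMono B.L_pos
  have h6 : 0 < 2 * π * k := by linarith
  have h7 : (0 : ℝ) < k := by
    by_contra hcon
    have := pi_pos
    nlinarith
  exact_mod_cast h7

theorem nonempty : B.Ω.Nonempty := by
  by_contra h
  rw [not_nonempty_iff_eq_empty] at h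
  have h1 := B.boundary
  rw [h, frontier_empty] at h1
  exact (range_nonempty B.γ).ne_empty h1

theorem γ_not_mem (s : ℝ) : B.γ s ∉ B.Ω := by
  intro h
  have h1 : B.γ s ∈ frontier B.Ω := by rw [← B.boundary]; exact mem_range_self s
  rw [B.isOpen.frontier_eq] at h1
  exact h1.2 h

theorem γ_mem_closure (s : ℝ) : B.γ s ∈ closure B.Ω := by
  have h1 : B.γ s ∈ frontier B.Ω := by rw [← B.boundary]; exact mem_range_self s
  exact h1.1

theorem interior_closure : interior (closure B.Ω) = B.Ω := by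
  rw [B.convex.interior_closure_eq_interior_of_nonempty_interior
    (by rw [B.isOpen.interior_eq]; exact B.nonempty), B.isOpen.interior_eq]

/-- decomposition of a real linear functional on the plane -/
theorem func_eq (f : ℂ →L[ℝ] ℝ) (a : ℝ) (z : ℂ) :
    f z = (Complex.exp (-(a * Complex.I)) * z).re * f (Complex.exp (a * Complex.I)) +
      (Complex.exp (-(a * Complex.I)) * z).im * f (Complex.I * Complex.exp (a * Complex.I)) := by
  set w := Complex.exp (-(a * Complex.I)) * z with hw
  have h1 : z = w.re • Complex.exp (a * Complex.I) + w.im • (Complex.I * Complex.exp (a * Complex.I)) := by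
    rw [Complex.real_smul, Complex.real_smul, ← mul_assoc, ← add_mul, Complex.re_add_im, hw,
      mul_comm (Complex.exp (-(a * Complex.I))) z, mul_assoc, ← Complex.exp_add, neg_add_cancel,
      Complex.exp_zero, mul_one]
  conv_lhs => rw [h1]
  rw [map_add, map_smul, map_smul, smul_eq_mul, smul_eq_mul]

theorem exists_support (s : ℝ) : ∃ f : ℂ →L[ℝ] ℝ, (∀ a ∈ B.Ω, f a < f (B.γ s)) ∧
    (∀ z, f z = (Complex.exp (-(B.ang s * Complex.I)) * z).re *
      f (Complex.exp (B.ang s * Complex.I))) ∧ 0 < f (Complex.exp (B.ang s * Complex.I)) := by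
  obtain ⟨f, hf⟩ := geometric_hahn_banach_open_point B.convex B.isOpen (B.γ_not_mem s)
  have hle : ∀ z ∈ closure B.Ω, f z ≤ f (B.γ s) := by
    intro z hz
    have h1 : closure B.Ω ⊆ {z | f z ≤ f (B.γ s)} :=
      closure_minimal (fun a ha => (hf a ha).le) (isClosed_le f.continuous continuous_const)
    exact h1 hz
  have hg : ∀ t, HasDerivAt (fun t => f (B.γ t)) (f (deriv B.γ t)) t := fun t =>
    f.hasFDerivAt.comp_hasDerivAt t (B.hasDerivAt_γ t)
  have hg' : ∀ t, HasDerivAt (fun t => f (deriv B.γ t)) (f (deriv (deriv B.γ) t)) t := fun t =>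
    f.hasFDerivAt.comp_hasDerivAt t (B.hasDerivAt_γ' t)
  have hmax : IsLocalMax (fun t => f (B.γ t)) s :=
    Eventually.of_forall fun t => hle _ (B.γ_mem_closure t)
  have h0 : f (deriv B.γ s) = 0 := hmax.hasDerivAt_eq_zero (hg s)
  have hdg : deriv (fun t => f (B.γ t)) = fun t => f (deriv B.γ t) := funext fun t => (hg t).deriv
  have h2 : f (deriv (deriv B.γ) s) ≤ 0 := by
    by_contra hcon
    rw [not_le] at hcon
    have hmin : IsLocalMin (fun t => f (B.γ t)) s := by
      refine isLocalMin_of_deriv_deriv_pos ?_ ?_ (hg s).continuousAt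
      · rw [hdg, (hg' s).deriv]; exact hcon
      · rw [hdg]; exact h0
    have h3 : (fun t => f (B.γ t)) =ᶠ[𝓝 s] fun _ => f (B.γ s) := by
      filter_upwards [hmax, hmin] with t h1 h2
      exact le_antisymm h1 h2
    have h4 := h3.deriv.deriv_eq
    rw [hdg, (hg' s).deriv] at h4
    simp only [deriv_const', deriv_const] at h4
    linarith
  have hdec : ∀ z, f z = (Complex.exp (-(B.ang s * Complex.I)) * z).re *
      f (Complex.exp (B.ang s * Complex.I)) := by
    intro z
    rw [func_eq f (B.ang s) z, ← B.γ'_eq s, h0, mul_zero, add_zero]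
  refine ⟨f, hf, hdec, ?_⟩
  have h5 : f (deriv (deriv B.γ) s) = -B.κ s * f (Complex.exp (B.ang s * Complex.I)) := by
    rw [hdec, B.dd_eq, B.γ'_eq]
    congr 1
    have : Complex.exp (-(B.ang s * Complex.I)) * (B.κ s * Complex.I *
        (Complex.I * Complex.exp (B.ang s * Complex.I))) = ((-B.κ s : ℝ) : ℂ) := by
      have e : Complex.exp (-(B.ang s * Complex.I)) * Complex.exp (B.ang s * Complex.I) = 1 := by
        rw [← Complex.exp_add, neg_add_cancel, Complex.exp_zero]
      calc _ = B.κ s * (Complex.I * Complex.I) *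
          (Complex.exp (-(B.ang s * Complex.I)) * Complex.exp (B.ang s * Complex.I)) := by ring
        _ = _ := by rw [e, Complex.I_mul_I]; push_cast; ring
    rw [this, Complex.ofReal_re]
  have h6 : 0 ≤ f (Complex.exp (B.ang s * Complex.I)) := by
    by_contra hcon
    have := B.κ_pos s
    rw [h5] at h2
    nlinarith
  refine lt_of_le_of_ne h6 fun h7 => ?_
  obtain ⟨a, ha⟩ := B.nonempty
  have h8 := hf a ha
  rw [hdec a, hdec (B.γ s), ← h7, mul_zero, mul_zero] at h8
  exact lt_irrefl _ h8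

theorem support_Ω (s : ℝ) {z : ℂ} (hz : z ∈ B.Ω) :
    (Complex.exp (-(B.ang s * Complex.I)) * z).re <
      (Complex.exp (-(B.ang s * Complex.I)) * B.γ s).re := by
  obtain ⟨f, h1, h2, h3⟩ := B.exists_support s
  have := h1 z hz
  rw [h2 z, h2 (B.γ s)] at this
  exact lt_of_mul_lt_mul_right this h3.le

theorem support_γ (s t : ℝ) (h : B.γ t ≠ B.γ s) :
    (Complex.exp (-(B.ang s * Complex.I)) * B.γ t).re <
      (Complex.exp (-(B.ang s * Complex.I)) * B.γ s).re := by
  have h1 : openSegment ℝ (B.γ t) (B.γ s) ⊆ B.Ω := by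
    rw [← B.interior_closure]
    exact B.strictConvex.openSegment_subset (B.γ_mem_closure t) (B.γ_mem_closure s) h
  have h2 : (1 / 2 : ℝ) • B.γ t + (1 / 2 : ℝ) • B.γ s ∈ openSegment ℝ (B.γ t) (B.γ s) :=
    ⟨1 / 2, 1 / 2, by norm_num, by norm_num, by norm_num, rfl⟩
  have h3 := B.support_Ω s (h1 h2)
  rw [mul_add, Complex.add_re, Complex.real_smul, Complex.real_smul,
    mul_left_comm, mul_left_comm (Complex.exp _) ((1 / 2 : ℝ) : ℂ), Complex.re_ofReal_mul,
    Complex.re_ofReal_mul] at h3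
  linarith

/-- the turning number is one -/
theorem ang_add_L (s : ℝ) : B.ang (s + B.L) = B.ang s + 2 * π := by
  obtain ⟨k, hk, h⟩ := B.ang_shift
  have hk1 : k = 1 := by
    by_contra hne
    have hk2 : 2 ≤ k := by omega
    have hk3 : (2 : ℝ) ≤ k := by exact_mod_cast hk2
    have hπ := pi_pos
    have h0 := h 0
    rw [zero_add] at h0
    have hlt : B.ang 0 + 2 * π < B.ang B.L := by rw [h0]; nlinarith
    obtain ⟨t, ht, htt⟩ := intermediate_value_Icc B.L_pos.le B.ang_continuous.continuousOn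
      (show B.ang 0 + 2 * π ∈ Icc (B.ang 0) (B.ang B.L) from ⟨by linarith, hlt.le⟩)
    have ht0 : 0 < t := B.ang_strictMono.lt_iff_lt.1 (by rw [htt]; linarith)
    have htL : t < B.L := B.ang_strictMono.lt_iff_lt.1 (by rw [htt]; exact hlt)
    have hne : B.γ t ≠ B.γ 0 := by
      intro he
      obtain ⟨n, hn⟩ := coe_eq_iff.1 (B.simple t 0 he)
      rw [zero_add] at hn
      have hL := B.L_pos
      have h1 : (0 : ℝ) < n := by
        by_contra hcon
        nlinarith
      have h2 : (n : ℝ) < 1 := by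
        by_contra hcon
        nlinarith
      have h3 : 0 < n := by exact_mod_cast h1
      have h4 : n < 1 := by exact_mod_cast h2
      omega
    have e : Complex.exp (-(B.ang t * Complex.I)) = Complex.exp (-(B.ang 0 * Complex.I)) := by
      rw [htt]
      push_cast
      rw [add_mul, neg_add, Complex.exp_add, Complex.exp_neg (2 * π * Complex.I),
        Complex.exp_two_pi_mul_I, inv_one, mul_one]
    have s1 := B.support_γ 0 t hne
    have s2 := B.support_γ t 0 hne.symm
    rw [e] at s2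
    linarith
  rw [h, hk1]; simp

theorem ang_surjective : Function.Surjective B.ang := by
  intro y
  have hnat : ∀ n : ℕ, B.ang (n * B.L) = B.ang 0 + n * (2 * π) ∧
      B.ang (-(n * B.L)) = B.ang 0 - n * (2 * π) := by
    intro n
    induction n with
    | zero => simp
    | succ n ih =>
      constructor
      · have := B.ang_add_L (n * B.L)
        rw [ih.1] at this
        push_cast
        rw [add_mul, one_mul, this]; ring
      · have := B.ang_add_L (-((n + 1 : ℕ) * B.L))
        push_cast at this ⊢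
        rw [show -(((n : ℝ) + 1) * B.L) + B.L = -(n * B.L) by ring, ih.2] at this
        linarith
  obtain ⟨n, hn⟩ := exists_nat_gt (|y - B.ang 0| / (2 * π))
  rw [div_lt_iff₀ (by positivity)] at hn
  have h1 := abs_lt.1 hn
  have hL : 0 ≤ (n : ℝ) * B.L := by have := B.L_pos; positivity
  obtain ⟨s, -, hs⟩ := intermediate_value_Icc (show -((n : ℝ) * B.L) ≤ n * B.L by linarith)
    B.ang_continuous.continuousOn (show y ∈ Icc _ _ by
      rw [(hnat n).1, (hnat n).2]; constructor <;> linarith)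
  exact ⟨s, hs⟩

/-- the normal angle as a homeomorphism of the line -/
noncomputable def angH : ℝ ≃ₜ ℝ :=
  (B.ang_strictMono.orderIsoOfSurjective B.ang B.ang_surjective).toHomeomorph

theorem angH_apply (s : ℝ) : B.angH s = B.ang s := rfl

/-- the position with given normal angle -/
noncomputable def pos (ψ : ℝ) : ℝ := B.angH.symm ψ

theorem ang_pos (ψ : ℝ) : B.ang (B.pos ψ) = ψ := B.angH.apply_symm_apply ψ

theorem pos_ang (s : ℝ) : B.pos (B.ang s) = s := B.angH.symm_apply_apply s

theorem pos_continuous : Continuous B.pos := B.angH.symm.continuous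

theorem pos_add (ψ : ℝ) : B.pos (ψ + 2 * π) = B.pos ψ + B.L := by
  apply B.ang_strictMono.injective
  rw [B.ang_pos, B.ang_add_L, B.ang_pos]

theorem ang_smooth : ContDiff ℝ ∞ B.ang := by
  rw [contDiff_infty_iff_deriv]
  refine ⟨fun s => (B.ang_hasDerivAt s).differentiableAt, ?_⟩
  have : deriv B.ang = B.κ := funext fun s => (B.ang_hasDerivAt s).deriv
  rw [this]
  exact B.κ_smooth

theorem pos_smooth : ContDiff ℝ ∞ B.pos :=
  B.angH.contDiff_symm_deriv (f' := B.κ) (fun s => (B.κ_pos s).ne')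
    (fun s => B.ang_hasDerivAt s) B.ang_smooth

theorem pos_hasDerivAt (ψ : ℝ) : HasDerivAt B.pos (B.κ (B.pos ψ))⁻¹ ψ := by
  have h1 : DifferentiableAt ℝ B.pos ψ := (B.pos_smooth.differentiable (by simp)) ψ
  have h2 := (B.ang_hasDerivAt (B.pos ψ)).comp ψ h1.hasDerivAt
  have h3 : B.ang ∘ B.pos = id := funext B.ang_pos
  rw [h3] at h2
  have h4 := h2.unique (hasDerivAt_id ψ)
  have h5 : deriv B.pos ψ = (B.κ (B.pos ψ))⁻¹ := by
    rw [eq_comm, inv_eq_iff_eq_inv, ← one_div, eq_div_iff]
    · exact h4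
    · intro h0
      rw [h0, mul_zero] at h4
      exact zero_ne_one h4
  rw [← h5]
  exact h1.hasDerivAt

/-- the boundary point with given normal angle, in the rotated frame -/
noncomputable def w (ψ : ℝ) : ℂ := Complex.exp (-(ψ * Complex.I)) * B.γ (B.pos ψ)

theorem w_hasDerivAt (ψ : ℝ) : HasDerivAt B.w
    (-(Complex.I * B.w ψ) + ((B.κ (B.pos ψ))⁻¹ : ℝ) * Complex.I) ψ := by
  have e1 : HasDerivAt (fun x : ℝ => (x : ℂ)) 1 ψ := (hasDerivAt_id ψ).ofReal_comp
  have e2 := ((e1.mul_const Complex.I).neg).cexp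
  have e3 := (B.hasDerivAt_γ (B.pos ψ)).scomp ψ (B.pos_hasDerivAt ψ)
  have e4 := e2.mul e3
  refine e4.congr_deriv ?_
  rw [B.γ'_eq, B.ang_pos, Complex.real_smul, w]
  have e : Complex.exp (-(ψ * Complex.I)) * Complex.exp (ψ * Complex.I) = 1 := by
    rw [← Complex.exp_add, neg_add_cancel, Complex.exp_zero]
  simp only [Function.comp]
  linear_combination ((B.κ (B.pos ψ))⁻¹ : ℝ) * Complex.I * e

/-- the support function of the table -/
noncomputable def hs (ψ : ℝ) : ℝ := (B.w ψ).re

theorem hs_hasDerivAt (ψ : ℝ) : HasDerivAt B.hs (B.w ψ).im ψ := by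
  have h := Complex.reCLM.hasFDerivAt.comp_hasDerivAt ψ (B.w_hasDerivAt ψ)
  refine h.congr_deriv ?_
  simp

theorem deriv_hs : deriv B.hs = fun ψ => (B.w ψ).im := funext fun ψ => (B.hs_hasDerivAt ψ).deriv

theorem hs_hasDerivAt' (ψ : ℝ) :
    HasDerivAt (deriv B.hs) (-(B.hs ψ) + (B.κ (B.pos ψ))⁻¹) ψ := by
  rw [B.deriv_hs]
  have h := Complex.imCLM.hasFDerivAt.comp_hasDerivAt ψ (B.w_hasDerivAt ψ)
  refine h.congr_deriv ?_
  simp [hs]

theorem w_smooth : ContDiff ℝ ∞ B.w := by
  have h1 : ContDiff ℝ ∞ fun x : ℝ => (x : ℂ) := Complex.ofRealCLM.contDiff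
  have h2 : ContDiff ℝ ∞ fun x : ℝ => Complex.exp (-(x * Complex.I)) :=
    (h1.mul contDiff_const).neg.cexp
  exact h2.mul (B.smooth.comp B.pos_smooth)

theorem hs_table : SmoothTable B.hs := by
  refine ⟨Complex.reCLM.contDiff.comp B.w_smooth, fun ψ => ?_, fun ψ => ?_⟩
  · rw [hs, hs, w, w, B.pos_add, B.periodic]
    congr 2
    push_cast
    rw [add_mul, neg_add, Complex.exp_add, Complex.exp_neg (2 * π * Complex.I),
      Complex.exp_two_pi_mul_I, inv_one, mul_one]
  · rw [(B.hs_hasDerivAt' ψ).deriv]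
    have := inv_pos.2 (B.κ_pos (B.pos ψ))
    linarith

theorem bdry_hs (ψ : ℝ) : bdry B.hs ψ = B.γ (B.pos ψ) := by
  rw [bdry, B.deriv_hs]
  simp only [hs]
  rw [Complex.re_add_im, w, mul_comm, ← mul_assoc, ← Complex.exp_add, add_neg_cancel,
    Complex.exp_zero, one_mul]

end Table

end Vale.Agent.P097.H438
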