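import Vale.Agent.P097.H438.Wand

/-!
# P097, block LIT: area preservation excludes left mouths
-/

open Set Metric Topology Filter MeasureTheory

namespace Vale.Agent.P097.H438

theorem add_pair_zero (z : ℝ × ℝ) : z + ((0 : ℝ), (0 : ℝ)) = z := by
  ext <;> simp

theorem add_pair (z : ℝ × ℝ) (a b : ℝ) : z + (a, (0 : ℝ)) + (b, (0 : ℝ)) = z + (a + b, (0 : ℝ)) := by
  ext <;> simp [add_assoc]

namespace Sys

variable (S : Sys)

/-! ### Translations -/

theorem m_add {a : ℝ} (ha : ∀ z : ℝ × ℝ, z + (a, 0) ∈ S.C ↔ z ∈ S.C) (x : ℝ) :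
    S.m (x + a) = S.m x := by
  unfold m
  congr 1
  ext y
  simp only [mem_ofPred_eq]
  rw [← ha (x, y)]
  simp

theorem V_add {a : ℝ} (ha : ∀ z : ℝ × ℝ, z + (a, 0) ∈ S.C ↔ z ∈ S.C) {z : ℝ × ℝ} :
    z + (a, 0) ∈ S.V ↔ z ∈ S.V := by
  rw [S.mem_V, S.mem_V, Prod.fst_add, Prod.snd_add, S.m_add ha, add_zero]

theorem closure_V_add {a : ℝ} (ha : ∀ z : ℝ × ℝ, z + (a, 0) ∈ S.C ↔ z ∈ S.C) {z : ℝ × ℝ} :
    z + (a, 0) ∈ closure S.V ↔ z ∈ closure S.V := by
  have h1 : (Homeomorph.addRight ((a, 0) : ℝ × ℝ)) ⁻¹' S.V = S.V := by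
    ext w; exact S.V_add ha
  have h2 := (Homeomorph.addRight ((a, 0) : ℝ × ℝ)).preimage_closure S.V
  rw [h1] at h2
  exact Set.ext_iff.1 h2 z

theorem O_add {a : ℝ} (ha : ∀ z : ℝ × ℝ, z + (a, 0) ∈ S.C ↔ z ∈ S.C) {z : ℝ × ℝ} :
    z + (a, 0) ∈ S.O ↔ z ∈ S.O := by
  rw [S.mem_O, S.mem_O, ha, S.closure_V_add ha, Prod.snd_add, add_zero]

theorem LM_add {a : ℝ} (ha : ∀ z : ℝ × ℝ, z + (a, 0) ∈ S.C ↔ z ∈ S.C) {e : ℝ × ℝ}
    (he : S.LM e) : S.LM (e + (a, 0)) := by
  obtain ⟨r, hr, h0, h1, h2⟩ := he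
  have hm : ∀ x, S.m x = S.m (x - a) := fun x => by rw [← S.m_add ha (x - a), sub_add_cancel]
  refine ⟨r, hr, fun z hz => ?_, fun x hx hx' => ?_, fun x hx hx' => ?_⟩
  · have h3 : z - (a, 0) ∈ ball e r := by
      rw [mem_ball, dist_eq_norm] at hz ⊢
      rwa [show z - (a, 0) - e = z - (e + (a, 0)) by abel]
    have h4 := h0 _ h3
    rw [← ha (z - (a, 0)), sub_add_cancel] at h4
    simpa using h4
  · rw [Prod.fst_add] at hx hx'
    rw [Prod.snd_add, add_zero, hm]
    exact h1 _ (by linarith) (by linarith)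
  · rw [Prod.fst_add] at hx hx'
    rw [Prod.snd_add, add_zero, hm]
    exact h2 _ (by linarith) (by linarith)

theorem W_add_of {a : ℝ} (ha : ∀ z : ℝ × ℝ, z + (a, 0) ∈ S.C ↔ z ∈ S.C) {z : ℝ × ℝ}
    (hz : z ∈ S.W) : z + (a, 0) ∈ S.W := by
  obtain ⟨h1, e, he, hez⟩ := hz
  refine ⟨(S.O_add ha).2 h1, e + (a, 0), S.LM_add ha he, ?_⟩
  have hc : Continuous fun w : ℝ × ℝ => w + (a, 0) := by fun_prop
  have hsub : (fun w : ℝ × ℝ => w + (a, 0)) '' S.comp z ⊆ S.comp (z + (a, 0)) := by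
    refine S.sub_comp ((S.isPreconnected_comp z).image _ hc.continuousOn) ?_
      (mem_image_of_mem _ (S.mem_comp h1))
    rintro _ ⟨w, hw, rfl⟩
    exact (S.O_add ha).2 (S.comp_sub z hw)
  exact closure_mono hsub (image_closure_subset_closure_image hc (mem_image_of_mem _ hez))

theorem W_per (z : ℝ × ℝ) : z + (S.P, 0) ∈ S.W ↔ z ∈ S.W := by
  refine ⟨fun h => ?_, fun h => S.W_add_of S.C_per h⟩
  have h1 : ∀ z : ℝ × ℝ, z + (-S.P, 0) ∈ S.C ↔ z ∈ S.C := by
    intro z
    rw [← S.C_per (z + (-S.P, 0)), add_pair, neg_add_cancel, add_pair_zero]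
  have := S.W_add_of h1 h
  rwa [add_pair, add_neg_cancel, add_pair_zero] at this

/-! ### Area -/

theorem mp_nat (n : ℕ) : MeasurePreserving (fun z : ℝ × ℝ => z + (n * S.P, 0)) S.ν S.ν := by
  induction n with
  | zero =>
    have : (fun z : ℝ × ℝ => z + (((0 : ℕ) : ℝ) * S.P, 0)) = id := by
      funext z; simp [add_pair_zero]
    rw [this]
    exact MeasurePreserving.id _
  | succ n ih =>
    have h := S.ν_per.comp ih
    have e : (fun z : ℝ × ℝ => z + (((n + 1 : ℕ) : ℝ) * S.P, 0)) =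
        (fun z : ℝ × ℝ => z + (S.P, 0)) ∘ fun z : ℝ × ℝ => z + (n * S.P, 0) := by
      funext z
      simp only [Function.comp]
      rw [add_pair]
      push_cast
      rw [add_mul, one_mul]
    rw [e]; exact h

theorem preimage_int (n : ℤ) {A : Set (ℝ × ℝ)} (hA : MeasurableSet A) :
    S.ν ((fun z : ℝ × ℝ => z + (n * S.P, 0)) ⁻¹' A) = S.ν A := by
  obtain ⟨k, rfl | rfl⟩ := n.eq_nat_or_neg
  · exact (S.mp_nat k).measure_preimage hA.nullMeasurableSet
  · have hm : Measurable fun z : ℝ × ℝ => z + (((-(k : ℤ) : ℤ) : ℝ) * S.P, 0) := by fun_prop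
    have h := (S.mp_nat k).measure_preimage (hm hA).nullMeasurableSet
    rw [← h]
    congr 1
    ext z
    simp only [mem_preimage]
    rw [add_pair]
    simp [add_pair_zero]

/-- a fundamental strip -/
def D : Set (ℝ × ℝ) := {z | z.1 ∈ Ico 0 S.P}

theorem measurableSet_D : MeasurableSet S.D := measurable_fst measurableSet_Ico

theorem F_int (n : ℤ) (z : ℝ × ℝ) : S.F (z + (n * S.P, 0)) = S.F z + (n * S.P, 0) := by
  have hnat : ∀ (k : ℕ) (z : ℝ × ℝ), S.F (z + (k * S.P, 0)) = S.F z + (k * S.P, 0) := by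
    intro k
    induction k with
    | zero => intro z; simp [add_pair_zero]
    | succ k ih =>
      intro z
      have e : ∀ w : ℝ × ℝ, w + (((k + 1 : ℕ) : ℝ) * S.P, 0) = w + (k * S.P, 0) + (S.P, 0) := by
        intro w
        rw [add_pair]
        push_cast
        rw [add_mul, one_mul]
      rw [e, S.F_per, ih, e]
  obtain ⟨k, rfl | rfl⟩ := n.eq_nat_or_neg
  · exact hnat k z
  · have h := hnat k (z + (((-(k : ℤ) : ℤ) : ℝ) * S.P, 0))
    rw [add_pair] at h
    simp only [Int.cast_neg, Int.cast_natCast, neg_mul, neg_add_cancel, add_pair_zero] at h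
    simp only [Int.cast_neg, Int.cast_natCast, neg_mul]
    rw [h, add_pair, add_neg_cancel, add_pair_zero]

theorem area_aux {A : Set (ℝ × ℝ)} (hA : MeasurableSet A) (hper : ∀ z, z + (S.P, 0) ∈ A ↔ z ∈ A) :
    S.ν (S.F ⁻¹' A ∩ S.D) = S.ν (A ∩ S.D) ∧ (S.ν (A ∩ S.D) = 0 → S.ν A = 0) := by
  have hnat : ∀ (k : ℕ) (z : ℝ × ℝ), z + (k * S.P, 0) ∈ A ↔ z ∈ A := by
    intro k
    induction k with
    | zero => intro z; simp [add_pair_zero]
    | succ k ih =>
      intro z
      have e : z + (((k + 1 : ℕ) : ℝ) * S.P, 0) = z + (k * S.P, 0) + (S.P, 0) := by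
        rw [add_pair]
        push_cast
        rw [add_mul, one_mul]
      rw [e, hper, ih]
  have hint : ∀ (n : ℤ) (z : ℝ × ℝ), z + (n * S.P, 0) ∈ A ↔ z ∈ A := by
    intro n z
    obtain ⟨k, rfl | rfl⟩ := n.eq_nat_or_neg
    · exact hnat k z
    · rw [← hnat k (z + _), add_pair]
      simp [add_pair_zero]
  let _ : AddAction ℤ (ℝ × ℝ) :=
    { vadd := fun n z => z + (n * S.P, 0)
      zero_vadd := fun z => by
        change z + (((0 : ℤ) : ℝ) * S.P, 0) = z
        simp [add_pair_zero]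
      add_vadd := fun a b z => by
        change z + (((a + b : ℤ) : ℝ) * S.P, 0) = z + (b * S.P, 0) + (a * S.P, 0)
        rw [add_pair]
        push_cast
        rw [add_mul, add_comm ((a : ℝ) * S.P)] }
  have hv : ∀ (n : ℤ) (z : ℝ × ℝ), n +ᵥ z = z + (n * S.P, 0) := fun _ _ => rfl
  have : VAddInvariantMeasure ℤ (ℝ × ℝ) S.ν := ⟨fun n s hs => S.preimage_int n hs⟩
  have : MeasurableConstVAdd ℤ (ℝ × ℝ) := ⟨fun n => by
    change Measurable fun z : ℝ × ℝ => z + (n * S.P, 0)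
    fun_prop⟩
  have hD : IsAddFundamentalDomain ℤ S.D S.ν := by
    refine IsAddFundamentalDomain.mk' S.measurableSet_D.nullMeasurableSet fun z => ?_
    have := existsUnique_add_zsmul_mem_Ico S.hP z.1 0
    simpa [hv, D, zsmul_eq_mul] using this
  have hFD : IsAddFundamentalDomain ℤ (S.F ⁻¹' S.D) S.ν := by
    refine IsAddFundamentalDomain.mk'
      (S.F.continuous.measurable S.measurableSet_D).nullMeasurableSet fun z => ?_
    have := existsUnique_add_zsmul_mem_Ico S.hP (S.F z).1 0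
    simpa [hv, D, zsmul_eq_mul, S.F_int] using this
  constructor
  · have hFA : MeasurableSet (S.F ⁻¹' A) := S.F.continuous.measurable hA
    rw [hD.measure_set_eq hFD hFA (fun n => by
      ext z
      simp only [mem_preimage, hv, S.F_int, hint]), ← preimage_inter]
    exact S.ν_pres.measure_preimage (hA.inter S.measurableSet_D).nullMeasurableSet
  · intro h0
    exact hD.measure_zero_of_invariant A (fun n => by
      ext z
      rw [mem_vadd_set_iff_neg_vadd_mem, hv, hint]) h0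

variable {S}

theorem W_sub_closure : S.W ⊆ closure (S.F ⁻¹' S.W) := by
  have hsub : S.F ⁻¹' S.W ⊆ S.W := by
    intro z hz
    have := symm_mem_W hz
    rwa [Homeomorph.symm_apply_apply] at this
  have hWm : MeasurableSet S.W := isOpen_W.measurableSet
  have hFm : MeasurableSet (S.F ⁻¹' S.W) := S.F.continuous.measurable hWm
  have h1 := (S.area_aux hWm S.W_per).1
  have hfin : S.ν (S.W ∩ S.D) < ⊤ := by
    refine lt_of_le_of_lt (measure_mono ?_) (S.ν_fin S.P)
    rintro z ⟨hz1, hz2⟩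
    refine ⟨?_, S.pos_of_mem_O (W_sub hz1), (S.mem_O.1 (W_sub hz1)).1⟩
    rw [abs_of_nonneg hz2.1]
    exact hz2.2.le
  have h2 : S.ν ((S.W \ S.F ⁻¹' S.W) ∩ S.D) = 0 := by
    have e : (S.W \ S.F ⁻¹' S.W) ∩ S.D = (S.W ∩ S.D) \ (S.F ⁻¹' S.W ∩ S.D) := by
      ext z; simp only [mem_inter_iff, Set.mem_sdiff]; tauto
    rw [e, measure_sdiff (inter_subset_inter_left _ hsub)
      (hFm.inter S.measurableSet_D).nullMeasurableSet (by rw [h1]; exact hfin.ne), h1, tsub_self]
  have hper : ∀ z, z + (S.P, 0) ∈ S.W \ S.F ⁻¹' S.W ↔ z ∈ S.W \ S.F ⁻¹' S.W := by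
    intro z
    rw [Set.mem_sdiff, Set.mem_sdiff, S.W_per, mem_preimage, mem_preimage, S.F_per, S.W_per]
  have h3 := (S.area_aux (hWm.diff hFm) hper).2 h2
  intro z hz
  by_contra hcon
  have hopen : IsOpen (S.W ∩ (closure (S.F ⁻¹' S.W))ᶜ) := isOpen_W.inter isClosed_closure.isOpen_compl
  have hpos := S.ν_pos _ hopen (fun w hw =>
    ⟨S.pos_of_mem_O (W_sub hw.1), (S.mem_O.1 (W_sub hw.1)).1⟩) ⟨z, hz, hcon⟩
  refine hpos.ne' (measure_mono_null ?_ h3)
  rintro w ⟨hw1, hw2⟩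
  exact ⟨hw1, fun h => hw2 (subset_closure h)⟩

theorem F_mem_closure_W {e : ℝ × ℝ} (he : e ∈ closure S.W) : S.F e ∈ closure S.W := by
  have h1 : e ∈ closure (S.F ⁻¹' S.W) := by
    have := closure_mono (W_sub_closure (S := S)) he
    rwa [closure_closure] at this
  have h2 := image_closure_subset_closure_image S.F.continuous (mem_image_of_mem _ h1)
  exact closure_mono (image_preimage_subset _ _) h2

theorem no_LM (e : ℝ × ℝ) : ¬ S.LM e := by
  intro he
  obtain ⟨p, hp, hep⟩ := exists_bubble (Or.inl he)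
  obtain ⟨r, hr, h0, h1, h2, h3⟩ := he.left_half_comp hep
  have hpW : p ∈ S.W := ⟨hp, e, he, hep⟩
  have hcW : S.comp p ⊆ S.W := fun w hw => W_of_comp hpW hw
  have hlow := h2 e.1 (by linarith) le_rfl
  have hmpos := S.m_pos e.1
  have hH : ∀ y ∈ Ioo (e.2 - r) (e.2 + r), y < S.H := by
    intro y hy
    exact (h0 (e.1, y) (mem_ball_of_abs (by simpa using hr)
      (by simp only; rw [abs_lt]; constructor <;> linarith [hy.1, hy.2]))).2
  have hinj : InjOn (fun y => (S.F (e.1, y)).1) (Ioo (e.2 - r) (e.2 + r)) := by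
    intro y hy y' hy' hyy
    simp only at hyy
    rcases lt_trichotomy y y' with h | h | h
    · have := S.twist e.1 y y' (by linarith [hy.1]) h (hH y' hy')
      linarith
    · exact h
    · have := S.twist e.1 y' y (by linarith [hy'.1]) h (hH y hy)
      linarith
  obtain ⟨y, hy, hyJ⟩ := exists_not_mem_of_injOn (by linarith) hinj S.countable_J
  have hyr : |y - e.2| < r := by rw [abs_lt]; constructor <;> linarith [hy.1, hy.2]
  have hyC : (e.1, y) ∉ S.C := (h0 (e.1, y) (mem_ball_of_abs (by simpa using hr) hyr)).1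
  have hcl : (e.1, y) ∈ closure S.W := closure_mono hcW (h3 y hyr)
  have hFcl := F_mem_closure_W hcl
  -- the point itself is in the closure of the lower region
  have hV : (e.1, y) ∈ closure S.V := by
    rw [Metric.mem_closure_iff]
    intro ε hε
    have hm := lt_min hε hr
    have hmr := min_le_right ε r
    refine ⟨(e.1 + min ε r / 2, y), ?_, ?_⟩
    · have := h1 (e.1 + min ε r / 2) (by linarith) (by linarith)
      exact S.mem_V.2 (by simp only; linarith [hy.2])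
    · have := min_le_left ε r
      rw [Prod.dist_eq, dist_self, Real.dist_eq,
        show e.1 - (e.1 + min ε r / 2) = -(min ε r / 2) by ring, abs_neg, abs_of_pos (by linarith)]
      exact max_lt (by linarith) hε
  have hFW : S.F (e.1, y) ∉ S.W := by
    intro h
    have := symm_mem_W h
    rw [Homeomorph.symm_apply_apply] at this
    exact (S.mem_O.1 (W_sub this)).2.2 hV
  have hFH : (S.F (e.1, y)).2 < S.H := (S.F_high _).2 (hH y hy)
  have hFC : S.F (e.1, y) ∉ S.C := by rw [S.C_inv]; exact hyC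
  have hFO : S.F (e.1, y) ∉ S.O := fun h => hFW (W_of_closure h hFcl)
  have hFclV : S.F (e.1, y) ∈ closure S.V := by
    by_contra hcon
    exact hFO (S.mem_O.2 ⟨hFH, hFC, hcon⟩)
  have hFV : S.F (e.1, y) ∉ S.V := by
    intro h
    obtain ⟨v, hv1, hv2⟩ := _root_.mem_closure_iff.1 hFcl _ S.isOpen_V h
    exact (S.mem_O.1 (W_sub hv2)).2.2 (subset_closure hv1)
  exact hyJ ⟨_, Mouth.cases ⟨hFclV, hFV, hFC, hFH⟩, rfl⟩

end Sys

end Vale.Agent.P097.H438
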