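import Vale.Agent.P097.H438.Line

/-!
# P097, block LIT: the invariant measure of the billiard map
-/

open Real Set Filter Topology MeasureTheory
open scoped ContDiff ENNReal

namespace Vale.Agent.P097.H438

/-- the open strip -/
def strip : Set (ℝ × ℝ) := {z | 0 < z.2 ∧ z.2 < π}

theorem isOpen_strip : IsOpen strip :=
  (isOpen_lt continuous_const continuous_snd).inter (isOpen_lt continuous_snd continuous_const)

/-- the density of the invariant measure -/
noncomputable def dens (h : ℝ → ℝ) (z : ℝ × ℝ) : ℝ≥0∞ :=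
  ENNReal.ofReal ((h z.1 + deriv (deriv h) z.1) * sin z.2)

/-- the invariant measure -/
noncomputable def nu (h : ℝ → ℝ) : Measure (ℝ × ℝ) := (volume.restrict strip).withDensity (dens h)

variable {h : ℝ → ℝ}

theorem cont_ddh (H : SmoothTable h) : Continuous (deriv (deriv h)) :=
  (contDiff_infty_iff_deriv.1 (contDiff_infty_iff_deriv.1 H.1).2).2.continuous

theorem continuous_dens0 (H : SmoothTable h) :
    Continuous fun z : ℝ × ℝ => (h z.1 + deriv (deriv h) z.1) * sin z.2 := by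
  have h1 := cont_h H
  have h2 := cont_ddh H
  fun_prop

theorem measurable_dens (H : SmoothTable h) : Measurable (dens h) :=
  (continuous_dens0 H).measurable.ennreal_ofReal

theorem nu_apply {B : Set (ℝ × ℝ)} (hB : MeasurableSet B) :
    nu h B = ∫⁻ z in B ∩ strip, dens h z := by
  rw [nu, withDensity_apply _ hB, Measure.restrict_restrict hB]

/-- derivative of the line coordinates of the outgoing line -/
noncomputable def dOut (h : ℝ → ℝ) (z : ℝ × ℝ) : ℝ × ℝ →L[ℝ] ℝ × ℝ :=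
  (Matrix.toLin (.finTwoProd ℝ) (.finTwoProd ℝ)
    !![1, 1; deriv h z.1 * cos z.2 + deriv (deriv h) z.1 * sin z.2,
      -(h z.1 * sin z.2) + deriv h z.1 * cos z.2]).toContinuousLinearMap

/-- derivative of the line coordinates of the incoming line -/
noncomputable def dIn (h : ℝ → ℝ) (z : ℝ × ℝ) : ℝ × ℝ →L[ℝ] ℝ × ℝ :=
  (Matrix.toLin (.finTwoProd ℝ) (.finTwoProd ℝ)
    !![1, -1; deriv h z.1 * cos z.2 - deriv (deriv h) z.1 * sin z.2,
      -(h z.1 * sin z.2) - deriv h z.1 * cos z.2]).toContinuousLinearMap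

theorem det_dOut (z : ℝ × ℝ) :
    (dOut h z).det = -((h z.1 + deriv (deriv h) z.1) * sin z.2) := by
  unfold dOut
  simp only [LinearMap.det_toContinuousLinearMap, LinearMap.det_toLin, Matrix.det_fin_two_of]
  ring

theorem det_dIn (z : ℝ × ℝ) :
    (dIn h z).det = -((h z.1 + deriv (deriv h) z.1) * sin z.2) := by
  unfold dIn
  simp only [LinearMap.det_toContinuousLinearMap, LinearMap.det_toLin, Matrix.det_fin_two_of]
  ring

theorem outH_strip (H : SmoothTable h) {z : ℝ × ℝ} (hz : z ∈ strip) :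
    outH H z = (z.1 + z.2, h z.1 * cos z.2 + deriv h z.1 * sin z.2) := by
  have hz' : z.2 ∈ Icc 0 π := ⟨hz.1.le, hz.2.le⟩
  rw [outH_apply, cl_of_mem hz', extG_of_mem hz', gout, kf]
  rw [show z.1 + z.2 - z.2 - (z.1 + z.2) = -z.2 by ring, show z.1 + z.2 - z.2 = z.1 by ring,
    cos_neg, sin_neg]
  congr 1
  ring

theorem inH_strip (H : SmoothTable h) {z : ℝ × ℝ} (hz : z ∈ strip) :
    inH H z = (z.1 - z.2, h z.1 * cos z.2 - deriv h z.1 * sin z.2) := by
  have hz' : z.2 ∈ Icc 0 π := ⟨hz.1.le, hz.2.le⟩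
  rw [inH_apply, cl_of_mem hz', extG_of_mem hz', gin, kf]
  rw [show z.1 - z.2 + z.2 - (z.1 - z.2) = z.2 by ring, show z.1 - z.2 + z.2 = z.1 by ring]

theorem hasFDerivAt_outH (H : SmoothTable h) {z : ℝ × ℝ} (hz : z ∈ strip) :
    HasFDerivAt (outH H) (dOut h z) z := by
  have h0 : HasFDerivAt (fun z : ℝ × ℝ => (z.1 + z.2, h z.1 * cos z.2 + deriv h z.1 * sin z.2))
      (dOut h z) z := by
    unfold dOut
    rw [Matrix.toLin_finTwoProd_toContinuousLinearMap]
    have f1 : HasFDerivAt (Prod.fst : ℝ × ℝ → ℝ) (ContinuousLinearMap.fst ℝ ℝ ℝ) z :=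
      hasFDerivAt_fst
    have f2 : HasFDerivAt (Prod.snd : ℝ × ℝ → ℝ) (ContinuousLinearMap.snd ℝ ℝ ℝ) z :=
      hasFDerivAt_snd
    have h1 := (hd H z.1).comp_hasFDerivAt z f1
    have h2 := (hdd H z.1).comp_hasFDerivAt z f1
    have h3 := (hasDerivAt_cos z.2).comp_hasFDerivAt z f2
    have h4 := (hasDerivAt_sin z.2).comp_hasFDerivAt z f2
    refine HasFDerivAt.congr_fderiv
      ((f1.add f2).prodMk ((h1.mul h3).add (h2.mul h4))) ?_
    ext <;> (simp; try ring)
  refine h0.congr_of_eventuallyEq ?_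
  filter_upwards [isOpen_strip.mem_nhds hz] with w hw
  exact outH_strip H hw

theorem hasFDerivAt_inH (H : SmoothTable h) {z : ℝ × ℝ} (hz : z ∈ strip) :
    HasFDerivAt (inH H) (dIn h z) z := by
  have h0 : HasFDerivAt (fun z : ℝ × ℝ => (z.1 - z.2, h z.1 * cos z.2 - deriv h z.1 * sin z.2))
      (dIn h z) z := by
    unfold dIn
    rw [Matrix.toLin_finTwoProd_toContinuousLinearMap]
    have f1 : HasFDerivAt (Prod.fst : ℝ × ℝ → ℝ) (ContinuousLinearMap.fst ℝ ℝ ℝ) z :=
      hasFDerivAt_fst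
    have f2 : HasFDerivAt (Prod.snd : ℝ × ℝ → ℝ) (ContinuousLinearMap.snd ℝ ℝ ℝ) z :=
      hasFDerivAt_snd
    have h1 := (hd H z.1).comp_hasFDerivAt z f1
    have h2 := (hdd H z.1).comp_hasFDerivAt z f1
    have h3 := (hasDerivAt_cos z.2).comp_hasFDerivAt z f2
    have h4 := (hasDerivAt_sin z.2).comp_hasFDerivAt z f2
    refine HasFDerivAt.congr_fderiv
      ((f1.sub f2).prodMk ((h1.mul h3).sub (h2.mul h4))) ?_
    ext <;> (simp; try ring)
  refine h0.congr_of_eventuallyEq ?_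
  filter_upwards [isOpen_strip.mem_nhds hz] with w hw
  exact inH_strip H hw

theorem abs_det_eq (H : SmoothTable h) {z : ℝ × ℝ} (hz : z ∈ strip) :
    |-((h z.1 + deriv (deriv h) z.1) * sin z.2)| = (h z.1 + deriv (deriv h) z.1) * sin z.2 := by
  rw [abs_neg, abs_of_pos]
  exact mul_pos (H.2.2 z.1) (sin_pos_of_pos_of_lt_pi hz.1 hz.2)

theorem nu_out (H : SmoothTable h) {B : Set (ℝ × ℝ)} (hB : MeasurableSet B) :
    nu h B = volume (outH H '' (B ∩ strip)) := by
  rw [nu_apply hB, ← lintegral_abs_det_fderiv_eq_addHaar_image volume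
    (hB.inter isOpen_strip.measurableSet)
    (fun z hz => (hasFDerivAt_outH H hz.2).hasFDerivWithinAt) (outH H).injective.injOn]
  refine setLIntegral_congr_fun (hB.inter isOpen_strip.measurableSet) fun z hz => ?_
  rw [det_dOut, abs_det_eq H hz.2, dens]

theorem nu_in (H : SmoothTable h) {B : Set (ℝ × ℝ)} (hB : MeasurableSet B) :
    nu h B = volume (inH H '' (B ∩ strip)) := by
  rw [nu_apply hB, ← lintegral_abs_det_fderiv_eq_addHaar_image volume
    (hB.inter isOpen_strip.measurableSet)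
    (fun z hz => (hasFDerivAt_inH H hz.2).hasFDerivWithinAt) (inH H).injective.injOn]
  refine setLIntegral_congr_fun (hB.inter isOpen_strip.measurableSet) fun z hz => ?_
  rw [det_dIn, abs_det_eq H hz.2, dens]

theorem bil_mem_strip (H : SmoothTable h) (z : ℝ × ℝ) : bil H z ∈ strip ↔ z ∈ strip := by
  have e : 0 < (bil H z).2 ↔ 0 < z.2 := by
    refine ⟨fun h1 => ?_, fun h1 => bil_pos H h1⟩
    by_contra hcon
    rw [bil_low H z (not_lt.1 hcon)] at h1
    exact hcon h1
  exact and_congr e (bil_high H z)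

/-- the billiard map preserves the measure -/
theorem nu_pres (H : SmoothTable h) : MeasurePreserving (bil H) (nu h) (nu h) := by
  refine ⟨(bil H).continuous.measurable, ?_⟩
  ext B hB
  rw [Measure.map_apply (bil H).continuous.measurable hB,
    nu_out H ((bil H).continuous.measurable hB), nu_in H hB]
  congr 1
  ext w
  constructor
  · rintro ⟨z, ⟨hz1, hz2⟩, rfl⟩
    exact ⟨bil H z, ⟨hz1, (bil_mem_strip H z).2 hz2⟩, in_bil H z⟩
  · rintro ⟨z, ⟨hz1, hz2⟩, rfl⟩
    refine ⟨(bil H).symm z, ⟨?_, ?_⟩, ?_⟩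
    · rw [mem_preimage, Homeomorph.apply_symm_apply]; exact hz1
    · rw [← bil_mem_strip H, Homeomorph.apply_symm_apply]; exact hz2
    · rw [← in_bil, Homeomorph.apply_symm_apply]

theorem deriv_deriv_per (hp : ∀ x, h (x + 2 * π) = h x) (x : ℝ) :
    deriv (deriv h) (x + 2 * π) = deriv (deriv h) x := deriv_per (deriv_per hp) x

theorem nu_per (H : SmoothTable h) :
    MeasurePreserving (fun z : ℝ × ℝ => z + (2 * π, 0)) (nu h) (nu h) := by
  have hm : Measurable fun z : ℝ × ℝ => z + (2 * π, 0) := by fun_prop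
  refine ⟨hm, ?_⟩
  ext B hB
  rw [Measure.map_apply hm hB, nu_apply (hm hB), nu_apply hB]
  have h1 : MeasurePreserving (fun z : ℝ × ℝ => z + (2 * π, 0)) volume volume :=
    measurePreserving_add_right volume _
  rw [← h1.setLIntegral_comp_preimage (hB.inter isOpen_strip.measurableSet) (measurable_dens H)]
  have h2 : (fun z : ℝ × ℝ => z + (2 * π, 0)) ⁻¹' (B ∩ strip) =
      (fun z : ℝ × ℝ => z + (2 * π, 0)) ⁻¹' B ∩ strip := by
    ext z
    simp [strip]
  rw [h2]
  refine setLIntegral_congr_fun ((hm hB).inter isOpen_strip.measurableSet) fun z _ => ?_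
  simp only [dens, Prod.fst_add, Prod.snd_add, add_zero]
  rw [H.2.1, deriv_deriv_per H.2.1]

theorem nu_fin (H : SmoothTable h) (R : ℝ) : nu h {z | |z.1| ≤ R ∧ 0 < z.2 ∧ z.2 < π} < ⊤ := by
  have hl : IsLocallyFiniteMeasure (volume.withDensity (dens h)) :=
    IsLocallyFiniteMeasure.withDensity_ofReal (continuous_dens0 H)
  have hK : IsCompact (Icc (-R) R ×ˢ Icc 0 π) := isCompact_Icc.prod isCompact_Icc
  have hm : MeasurableSet {z : ℝ × ℝ | |z.1| ≤ R ∧ 0 < z.2 ∧ z.2 < π} := by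
    have e1 : IsClosed {z : ℝ × ℝ | |z.1| ≤ R} := isClosed_le (by fun_prop) continuous_const
    exact e1.measurableSet.inter isOpen_strip.measurableSet
  refine lt_of_le_of_lt ?_ (hK.measure_lt_top (μ := volume.withDensity (dens h)))
  rw [nu_apply hm, withDensity_apply _ hK.measurableSet]
  refine lintegral_mono_set ?_
  rintro z ⟨⟨h1, h2, h3⟩, -⟩
  exact ⟨abs_le.1 h1, h2.le, h3.le⟩

theorem nu_pos (H : SmoothTable h) (U : Set (ℝ × ℝ)) (hU : IsOpen U)
    (hUs : ∀ z ∈ U, 0 < z.2 ∧ z.2 < π) (hne : U.Nonempty) : 0 < nu h U := by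
  rw [nu_apply hU.measurableSet, setLIntegral_pos_iff (measurable_dens H)]
  refine lt_of_lt_of_le (hU.measure_pos volume hne) (measure_mono ?_)
  intro z hz
  refine ⟨?_, hz, hUs z hz⟩
  rw [Function.mem_support, dens, ne_eq, ENNReal.ofReal_eq_zero, not_le]
  exact mul_pos (H.2.2 z.1) (sin_pos_of_pos_of_lt_pi (hUs z hz).1 (hUs z hz).2)

end Vale.Agent.P097.H438
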