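import Vale.Agent.P097.H438.Graph
import Vale.Agent.P097.H438.Meas

/-!
# P097, block LIT: Birkhoff's theorem for the billiard map
-/

open Real Set Filter Topology MeasureTheory

namespace Vale.Agent.P097.H438

variable {h : ℝ → ℝ}

/-- **Birkhoff's graph theorem** for convex billiards, for closed sets: a closed periodic set of
the open strip which is invariant under the billiard map and all of whose points lie in continua
reaching arbitrarily far to both sides contains an invariant continuous graph. -/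
theorem birkhoff_closed (H : SmoothTable h) {C : Set (ℝ × ℝ)} (hC : IsClosed C)
    (hCs : ∀ z ∈ C, 0 < z.2 ∧ z.2 < π) (hper : ∀ z, z + (2 * π, 0) ∈ C ↔ z ∈ C)
    (hinv : ∀ z ∈ strip, (bil H z ∈ C ↔ z ∈ C))
    (hcon : ∀ z ∈ C, ∀ R : ℝ, ∃ Q ⊆ C, IsCompact Q ∧ IsPreconnected Q ∧ z ∈ Q ∧
      (∃ q ∈ Q, R < q.1) ∧ ∃ q ∈ Q, q.1 < -R) (hne : C.Nonempty) :
    ∃ f, InvGraph h f ∧ ∀ x, (x, f x) ∈ C := by
  set S : Sys :=
    { H := π
      P := 2 * π
      F := bil H
      C := C
      ν := nu h
      hP := by positivity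
      F_low := bil_low H
      F_high := bil_high H
      F_per := bil_per H
      twist := bil_twist H
      twist' := bil_twist' H
      C_closed := hC
      C_strip := hCs
      C_per := hper
      C_inv := fun z => by
        by_cases hz : z ∈ strip
        · exact hinv z hz
        · have h1 : bil H z ∉ strip := fun h => hz ((bil_mem_strip H z).1 h)
          exact ⟨fun h => absurd (hCs _ h) h1, fun h => absurd (hCs _ h) hz⟩
      C_right := fun z hz R => by
        obtain ⟨Q, h1, h2, h3, h4, h5, -⟩ := hcon z hz R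
        exact ⟨Q, h1, h2, h3, h4, h5⟩
      C_left := fun z hz R => by
        obtain ⟨Q, h1, h2, h3, h4, -, h5⟩ := hcon z hz (-R)
        rw [neg_neg] at h5
        exact ⟨Q, h1, h2, h3, h4, h5⟩
      C_ne := hne
      ν_pres := nu_pres H
      ν_per := nu_per H
      ν_fin := nu_fin H
      ν_pos := nu_pos H } with hS
  refine ⟨S.m, ⟨S.continuous_m, S.m_per, fun x => ⟨S.m_pos x, S.m_lt x⟩, fun ψ => ?_⟩, S.m_mem⟩
  refine ⟨(bil H (ψ, S.m ψ)).1, ?_⟩
  rw [step_iff H (S.m_pos ψ) (S.m_lt ψ)]
  exact Prod.ext rfl (S.F_m ψ)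

end Vale.Agent.P097.H438
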