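import Vale.Agent.P097.H438.Mouth

/-!
# P097, block LIT: a bubble has mouths over one point only

Consequences: the mouths lie over a countable set, and the set of bubbles with a left mouth is
mapped into itself by the inverse map.
-/

open Set Metric Topology Filter MeasureTheory

namespace Vale.Agent.P097.H438

namespace Sys

variable {S : Sys}

/-- the right half ball of a right mouth -/
theorem RM.right_half {e : ℝ × ℝ} (h : S.RM e) : ∃ r > 0,
    {z | z ∈ ball e r ∧ e.1 < z.1} ⊆ S.O := by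
  obtain ⟨r, hr, h0, h1, h2⟩ := h
  refine ⟨r, hr, ?_⟩
  rintro z ⟨hz, hz1⟩
  rw [S.mem_O]
  refine ⟨(h0 z hz).2, (h0 z hz).1, fun hcl => ?_⟩
  have hU : IsOpen {z : ℝ × ℝ | z ∈ ball e r ∧ e.1 < z.1} :=
    isOpen_ball.inter (isOpen_lt continuous_const continuous_fst)
  obtain ⟨w, ⟨hw1, hw2⟩, hw3⟩ := mem_closure_iff.1 hcl _ hU ⟨hz, hz1⟩
  obtain ⟨g1, g2⟩ := abs_lt_of_mem_ball hw1
  have := h2 w.1 hw2.le (by have := (abs_lt.1 g1).2; linarith)
  have := S.mem_V.1 hw3
  have := (abs_lt.1 g2).1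
  linarith

theorem connector_aux {e a z : ℝ × ℝ} {r d : ℝ} (hb : ∀ z ∈ ball e r, z ∉ S.C ∧ z.2 < S.H)
    (hrd : r ≤ d) (ha : a ∈ ball e r) (ha2 : a.2 = e.2) (ham : e.2 < S.m a.1) (he : 0 < e.2 - r)
    (hz : z ∈ ball e r) : ∃ K : Set (ℝ × ℝ), IsCompact K ∧ IsPreconnected K ∧
      (∀ w ∈ K, |w.1 - e.1| < d ∧ 0 ≤ w.2 ∧ w.2 ≤ S.H ∧ w ∉ S.C) ∧ (a.1, (0 : ℝ)) ∈ K ∧ z ∈ K := by
  have he0 : 0 ≤ e.2 := by
    have : 0 < r := pos_of_mem_ball ha
    linarith
  have heH : e.2 < S.H := by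
    rw [← ha2]; exact (hb a ha).2
  have hseg : segment ℝ a z ⊆ ball e r := (convex_ball e r).segment_subset ha hz
  refine ⟨({a.1} ×ˢ Icc 0 e.2) ∪ segment ℝ a z, ?_, ?_, ?_, ?_, ?_⟩
  · refine (isCompact_singleton.prod isCompact_Icc).union ?_
    rw [segment_eq_image_lineMap]
    exact isCompact_Icc.image AffineMap.lineMap_continuous
  · refine IsPreconnected.union a ?_ (left_mem_segment ℝ a z)
      (isPreconnected_singleton.prod isPreconnected_Icc) (convex_segment a z).isPreconnected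
    exact ⟨rfl, by rw [ha2]; exact ⟨he0, le_rfl⟩⟩
  · rintro w (⟨hw1, hw2⟩ | hw)
    · rw [mem_singleton_iff] at hw1
      refine ⟨?_, hw2.1, hw2.2.trans heH.le, fun hC => ?_⟩
      · rw [hw1]; exact (abs_lt_of_mem_ball ha).1.trans_le hrd
      · have := S.m_le' hC
        rw [hw1] at this
        linarith [hw2.2]
    · have h1 := hseg hw
      obtain ⟨g1, g2⟩ := abs_lt_of_mem_ball h1
      refine ⟨g1.trans_le hrd, ?_, (hb w h1).2.le, (hb w h1).1⟩
      have := (abs_lt.1 g2).1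
      linarith
  · exact Or.inl (mk_mem_prod rfl ⟨le_rfl, he0⟩)
  · exact Or.inr (right_mem_segment ℝ a z)

/-- a mouth in the closure of a set is connected to that set by a continuum
near the vertical line through it which contains a point of the bottom line -/
theorem connector {e : ℝ × ℝ} (h : S.LM e ∨ S.RM e) {B : Set (ℝ × ℝ)} (heB : e ∈ closure B) {d : ℝ} (hd : 0 < d) : ∃ K : Set (ℝ × ℝ), IsCompact K ∧
      IsPreconnected K ∧ (∀ w ∈ K, |w.1 - e.1| < d ∧ 0 ≤ w.2 ∧ w.2 ≤ S.H ∧ w ∉ S.C) ∧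
      (∃ a, (a, (0 : ℝ)) ∈ K) ∧ ∃ z ∈ B, z ∈ K := by
  rcases h with ⟨r₀, hr₀, h0, h1, h2⟩ | ⟨r₀, hr₀, h0, h1, h2⟩
  · have hlow := h2 e.1 (by linarith) le_rfl
    have hpos := S.m_pos e.1
    obtain ⟨r, hr, hr1, hr2⟩ : ∃ r > 0, r ≤ r₀ ∧ r ≤ d :=
      ⟨min r₀ d, lt_min hr₀ hd, min_le_left _ _, min_le_right _ _⟩
    obtain ⟨z, hzB, hz⟩ := Metric.mem_closure_iff.1 heB r hr
    rw [dist_comm] at hz
    have hhigh := h1 (e.1 + r / 2) (by linarith) (by linarith)
    obtain ⟨K, e1, e2, e3, e4, e5⟩ := connector_aux (S := S) (e := e) (a := (e.1 + r / 2, e.2))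
      (z := z) (r := r) (d := d) (fun z hz => h0 z (ball_subset_ball hr1 hz)) hr2
      (mem_ball_of_abs (by simp only [add_sub_cancel_left]; rw [abs_of_pos] <;> linarith)
        (by simpa using hr)) rfl (by simp only; linarith) (by linarith) hz
    exact ⟨K, e1, e2, e3, ⟨_, e4⟩, z, hzB, e5⟩
  · have hlow := h2 e.1 le_rfl (by linarith)
    have hpos := S.m_pos e.1
    obtain ⟨r, hr, hr1, hr2⟩ : ∃ r > 0, r ≤ r₀ ∧ r ≤ d :=
      ⟨min r₀ d, lt_min hr₀ hd, min_le_left _ _, min_le_right _ _⟩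
    obtain ⟨z, hzB, hz⟩ := Metric.mem_closure_iff.1 heB r hr
    rw [dist_comm] at hz
    have hhigh := h1 (e.1 - r / 2) (by linarith) (by linarith)
    obtain ⟨K, e1, e2, e3, e4, e5⟩ := connector_aux (S := S) (e := e) (a := (e.1 - r / 2, e.2))
      (z := z) (r := r) (d := d) (fun z hz => h0 z (ball_subset_ball hr1 hz)) hr2
      (mem_ball_of_abs (by
        rw [show e.1 - r / 2 - e.1 = -(r / 2) by ring, abs_neg, abs_of_pos] <;> linarith)
        (by simpa using hr)) rfl (by simp only; linarith) (by linarith) hz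
    exact ⟨K, e1, e2, e3, ⟨_, e4⟩, z, hzB, e5⟩

theorem not_lt_of_closure_comp {e q p : ℝ × ℝ} (he : S.LM e ∨ S.RM e) (hq : S.LM q ∨ S.RM q)
    (hep : e ∈ closure (S.comp p)) (hqp : q ∈ closure (S.comp p)) : ¬ e.1 < q.1 := by
  intro hlt
  obtain ⟨K, k1, k2, k3, ⟨a, k4⟩, z, hzB, hzK⟩ := connector he hep (d := (q.1 - e.1) / 2)
    (by linarith)
  obtain ⟨K', k1', k2', k3', ⟨a', k4'⟩, z', hzB', hzK'⟩ := connector hq hqp
    (d := (q.1 - e.1) / 2) (by linarith)
  -- a path in the bubble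
  have hconn : IsConnected (S.comp p) := ⟨⟨z, hzB⟩, S.isPreconnected_comp p⟩
  have hpath : JoinedIn (S.comp p) z z' :=
    ((S.isOpen_comp p).isConnected_iff_isPathConnected.1 hconn).joinedIn z hzB z' hzB'
  obtain ⟨γ, hγ⟩ := hpath
  have hL : IsCompact (range γ) := isCompact_range γ.continuous
  have hL' : IsPreconnected (range γ) := isPreconnected_range γ.continuous
  have hLO : ∀ w ∈ range γ, w ∈ S.O := by
    rintro _ ⟨t, rfl⟩; exact S.comp_sub p (hγ t)
  have hpre : IsPreconnected (K ∪ range γ ∪ K') :=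
    IsPreconnected.union z' (Or.inr ⟨1, γ.target⟩) hzK'
      (IsPreconnected.union z hzK ⟨0, γ.source⟩ k2 hL') k2'
  have ha := abs_lt.1 (k3 _ k4).1
  have ha' := abs_lt.1 (k3' _ k4').1
  simp only at ha ha'
  obtain ⟨y, hy, hyK⟩ := S.below (x := (e.1 + q.1) / 2) ((k1.union hL).union k1') hpre (by
      rintro w ((hw | hw) | hw)
      · exact ⟨(k3 w hw).2.1, (k3 w hw).2.2.1⟩
      · have := hLO w hw
        refine ⟨?_, (S.mem_O.1 this).1.le⟩
        by_contra hcon
        exact (S.mem_O.1 this).2.2 (subset_closure (S.low_mem_V (not_le.1 hcon).le))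
      · exact ⟨(k3' w hw).2.1, (k3' w hw).2.2.1⟩) (by
      rintro w ((hw | hw) | hw)
      · exact (k3 w hw).2.2.2
      · exact (S.mem_O.1 (hLO w hw)).2.1
      · exact (k3' w hw).2.2.2) (a₁ := a) (a₂ := a') (by linarith) (by linarith)
    (Or.inl (Or.inl k4)) (Or.inr k4')
  rcases hyK with (hw | hw) | hw
  · have := abs_lt.1 (k3 _ hw).1
    simp only at this
    linarith
  · exact (S.mem_O.1 (hLO _ hw)).2.2 (S.ray_subset_closure hy)
  · have := abs_lt.1 (k3' _ hw).1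
    simp only at this
    linarith

/-- all mouths of a bubble lie on one vertical line -/
theorem same_x {e q p : ℝ × ℝ} (he : S.LM e ∨ S.RM e) (hq : S.LM q ∨ S.RM q)
    (hep : e ∈ closure (S.comp p)) (hqp : q ∈ closure (S.comp p)) : e.1 = q.1 :=
  le_antisymm (not_lt.1 (not_lt_of_closure_comp hq he hqp hep))
    (not_lt.1 (not_lt_of_closure_comp he hq hep hqp))

/-- every mouth is a mouth of some bubble -/
theorem exists_bubble {e : ℝ × ℝ} (h : S.LM e ∨ S.RM e) : ∃ p ∈ S.O, e ∈ closure (S.comp p) := by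
  rcases h with h | h
  · obtain ⟨r, hr, h1⟩ := h.left_half
    have hconv : Convex ℝ {z | z ∈ ball e r ∧ z.1 < e.1} :=
      (convex_ball e r).inter (convex_halfSpace_lt (f := fun z : ℝ × ℝ => z.1) ⟨fun _ _ => rfl, fun _ _ => rfl⟩ e.1)
    have hmem : ∀ t, 0 < t → t < r → (e.1 - t, e.2) ∈ {z : ℝ × ℝ | z ∈ ball e r ∧ z.1 < e.1} := by
      intro t ht htr
      refine ⟨mem_ball_of_abs ?_ (by simpa using hr), by simp only; linarith⟩
      rw [show e.1 - t - e.1 = -t by ring, abs_neg, abs_of_pos ht]; exact htr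
    have h2 := hmem (r / 2) (by linarith) (by linarith)
    refine ⟨_, h1 h2, ?_⟩
    have h3 := S.sub_comp hconv.isPreconnected h1 h2
    rw [Metric.mem_closure_iff]
    intro ε hε
    refine ⟨(e.1 - min ε r / 2, e.2), h3 (hmem _ (by positivity) ?_), ?_⟩
    · have := min_le_right ε r; linarith [lt_min hε hr]
    · have := min_le_left ε r
      have := lt_min hε hr
      rw [Prod.dist_eq, dist_self, Real.dist_eq, sub_sub_cancel, abs_of_pos (by linarith)]
      exact max_lt (by linarith) hε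
  · obtain ⟨r, hr, h1⟩ := h.right_half
    have hconv : Convex ℝ {z | z ∈ ball e r ∧ e.1 < z.1} :=
      (convex_ball e r).inter (convex_halfSpace_gt (f := fun z : ℝ × ℝ => z.1) ⟨fun _ _ => rfl, fun _ _ => rfl⟩ e.1)
    have hmem : ∀ t, 0 < t → t < r → (e.1 + t, e.2) ∈ {z : ℝ × ℝ | z ∈ ball e r ∧ e.1 < z.1} := by
      intro t ht htr
      refine ⟨mem_ball_of_abs ?_ (by simpa using hr), by simp only; linarith⟩
      rw [show e.1 + t - e.1 = t by ring, abs_of_pos ht]; exact htr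
    have h2 := hmem (r / 2) (by linarith) (by linarith)
    refine ⟨_, h1 h2, ?_⟩
    have h3 := S.sub_comp hconv.isPreconnected h1 h2
    rw [Metric.mem_closure_iff]
    intro ε hε
    refine ⟨(e.1 + min ε r / 2, e.2), h3 (hmem _ (by positivity) ?_), ?_⟩
    · have := min_le_right ε r; linarith [lt_min hε hr]
    · have := min_le_left ε r
      have := lt_min hε hr
      rw [Prod.dist_eq, dist_self, Real.dist_eq, show e.1 - (e.1 + min ε r / 2) = -(min ε r / 2) by ring,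
        abs_neg, abs_of_pos (by linarith)]
      exact max_lt (by linarith) hε

variable (S) in
/-- the points over which there are mouths -/
def J : Set ℝ := {x | ∃ e, (S.LM e ∨ S.RM e) ∧ e.1 = x}

theorem countable_J : S.J.Countable := by
  classical
  have h : ∀ x : ℝ, ∃ p : ℝ × ℝ, x ∈ S.J → p ∈ S.O ∧ ∃ e, (S.LM e ∨ S.RM e) ∧ e.1 = x ∧
      e ∈ closure (S.comp p) := by
    intro x
    by_cases hx : x ∈ S.J
    · obtain ⟨e, he, hex⟩ := hx
      obtain ⟨p, hp, hep⟩ := exists_bubble he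
      exact ⟨p, fun _ => ⟨hp, e, he, hex, hep⟩⟩
    · exact ⟨(0, 0), fun h => absurd h hx⟩
  choose p hp using h
  refine Set.PairwiseDisjoint.countable_of_isOpen (s := fun x => S.comp (p x)) ?_
    (fun x _ => S.isOpen_comp _) (fun x hx => ⟨p x, S.mem_comp (hp x hx).1⟩)
  intro x hx y hy hxy
  rw [Function.onFun, Set.disjoint_left]
  intro w hw hw'
  apply hxy
  obtain ⟨-, e, he, rfl, hep⟩ := hp x hx
  obtain ⟨-, q, hq, rfl, hqp⟩ := hp y hy
  refine same_x he hq hep (p := p e.1) ?_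
  rw [S.comp_eq hw, ← S.comp_eq hw']
  exact hqp

/-- leaving the closure of the lower region for the last time -/
theorem last_exit {p : ℝ → ℝ × ℝ} (hp : Continuous p) {b : ℝ} (hb : 0 ≤ b) (h0 : p 0 ∈ S.V)
    (h1 : p b ∈ S.O) (h2 : ∀ s, 0 ≤ s → s ≤ b → p s ∉ S.C ∧ (p s).2 < S.H) :
    ∃ s, 0 ≤ s ∧ s < b ∧ (S.LM (p s) ∨ S.RM (p s)) ∧
      ∀ t, s < t → t ≤ b → p t ∈ S.comp (p b) := by
  have hc : IsCompact (Icc 0 b ∩ p ⁻¹' closure S.V) :=
    isCompact_Icc.inter_right (isClosed_closure.preimage hp)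
  obtain ⟨s, ⟨⟨hs0, hsb⟩, hsV⟩, hmax⟩ := hc.exists_isGreatest ⟨0, ⟨le_rfl, hb⟩, subset_closure h0⟩
  have hsb' : s < b := by
    refine lt_of_le_of_ne hsb fun h => ?_
    rw [h] at hsV
    exact (S.mem_O.1 h1).2.2 hsV
  have hout : ∀ t, s < t → t ≤ b → p t ∈ S.O := by
    intro t ht htb
    rw [S.mem_O]
    refine ⟨(h2 t (by linarith) htb).2, (h2 t (by linarith) htb).1, fun hcl => ?_⟩
    exact absurd (hmax ⟨⟨by linarith, htb⟩, hcl⟩) (not_le.2 ht)
  refine ⟨s, hs0, hsb', Mouth.cases ⟨hsV, fun hV => ?_, (h2 s hs0 hsb).1, (h2 s hs0 hsb).2⟩, ?_⟩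
  · have h3 : p ⁻¹' S.V ∈ 𝓝 s := (S.isOpen_V.preimage hp).mem_nhds hV
    obtain ⟨ε, hε, h4⟩ := Metric.mem_nhds_iff.1 h3
    have h5 : s + min (ε / 2) (b - s) ∈ ball s ε := by
      rw [mem_ball, Real.dist_eq, add_sub_cancel_left, abs_of_pos (lt_min (by linarith) (by linarith))]
      linarith [min_le_left (ε / 2) (b - s)]
    have h6 := hout (s + min (ε / 2) (b - s))
      (by linarith [lt_min (show (0 : ℝ) < ε / 2 by linarith) (show (0 : ℝ) < b - s by linarith)])
      (by linarith [min_le_right (ε / 2) (b - s)])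
    exact (S.mem_O.1 h6).2.2 (subset_closure (h4 h5))
  · intro t ht htb
    have h7 : IsPreconnected (p '' Ioc s b) := isPreconnected_Ioc.image _ hp.continuousOn
    have h8 : p '' Ioc s b ⊆ S.O := by
      rintro _ ⟨u, hu, rfl⟩; exact hout u hu.1 hu.2
    exact S.sub_comp h7 h8 (mem_image_of_mem _ ⟨hsb', le_rfl⟩) (mem_image_of_mem _ ⟨ht, htb⟩)

end Sys

end Vale.Agent.P097.H438
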