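import Mathlib

/-!
# P097, block LIT: simple closed curves of the phase annulus

The full preimage in the plane of a simple closed curve of the annulus which is not contractible
in the annulus is a closed periodic set all of whose points lie in continua reaching arbitrarily
far to both sides; if it contains a periodic continuous graph then it is that graph.
-/

open Real Set Filter Topology
open scoped unitInterval

namespace Vale.Agent.P097.H438

/-- the phase annulus over a circle of length `L` -/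
abbrev Ann (L : ℝ) := AddCircle L × Ioo (0 : ℝ) π

/-- the full preimage in the plane of a subset of the annulus -/
def pre {L : ℝ} (A : Set (Ann L)) : Set (ℝ × ℝ) :=
  {z | ∃ hz : z.2 ∈ Ioo (0 : ℝ) π, ((z.1 : AddCircle L), (⟨z.2, hz⟩ : Ioo (0 : ℝ) π)) ∈ A}

variable {L : ℝ}

theorem pre_closed {A : Set (Ann L)} (hA : IsCompact A) : IsClosed (pre A) := by
  set j : Ann L → AddCircle L × ℝ := fun x => (x.1, (x.2 : ℝ)) with hj
  have hjc : Continuous j := by fun_prop
  have h1 : IsClosed (j '' A) := (hA.image hjc).isClosed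
  have h2 : pre A = (fun z : ℝ × ℝ => ((z.1 : AddCircle L), z.2)) ⁻¹' (j '' A) := by
    ext z
    constructor
    · rintro ⟨hz, hzA⟩
      exact ⟨_, hzA, rfl⟩
    · rintro ⟨⟨a, b⟩, hab, he⟩
      simp only [hj, Prod.mk.injEq] at he
      obtain ⟨rfl, he⟩ := he
      refine ⟨by rw [← he]; exact b.2, ?_⟩
      have : (⟨z.2, by rw [← he]; exact b.2⟩ : Ioo (0 : ℝ) π) = b := Subtype.ext he.symm
      rw [this]; exact hab
  rw [h2]
  exact h1.preimage (by
    have : Continuous ((↑) : ℝ → AddCircle L) := AddCircle.continuous_mk' L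
    fun_prop)

theorem coe_eq_iff {x y : ℝ} : (x : AddCircle L) = (y : AddCircle L) ↔ ∃ n : ℤ, x = y + n * L := by
  rw [← sub_eq_zero, ← AddCircle.coe_sub, AddCircle.coe_eq_zero_iff]
  constructor
  · rintro ⟨n, hn⟩
    exact ⟨n, by rw [zsmul_eq_mul] at hn; linarith⟩
  · rintro ⟨n, hn⟩
    exact ⟨n, by rw [zsmul_eq_mul]; linarith⟩

theorem coe_add_int (x : ℝ) (n : ℤ) : ((x + n * L : ℝ) : AddCircle L) = (x : AddCircle L) :=
  coe_eq_iff.2 ⟨n, rfl⟩

theorem pre_add_int {A : Set (Ann L)} {z : ℝ × ℝ} (n : ℤ) : z + (n * L, 0) ∈ pre A ↔ z ∈ pre A := by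
  obtain ⟨x, y⟩ := z
  simp only [pre, mem_ofPred_eq, Prod.mk_add_mk, add_zero, coe_add_int]

/-- lifting of continuous maps from the line to the circle -/
theorem exists_real_lift (hL : 0 < L) (f : C(ℝ, AddCircle L)) :
    ∃ X : C(ℝ, ℝ), ∀ t, (X t : AddCircle L) = f t := by
  have : Fact (0 < L) := ⟨hL⟩
  obtain ⟨x₀, hx₀⟩ := QuotientAddGroup.mk_surjective (f 0)
  obtain ⟨X, ⟨-, hX⟩, -⟩ := (AddCircle.isCoveringMap_coe L).existsUnique_continuousMap_lifts f 0 x₀ hx₀
  exact ⟨X, fun t => congrFun hX t⟩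

theorem lift_shift (hL : 0 < L) {X : C(ℝ, ℝ)} {p : ℝ}
    (h : ∀ t, (X (t + p) : AddCircle L) = (X t : AddCircle L)) :
    ∃ k : ℤ, ∀ t, X (t + p) = X t + k * L := by
  have : Fact (0 < L) := ⟨hL⟩
  obtain ⟨k, hk⟩ := coe_eq_iff.1 (h 0)
  refine ⟨k, ?_⟩
  set f : C(ℝ, AddCircle L) := ⟨fun t => (X t : AddCircle L), by
    have : Continuous ((↑) : ℝ → AddCircle L) := AddCircle.continuous_mk' L
    fun_prop⟩ with hf
  have hu := (AddCircle.isCoveringMap_coe L).existsUnique_continuousMap_lifts f 0 (X (0 + p)) (h 0)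
  set X₁ : C(ℝ, ℝ) := ⟨fun t => X (t + p), by fun_prop⟩ with hX₁
  set X₂ : C(ℝ, ℝ) := ⟨fun t => X t + k * L, by fun_prop⟩ with hX₂
  have h1 : X₁ = X₂ := by
    refine hu.unique ⟨rfl, ?_⟩ ⟨?_, ?_⟩
    · funext t; exact h t
    · exact hk.symm
    · funext t; exact coe_add_int _ _
  intro t
  exact DFunLike.congr_fun h1 t

/-- the lift of a closed curve -/
theorem exists_lift (hL : 0 < L) (c : C(AddCircle (1 : ℝ), Ann L)) :
    ∃ (X Y : C(ℝ, ℝ)) (k : ℤ), (∀ t, Y t ∈ Ioo (0 : ℝ) π) ∧ (∀ t, X (t + 1) = X t + k * L) ∧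
      (∀ t, Y (t + 1) = Y t) ∧
      ∀ (t : ℝ) (ht : Y t ∈ Ioo (0 : ℝ) π), c (t : AddCircle (1 : ℝ)) = ((X t : AddCircle L), ⟨Y t, ht⟩) := by
  have hc : Continuous ((↑) : ℝ → AddCircle (1 : ℝ)) := AddCircle.continuous_mk' 1
  have hper : ∀ t : ℝ, ((t + 1 : ℝ) : AddCircle (1 : ℝ)) = (t : AddCircle (1 : ℝ)) := fun t =>
    AddCircle.coe_add_period 1 t
  obtain ⟨X, hX⟩ := exists_real_lift hL ⟨fun t : ℝ => (c (t : AddCircle (1 : ℝ))).1, by fun_prop⟩
  obtain ⟨k, hk⟩ := lift_shift hL (X := X) (p := 1) (fun t => by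
    rw [hX, hX]
    change (c ((t + 1 : ℝ) : AddCircle (1 : ℝ))).1 = (c (t : AddCircle (1 : ℝ))).1
    rw [hper])
  refine ⟨X, ⟨fun t : ℝ => ((c (t : AddCircle (1 : ℝ))).2 : ℝ), by fun_prop⟩, k,
    fun t => (c (t : AddCircle (1 : ℝ))).2.2, hk, fun t => ?_, fun t ht => ?_⟩
  · change ((c ((t + 1 : ℝ) : AddCircle (1 : ℝ))).2 : ℝ) = ((c (t : AddCircle (1 : ℝ))).2 : ℝ)
    rw [hper]
  · refine Prod.ext (hX t).symm (Subtype.ext rfl)

/-- a closed curve with closed lift is contractible in the annulus -/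
theorem nullhomotopic_of_lift (c : C(AddCircle (1 : ℝ), Ann L)) {X Y : C(ℝ, ℝ)}
    (hY : ∀ t, Y t ∈ Ioo (0 : ℝ) π) (hX1 : ∀ t, X (t + 1) = X t) (hY1 : ∀ t, Y (t + 1) = Y t)
    (hc : ∀ (t : ℝ) (ht : Y t ∈ Ioo (0 : ℝ) π),
      c (t : AddCircle (1 : ℝ)) = ((X t : AddCircle L), ⟨Y t, ht⟩)) : c.Nullhomotopic := by
  have pX : Function.Periodic X 1 := hX1
  have pY : Function.Periodic Y 1 := hY1
  have cX : Continuous pX.lift := X.continuous.quotient_liftOn' _
  have cY : Continuous pY.lift := Y.continuous.quotient_liftOn' _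
  have hYI : ∀ x : AddCircle (1 : ℝ), pY.lift x ∈ Ioo (0 : ℝ) π := by
    intro x
    induction x using QuotientAddGroup.induction_on with
    | H t => rw [Function.Periodic.lift_coe]; exact hY t
  have hc' : ∀ x : AddCircle (1 : ℝ), c x = ((pX.lift x : AddCircle L), ⟨pY.lift x, hYI x⟩) := by
    intro x
    induction x using QuotientAddGroup.induction_on with
    | H t => exact hc t (hY t)
  have hπ := pi_pos
  have hmem : ∀ (s : I) (x : AddCircle (1 : ℝ)),
      (1 - (s : ℝ)) * pY.lift x + s * (π / 2) ∈ Ioo (0 : ℝ) π := by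
    intro s x
    have h1 := hYI x
    exact (convex_Ioo (0 : ℝ) π) h1 ⟨by linarith, by linarith⟩ (sub_nonneg.2 s.2.2) s.2.1 (by ring)
  refine ⟨((0 : ℝ), ⟨π / 2, by constructor <;> linarith⟩), ⟨⟨⟨fun p =>
    (((1 - (p.1 : ℝ)) * pX.lift p.2 : ℝ), ⟨(1 - (p.1 : ℝ)) * pY.lift p.2 + p.1 * (π / 2),
      hmem p.1 p.2⟩), ?_⟩, ?_, ?_⟩⟩⟩
  · have : Continuous ((↑) : ℝ → AddCircle L) := AddCircle.continuous_mk' L
    fun_prop
  · intro x
    rw [hc' x]
    refine Prod.ext ?_ (Subtype.ext ?_)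
    · simp
    · simp
  · intro x
    refine Prod.ext ?_ (Subtype.ext ?_)
    · simp
    · simp

theorem add_nat_shift {X : C(ℝ, ℝ)} {k : ℤ} (h : ∀ t, X (t + 1) = X t + k * L) (n : ℕ) (t : ℝ) :
    X (t + n) = X t + n * (k * L) ∧ X (t - n) = X t - n * (k * L) := by
  induction n with
  | zero => simp
  | succ n ih =>
    constructor
    · have h1 := h (t + n)
      rw [ih.1] at h1
      push_cast
      rw [← add_assoc, h1]; ring
    · have h1 := h (t - (n + 1))
      rw [show t - (n + 1) + 1 = t - n by ring, ih.2] at h1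
      push_cast
      linarith

/-- the points of the preimage of a curve which is not contractible lie in long continua -/
theorem exists_continuum (hL : 0 < L) {c : C(AddCircle (1 : ℝ), Ann L)} (hc : ¬ c.Nullhomotopic)
    {z : ℝ × ℝ} (hz : z ∈ pre (range c)) (R : ℝ) : ∃ Q ⊆ pre (range c), IsCompact Q ∧
      IsPreconnected Q ∧ z ∈ Q ∧ (∃ q ∈ Q, R < q.1) ∧ ∃ q ∈ Q, q.1 < -R := by
  obtain ⟨X, Y, k, hY, hX1, hY1, hlift⟩ := exists_lift hL c
  have hk : k ≠ 0 := by
    rintro rfl
    exact hc (nullhomotopic_of_lift c hY (fun t => by rw [hX1]; simp) hY1 hlift)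
  obtain ⟨hz2, ⟨x, hx⟩⟩ := hz
  obtain ⟨t₀, rfl⟩ := QuotientAddGroup.mk_surjective x
  have hx' : c (t₀ : AddCircle (1 : ℝ)) = ((z.1 : AddCircle L), ⟨z.2, hz2⟩) := hx
  rw [hlift t₀ (hY t₀), Prod.mk.injEq, Subtype.mk.injEq] at hx'
  obtain ⟨j, hj⟩ := coe_eq_iff.1 hx'.1.symm
  obtain ⟨N, hN⟩ := exists_nat_gt ((|R| + |z.1|) / L)
  rw [div_lt_iff₀ hL] at hN
  set g : ℝ → ℝ × ℝ := fun t => (X t + j * L, Y t) with hg
  have hgc : Continuous g := by fun_prop
  have hgt : g t₀ = z := Prod.ext hj.symm hx'.2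
  have e1 : g (t₀ + N) ∈ g '' Icc (t₀ - N) (t₀ + N) := by
    refine mem_image_of_mem _ ⟨?_, le_rfl⟩
    have : (0 : ℝ) ≤ N := N.cast_nonneg
    linarith
  have e2 : g (t₀ - N) ∈ g '' Icc (t₀ - N) (t₀ + N) := by
    refine mem_image_of_mem _ ⟨le_rfl, ?_⟩
    have : (0 : ℝ) ≤ N := N.cast_nonneg
    linarith
  have f1 : (g (t₀ + N)).1 = z.1 + N * (k * L) := by
    simp only [hg]; rw [(add_nat_shift hX1 N t₀).1, hj]; ring
  have f2 : (g (t₀ - N)).1 = z.1 - N * (k * L) := by
    simp only [hg]; rw [(add_nat_shift hX1 N t₀).2, hj]; ring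
  have hzabs := neg_abs_le z.1
  have hzabs' := le_abs_self z.1
  have hR := le_abs_self R
  have hN0 : (0 : ℝ) ≤ N * L := by positivity
  refine ⟨g '' Icc (t₀ - N) (t₀ + N), ?_, isCompact_Icc.image hgc,
    isPreconnected_Icc.image _ hgc.continuousOn, ⟨t₀, ?_, hgt⟩, ?_⟩
  · rintro _ ⟨t, -, rfl⟩
    refine ⟨hY t, (t : AddCircle (1 : ℝ)), ?_⟩
    rw [hlift t (hY t)]
    simp only [hg, coe_add_int]
  · have : (0 : ℝ) ≤ N := N.cast_nonneg
    constructor <;> linarith
  · rcases lt_or_gt_of_ne hk with h0 | h0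
    · have h1 : (k : ℝ) ≤ -1 := by exact_mod_cast (by omega : k ≤ -1)
      have h2 : N * (k * L) ≤ -(N * L) := by nlinarith
      exact ⟨⟨_, e2, by rw [f2]; linarith⟩, ⟨_, e1, by rw [f1]; linarith⟩⟩
    · have h1 : (1 : ℝ) ≤ k := by exact_mod_cast h0
      have h2 : N * L ≤ N * (k * L) := by nlinarith
      exact ⟨⟨_, e1, by rw [f1]; linarith⟩, ⟨_, e2, by rw [f2]; linarith⟩⟩

/-- an injective continuous map between circles is surjective -/
theorem surjective_of_circle (hL : 0 < L) {τ : C(ℝ, AddCircle (1 : ℝ))}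
    (h : ∀ x y, τ x = τ y ↔ (x : AddCircle L) = (y : AddCircle L)) : Function.Surjective τ := by
  obtain ⟨g, hg⟩ := exists_real_lift one_pos τ
  have hper : ∀ t, (g (t + L) : AddCircle (1 : ℝ)) = (g t : AddCircle (1 : ℝ)) := by
    intro t
    rw [hg, hg, h]
    exact AddCircle.coe_add_period L t
  obtain ⟨n, hn⟩ := lift_shift one_pos hper
  have hn' : ∀ t, g (t + L) = g t + n := fun t => by rw [hn t, mul_one]
  have hinj : ∀ x y, g x = g y → (x : AddCircle L) = (y : AddCircle L) := by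
    intro x y hxy
    rw [← h, ← hg, ← hg, hxy]
  -- the degree is not zero
  have hn0 : n ≠ 0 := by
    rintro rfl
    have hg0 : ∀ t, g (t + L) = g t := fun t => by rw [hn' t]; simp
    -- maximum point
    obtain ⟨x₀, -, hmax⟩ := isCompact_Icc.exists_isMaxOn (s := Icc (0 : ℝ) L)
      (nonempty_Icc.2 hL.le) g.continuous.continuousOn
    have hmid : ∀ a b, 0 < b - a → b - a < L → g a ≠ g b := by
      intro a b h1 h2 hab
      obtain ⟨j, hj⟩ := coe_eq_iff.1 (hinj b a hab.symm)
      have h3 : (0 : ℝ) < j * L := by linarith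
      have h4 : (j : ℝ) * L < L := by linarith
      have h5 : (0 : ℝ) < j := by
        by_contra hcon
        nlinarith
      have h6 : (1 : ℝ) ≤ j := by exact_mod_cast (by exact_mod_cast h5 : (0 : ℤ) < j)
      nlinarith
    -- values at three equally spaced points
    have key : ∀ a b c' : ℝ, a < b → b < c' → c' - a < L → ¬ (g b < g a ∧ g b < g c') := by
      rintro a b c' h1 h2 h3 ⟨h4, h5⟩
      obtain ⟨v, hv1, hv2⟩ := exists_between (lt_min h4 h5)
      obtain ⟨p, hp, hpv⟩ := intermediate_value_Icc' h1.le g.continuous.continuousOn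
        ⟨hv1.le, (lt_min_iff.1 hv2).1.le⟩
      obtain ⟨q, hq, hqv⟩ := intermediate_value_Icc h2.le g.continuous.continuousOn
        ⟨hv1.le, (lt_min_iff.1 hv2).2.le⟩
      have hpb : p ≠ b := by
        rintro rfl
        rw [hpv] at hv1; exact lt_irrefl _ hv1
      have : p < b := lt_of_le_of_ne hp.2 hpb
      exact hmid p q (by linarith [hq.1]) (by linarith [hp.1, hq.2]) (by rw [hpv, hqv])
    have key' : ∀ a b c' : ℝ, a < b → b < c' → c' - a < L → ¬ (g a < g b ∧ g c' < g b) := by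
      rintro a b c' h1 h2 h3 ⟨h4, h5⟩
      obtain ⟨v, hv1, hv2⟩ := exists_between (max_lt h4 h5)
      obtain ⟨p, hp, hpv⟩ := intermediate_value_Icc h1.le g.continuous.continuousOn
        ⟨(max_lt_iff.1 hv1).1.le, hv2.le⟩
      obtain ⟨q, hq, hqv⟩ := intermediate_value_Icc' h2.le g.continuous.continuousOn
        ⟨(max_lt_iff.1 hv1).2.le, hv2.le⟩
      have hpb : p ≠ b := by
        rintro rfl
        rw [hpv] at hv2; exact lt_irrefl _ hv2
      have : p < b := lt_of_le_of_ne hp.2 hpb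
      exact hmid p q (by linarith [hq.1]) (by linarith [hp.1, hq.2]) (by rw [hpv, hqv])
    -- so `g` is monotone in steps of `L / 4`, which contradicts periodicity
    have s1 := hmid 0 (L / 4) (by linarith) (by linarith)
    have s2 := hmid (L / 4) (L / 2) (by linarith) (by linarith)
    have s3 := hmid (L / 2) (3 * L / 4) (by linarith) (by linarith)
    have s4 := hmid (3 * L / 4) L (by linarith) (by linarith)
    have s5 := hg0 0
    rw [zero_add] at s5
    have k1 := key 0 (L / 4) (L / 2) (by linarith) (by linarith) (by linarith)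
    have k1' := key' 0 (L / 4) (L / 2) (by linarith) (by linarith) (by linarith)
    have k2 := key (L / 4) (L / 2) (3 * L / 4) (by linarith) (by linarith) (by linarith)
    have k2' := key' (L / 4) (L / 2) (3 * L / 4) (by linarith) (by linarith) (by linarith)
    have k3 := key (L / 2) (3 * L / 4) L (by linarith) (by linarith) (by linarith)
    have k3' := key' (L / 2) (3 * L / 4) L (by linarith) (by linarith) (by linarith)
    rcases lt_or_gt_of_ne s1 with t1 | t1
    · have t2 : g (L / 4) < g (L / 2) := by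
        rcases lt_or_gt_of_ne s2 with t | t
        · exact t
        · exact absurd ⟨t1, t⟩ k1'
      have t3 : g (L / 2) < g (3 * L / 4) := by
        rcases lt_or_gt_of_ne s3 with t | t
        · exact t
        · exact absurd ⟨t2, t⟩ k2'
      have t4 : g (3 * L / 4) < g L := by
        rcases lt_or_gt_of_ne s4 with t | t
        · exact t
        · exact absurd ⟨t3, t⟩ k3'
      linarith
    · have t2 : g (L / 2) < g (L / 4) := by
        rcases lt_or_gt_of_ne s2 with t | t
        · exact absurd ⟨t1, t⟩ k1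
        · exact t
      have t3 : g (3 * L / 4) < g (L / 2) := by
        rcases lt_or_gt_of_ne s3 with t | t
        · exact absurd ⟨t2, t⟩ k2
        · exact t
      have t4 : g L < g (3 * L / 4) := by
        rcases lt_or_gt_of_ne s4 with t | t
        · exact absurd ⟨t3, t⟩ k3
        · exact t
      linarith
  -- so `g` takes every value modulo one
  intro y
  obtain ⟨v, rfl⟩ := QuotientAddGroup.mk_surjective y
  have hsur : ∃ t, ∃ j : ℤ, g t = v + j := by
    rcases lt_or_gt_of_ne hn0 with h0 | h0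
    · have h1 : (n : ℝ) ≤ -1 := by exact_mod_cast (by omega : n ≤ -1)
      obtain ⟨j, hj, -⟩ := existsUnique_add_zsmul_mem_Ioc (one_pos : (0 : ℝ) < 1) v (g 0 - 1)
      rw [zsmul_eq_mul, mul_one, sub_add_cancel] at hj
      obtain ⟨t, -, ht⟩ := intermediate_value_Icc' hL.le g.continuous.continuousOn
        (show v + j ∈ Icc (g L) (g 0) by
          have := hn' 0
          rw [zero_add] at this
          rw [this]
          exact ⟨by linarith [hj.1], hj.2⟩)
      exact ⟨t, j, ht⟩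
    · have h1 : (1 : ℝ) ≤ n := by exact_mod_cast h0
      obtain ⟨j, hj, -⟩ := existsUnique_add_zsmul_mem_Ico (one_pos : (0 : ℝ) < 1) v (g 0)
      rw [zsmul_eq_mul, mul_one] at hj
      obtain ⟨t, -, ht⟩ := intermediate_value_Icc hL.le g.continuous.continuousOn
        (show v + j ∈ Icc (g 0) (g L) by
          have := hn' 0
          rw [zero_add] at this
          rw [this]
          exact ⟨hj.1, by linarith [hj.2]⟩)
      exact ⟨t, j, ht⟩
  obtain ⟨t, j, htj⟩ := hsur
  refine ⟨t, ?_⟩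
  rw [← hg, htj]
  have := coe_add_int (L := 1) v j
  rw [mul_one] at this
  exact this

/-- if the preimage of a simple closed curve contains a continuous periodic graph, then it is
that graph -/
theorem eq_graph (hL : 0 < L) {c : C(AddCircle (1 : ℝ), Ann L)} (hinj : Function.Injective c)
    {f : ℝ → ℝ} (hf : Continuous f) (hfp : ∀ x, f (x + L) = f x)
    (hfm : ∀ x, (x, f x) ∈ pre (range c)) {z : ℝ × ℝ} (hz : z ∈ pre (range c)) : z.2 = f z.1 := by
  have hfact : Fact (0 < L) := ⟨hL⟩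
  have hemb : IsClosedEmbedding c := c.continuous.isClosedEmbedding hinj
  set e := hemb.isEmbedding.toHomeomorph with he
  have hfI : ∀ x, f x ∈ Ioo (0 : ℝ) π := fun x => (hfm x).1
  have hmem : ∀ x : ℝ, ((x : AddCircle L), (⟨f x, hfI x⟩ : Ioo (0 : ℝ) π)) ∈ range c := fun x =>
    (hfm x).2
  have hcoe : Continuous ((↑) : ℝ → AddCircle L) := AddCircle.continuous_mk' L
  set τ : C(ℝ, AddCircle (1 : ℝ)) := ⟨fun x => e.symm ⟨((x : AddCircle L), ⟨f x, hfI x⟩), hmem x⟩, by
    refine e.symm.continuous.comp ?_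
    refine Continuous.subtype_mk ?_ _
    exact hcoe.prodMk (hf.subtype_mk _)⟩ with hτ
  have hcτ : ∀ x, c (τ x) = ((x : AddCircle L), ⟨f x, hfI x⟩) := by
    intro x
    have : e (τ x) = ⟨((x : AddCircle L), ⟨f x, hfI x⟩), hmem x⟩ := e.apply_symm_apply _
    have h2 := congrArg Subtype.val this
    exact h2
  have hfint : ∀ (n : ℤ) (x : ℝ), f (x + n * L) = f x := by
    intro n x
    have : Function.Periodic f L := hfp
    exact this.int_mul n x
  have hiff : ∀ x y, τ x = τ y ↔ (x : AddCircle L) = (y : AddCircle L) := by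
    intro x y
    constructor
    · intro hxy
      have := congrArg c hxy
      rw [hcτ, hcτ] at this
      exact congrArg Prod.fst this
    · intro hxy
      apply hinj
      rw [hcτ, hcτ]
      refine Prod.ext hxy (Subtype.ext ?_)
      obtain ⟨n, hn⟩ := coe_eq_iff.1 hxy
      simp only
      rw [hn, hfint]
  obtain ⟨hz2, x, hx⟩ := hz
  obtain ⟨t, rfl⟩ := surjective_of_circle hL hiff x
  rw [hcτ, Prod.mk.injEq, Subtype.mk.injEq] at hx
  obtain ⟨n, hn⟩ := coe_eq_iff.1 hx.1
  rw [← hx.2, hn, hfint]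

end Vale.Agent.P097.H438
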