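import Vale.Agent.P097.H438.Birk
import Vale.Agent.P097.H438.Angle

/-!
# P097, block LIT: integrability near the boundary gives a collar of invariant graphs
-/

open Real Set Filter Topology
open scoped ContDiff

namespace Vale.Agent.P097.H438

theorem nat_shift {X Y : Type*} [AddCommMonoid X] [AddCommMonoid Y] {Φ : X → Y} {a : X} {b : Y}
    (h : ∀ z, Φ (z + a) = Φ z + b) (n : ℕ) (z : X) : Φ (z + n • a) = Φ z + n • b := by
  induction n with
  | zero => simp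
  | succ n ih => rw [succ_nsmul, succ_nsmul, ← add_assoc, h, ih, add_assoc]

theorem int_shift {X Y : Type*} [AddCommGroup X] [AddCommGroup Y] {Φ : X → Y} {a : X} {b : Y}
    (h : ∀ z, Φ (z + a) = Φ z + b) (n : ℤ) (z : X) : Φ (z + n • a) = Φ z + n • b := by
  obtain ⟨k, rfl | rfl⟩ := n.eq_nat_or_neg
  · rw [natCast_zsmul, natCast_zsmul]; exact nat_shift h k z
  · rw [neg_zsmul, neg_zsmul, natCast_zsmul, natCast_zsmul]
    have := nat_shift h k (z + -(k • a))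
    rw [neg_add_cancel_right] at this
    rw [this, add_neg_cancel_right]

theorem bil_int {h : ℝ → ℝ} (H : SmoothTable h) (n : ℤ) (x y : ℝ) :
    bil H (x + n * (2 * π), y) = bil H (x, y) + (n * (2 * π), 0) := by
  have h1 := int_shift (bil_per H) n (x, y)
  have h2 : n • ((2 * π, 0) : ℝ × ℝ) = (n * (2 * π), 0) := by
    rw [Prod.smul_mk, zsmul_eq_mul, smul_zero]
  rw [h2] at h1
  rw [← h1]
  simp

namespace Table

variable (B : Table)

theorem ang_int (s : ℝ) (n : ℤ) : B.ang (s + n * B.L) = B.ang s + n * (2 * π) := by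
  have := int_shift B.ang_add_L n s
  rwa [zsmul_eq_mul, zsmul_eq_mul] at this

theorem pos_int (ψ : ℝ) (n : ℤ) : B.pos (ψ + n * (2 * π)) = B.pos ψ + n * B.L := by
  have := int_shift B.pos_add n ψ
  rwa [zsmul_eq_mul, zsmul_eq_mul] at this

/-- the phase point with normal angle `z.1` and direction `z.2` -/
noncomputable def pr (z : ℝ × ℝ) (hz : z.2 ∈ Ioo (0 : ℝ) π) : Ann B.L :=
  ((B.pos z.1 : AddCircle B.L), ⟨z.2, hz⟩)

theorem exists_pr (x : Ann B.L) : ∃ ψ, x = B.pr (ψ, x.2) x.2.2 := by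
  obtain ⟨s, hs⟩ := QuotientAddGroup.mk_surjective x.1
  refine ⟨B.ang s, Prod.ext ?_ rfl⟩
  change x.1 = (B.pos (B.ang s) : AddCircle B.L)
  rw [B.pos_ang]
  exact hs.symm

theorem pr_eq_iff {z w : ℝ × ℝ} (hz : z.2 ∈ Ioo (0 : ℝ) π) (hw : w.2 ∈ Ioo (0 : ℝ) π) :
    B.pr z hz = B.pr w hw ↔ ∃ n : ℤ, z.1 = w.1 + n * (2 * π) ∧ z.2 = w.2 := by
  rw [pr, pr, Prod.mk.injEq, Subtype.mk.injEq, coe_eq_iff]
  constructor
  · rintro ⟨⟨n, hn⟩, h⟩
    refine ⟨n, ?_, h⟩
    rw [← B.ang_pos z.1, hn, B.ang_int, B.ang_pos]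
  · rintro ⟨n, hn, h⟩
    exact ⟨⟨n, by rw [hn, B.pos_int]⟩, h⟩

theorem deriv_pos (ψ : ℝ) :
    deriv B.γ (B.pos ψ) = Complex.I * Complex.exp (ψ * Complex.I) := by
  rw [B.γ'_eq, B.ang_pos]

theorem bounce_of_step {ψ δ ψ' δ' : ℝ} (h : Step B.hs ψ δ ψ' δ') (h1 : δ ∈ Ioo (0 : ℝ) π)
    (h2 : δ' ∈ Ioo (0 : ℝ) π) : B.Bounce (B.pr (ψ, δ) h1) (B.pr (ψ', δ') h2) := by
  obtain ⟨-, -, -, -, hψ, ℓ, hℓ, he⟩ := h
  refine ⟨B.pos ψ, B.pos ψ', ℓ, hℓ, rfl, rfl, ?_, ?_⟩
  · rw [← B.bdry_hs, ← B.bdry_hs, he, B.deriv_pos]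
    change _ = _ + (ℓ : ℂ) * (Complex.I * Complex.exp (ψ * Complex.I) * Complex.exp (δ * Complex.I))
    rw [mul_assoc Complex.I, ← Complex.exp_add]
    congr 4
    push_cast
    ring
  · rw [B.deriv_pos, B.deriv_pos]
    change Complex.I * Complex.exp (ψ * Complex.I) * Complex.exp (δ * Complex.I) =
      Complex.I * Complex.exp (ψ' * Complex.I) * Complex.exp (-(δ' * Complex.I))
    rw [mul_assoc, mul_assoc, ← Complex.exp_add, ← Complex.exp_add, hψ]
    congr 2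
    push_cast
    ring

theorem step_of_bounce {x y : Ann B.L} (h : B.Bounce x y) : ∃ ψ ψ' : ℝ,
    x.1 = (B.pos ψ : AddCircle B.L) ∧ y.1 = (B.pos ψ' : AddCircle B.L) ∧
      Step B.hs ψ x.2 ψ' y.2 := by
  obtain ⟨s, t, ℓ, hℓ, hx, hy, h1, h2⟩ := h
  rw [B.γ'_eq, B.γ'_eq, mul_assoc, mul_assoc] at h2
  have h3 := mul_left_cancel₀ Complex.I_ne_zero h2
  rw [← Complex.exp_add, ← Complex.exp_add] at h3
  obtain ⟨n, hn⟩ := Complex.exp_eq_exp_iff_exists_int.1 h3
  have h4 : B.ang s + x.2 = B.ang t - y.2 + n * (2 * π) := by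
    have e1 : ((B.ang s + x.2 : ℝ) : ℂ) * Complex.I =
        ((B.ang t - y.2 + n * (2 * π) : ℝ) : ℂ) * Complex.I := by
      push_cast
      linear_combination hn
    exact_mod_cast mul_right_cancel₀ Complex.I_ne_zero e1
  refine ⟨B.ang s, B.ang (t + n * B.L), by rw [B.pos_ang]; exact hx, ?_, x.2.2.1, x.2.2.2,
    y.2.2.1, y.2.2.2, ?_, ℓ, hℓ, ?_⟩
  · rw [B.pos_ang, coe_add_int]; exact hy
  · rw [B.ang_int]; linarith
  · rw [B.bdry_hs, B.bdry_hs, B.pos_ang, B.pos_ang]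
    have hper : B.γ (t + n * B.L) = B.γ t := by
      have : Function.Periodic B.γ B.L := B.periodic
      exact this.int_mul n t
    rw [hper, h1, B.γ'_eq]
    rw [mul_assoc Complex.I, ← Complex.exp_add]
    congr 4
    push_cast
    ring

theorem bil_Ioo {z : ℝ × ℝ} (hz : z.2 ∈ Ioo (0 : ℝ) π) : (bil B.hs_table z).2 ∈ Ioo (0 : ℝ) π :=
  (bil_mem_strip B.hs_table z).2 hz

/-- the bounce relation is the graph of the billiard map -/
theorem bounce_iff {z : ℝ × ℝ} (hz : z.2 ∈ Ioo (0 : ℝ) π) (y : Ann B.L) :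
    B.Bounce (B.pr z hz) y ↔ y = B.pr (bil B.hs_table z) (B.bil_Ioo hz) := by
  constructor
  · intro h
    obtain ⟨ψ, ψ', h1, h2, h3⟩ := B.step_of_bounce h
    change Step B.hs ψ z.2 ψ' y.2 at h3
    rw [step_iff B.hs_table hz.1 hz.2] at h3
    change (B.pos z.1 : AddCircle B.L) = (B.pos ψ : AddCircle B.L) at h1
    obtain ⟨n, hn⟩ := coe_eq_iff.1 h1
    have h4 : z.1 = ψ + n * (2 * π) := by
      rw [← B.ang_pos z.1, hn, B.ang_int, B.ang_pos]
    have h5 : bil B.hs_table z = (ψ' + n * (2 * π), (y.2 : ℝ)) := by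
      have : z = (ψ + n * (2 * π), z.2) := Prod.ext h4 rfl
      rw [this, bil_int, h3]
      simp
    refine Prod.ext ?_ (Subtype.ext ?_)
    · rw [h2]
      change _ = (B.pos (bil B.hs_table z).1 : AddCircle B.L)
      rw [h5, B.pos_int, coe_add_int]
    · change (y.2 : ℝ) = (bil B.hs_table z).2
      rw [h5]
  · rintro rfl
    exact B.bounce_of_step ((step_iff B.hs_table hz.1 hz.2).2 rfl) hz (B.bil_Ioo hz)

/-- every phase point bounces to exactly one phase point -/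
theorem existsUnique_bounce (x : Ann B.L) : ∃! y, B.Bounce x y := by
  obtain ⟨ψ, hψ⟩ := B.exists_pr x
  rw [hψ]
  exact ⟨_, (B.bounce_iff _ _).2 rfl, fun y hy => (B.bounce_iff _ _).1 hy⟩

theorem bounce_T (x : Ann B.L) : B.Bounce x (B.T x) :=
  @Classical.epsilon_spec_aux _ ⟨x⟩ (fun y => B.Bounce x y) (B.existsUnique_bounce x).exists

theorem T_pr {z : ℝ × ℝ} (hz : z.2 ∈ Ioo (0 : ℝ) π) :
    B.T (B.pr z hz) = B.pr (bil B.hs_table z) (B.bil_Ioo hz) :=
  (B.bounce_iff hz _).1 (B.bounce_T _)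

theorem T_injective : Function.Injective B.T := by
  intro x y hxy
  obtain ⟨ψ, hψ⟩ := B.exists_pr x
  obtain ⟨φ, hφ⟩ := B.exists_pr y
  rw [hψ, hφ, B.T_pr, B.T_pr, B.pr_eq_iff] at hxy
  obtain ⟨n, h1, h2⟩ := hxy
  have h3 : bil B.hs_table (ψ, (x.2 : ℝ)) = bil B.hs_table (φ + n * (2 * π), (y.2 : ℝ)) := by
    rw [bil_int]
    refine Prod.ext ?_ ?_
    · rw [h1]; simp
    · rw [h2]; simp
  have h4 := (bil B.hs_table).injective h3
  rw [Prod.mk.injEq] at h4
  rw [hψ, hφ, B.pr_eq_iff]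
  exact ⟨n, h4.1, h4.2⟩

theorem inv_iff {A : Set (Ann B.L)} (hA : B.T '' A = A) {z : ℝ × ℝ} (hz : z.2 ∈ Ioo (0 : ℝ) π) :
    B.pr (bil B.hs_table z) (B.bil_Ioo hz) ∈ A ↔ B.pr z hz ∈ A := by
  rw [← B.T_pr hz]
  constructor
  · intro h
    rw [← hA] at h
    obtain ⟨a, ha, hab⟩ := h
    rwa [← B.T_injective hab]
  · intro h
    rw [← hA]
    exact mem_image_of_mem _ h

/-- **Birkhoff's graph theorem** for the literal billiard map: an invariant rotational curve is an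
invariant continuous graph over the circle of normal directions. -/
theorem graph_of_rotational {A : Set (Ann B.L)} (hR : B.Rotational A) (hA : B.T '' A = A) :
    ∃ f, InvGraph B.hs f ∧ ∀ (z : ℝ × ℝ) (hz : z.2 ∈ Ioo (0 : ℝ) π), B.pr z hz ∈ A ↔ z.2 = f z.1 := by
  obtain ⟨c, hinj, hnull, rfl⟩ := hR
  set Ψ : (ℝ × ℝ) ≃ₜ (ℝ × ℝ) := B.angH.symm.prodCongr (Homeomorph.refl ℝ) with hΨ
  have hΨa : ∀ z : ℝ × ℝ, Ψ z = (B.pos z.1, z.2) := fun z => rfl
  have hΨs : ∀ z : ℝ × ℝ, Ψ.symm z = (B.ang z.1, z.2) := fun z => rfl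
  set C : Set (ℝ × ℝ) := Ψ ⁻¹' pre (range c) with hC
  have hmem : ∀ (z : ℝ × ℝ) (hz : z.2 ∈ Ioo (0 : ℝ) π), z ∈ C ↔ B.pr z hz ∈ range c := by
    intro z hz
    constructor
    · rintro ⟨h1, h2⟩
      exact h2
    · intro h
      exact ⟨hz, h⟩
  have hstrip : ∀ z ∈ C, z.2 ∈ Ioo (0 : ℝ) π := by
    rintro z ⟨h1, h2⟩
    exact h1
  have : Fact (0 < (1 : ℝ)) := ⟨one_pos⟩
  have hclosed : IsClosed C := (pre_closed (isCompact_range c.continuous)).preimage Ψ.continuous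
  have hne : C.Nonempty := by
    obtain ⟨ψ, hψ⟩ := B.exists_pr (c 0)
    refine ⟨(ψ, (c 0).2), (hmem _ (c 0).2.2).2 ?_⟩
    rw [← hψ]
    exact mem_range_self 0
  obtain ⟨f, hf, hfC⟩ := birkhoff_closed B.hs_table hclosed (fun z hz => hstrip z hz) (by
      intro z
      rw [hC, mem_preimage, mem_preimage, hΨa, hΨa]
      have h1 := pre_add_int (A := range c) (z := (B.pos z.1, z.2)) 1
      simp only [Int.cast_one, one_mul, Prod.mk_add_mk, add_zero] at h1
      simp only [Prod.fst_add, Prod.snd_add, add_zero]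
      rw [B.pos_add]
      exact h1) (by
      intro z hz
      rw [hmem z hz, hmem _ (B.bil_Ioo hz)]
      exact B.inv_iff hA hz) (by
      intro z hz R
      obtain ⟨Q, h1, h2, h3, h4, ⟨q, hq, hqR⟩, q', hq', hqR'⟩ :=
        exists_continuum B.L_pos hnull (z := Ψ z) hz (max (B.pos R) (-B.pos (-R)))
      refine ⟨Ψ.symm '' Q, ?_, h2.image Ψ.symm.continuous,
        h3.image _ Ψ.symm.continuous.continuousOn, ⟨Ψ z, h4, Ψ.symm_apply_apply z⟩,
        ⟨_, mem_image_of_mem _ hq, ?_⟩, ⟨_, mem_image_of_mem _ hq', ?_⟩⟩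
      · rintro _ ⟨w, hw, rfl⟩
        rw [hC, mem_preimage, Homeomorph.apply_symm_apply]
        exact h1 hw
      · rw [hΨs]
        simp only
        rw [← B.ang_pos R]
        exact B.ang_strictMono (lt_of_le_of_lt (le_max_left _ _) hqR)
      · rw [hΨs]
        simp only
        rw [← B.ang_pos (-R)]
        apply B.ang_strictMono
        have := le_max_right (B.pos R) (-B.pos (-R))
        linarith) hne
  refine ⟨f, hf, fun z hz => ?_⟩
  have hfI : ∀ x, f x ∈ Ioo (0 : ℝ) π := fun x => hf.2.2.1 x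
  rw [← hmem z hz]
  constructor
  · intro hzC
    have h1 := eq_graph B.L_pos hinj (f := fun s => f (B.ang s)) (hf.1.comp B.ang_continuous)
      (fun s => by rw [B.ang_add_L, hf.2.1]) (fun s => by
        have := hfC (B.ang s)
        rw [hC, mem_preimage, hΨa] at this
        simp only at this
        rwa [B.pos_ang] at this) (z := Ψ z) hzC
    rw [hΨa] at h1
    simp only at h1
    rwa [B.ang_pos] at h1
  · intro h
    have : z = (z.1, f z.1) := Prod.ext rfl h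
    rw [this]
    exact hfC z.1

/-- Integrability near the boundary gives a collar of invariant graphs. -/
theorem collar_of_integrable (h : B.IntegrableNearBoundary) : ∃ η > 0, Collar B.hs η := by
  obtain ⟨η, hη, U, -, -, hU, hcov⟩ := h
  refine ⟨min η π, lt_min hη pi_pos, fun ψ δ hδ hδη => ?_⟩
  have hδI : δ ∈ Ioo (0 : ℝ) π := ⟨hδ, hδη.trans_le (min_le_right _ _)⟩
  obtain ⟨A, hxA, -, hR, hA⟩ := hcov (B.pr (ψ, δ) hδI)
    (hU _ (show δ < η from hδη.trans_le (min_le_left _ _)))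
  obtain ⟨f, hf, hfA⟩ := B.graph_of_rotational hR hA
  exact ⟨f, hf, ((hfA (ψ, δ) hδI).1 hxA).symm⟩

end Table

end Vale.Agent.P097.H438
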