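import Vale.Agent.P097.H438.Area

/-!
# P097, block LIT: the lower envelope of an invariant separating set is an invariant continuous graph
-/

open Set Metric Topology Filter MeasureTheory

namespace Vale.Agent.P097.H438

/-- reflection of the plane in the vertical axis -/
def flip : (ℝ × ℝ) ≃ₜ (ℝ × ℝ) := (Homeomorph.neg ℝ).prodCongr (Homeomorph.refl ℝ)

theorem flip_apply (z : ℝ × ℝ) : flip z = (-z.1, z.2) := rfl

theorem flip_symm_apply (z : ℝ × ℝ) : flip.symm z = (-z.1, z.2) := rfl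

theorem flip_flip (z : ℝ × ℝ) : flip (flip z) = z := by
  rw [flip_apply, flip_apply]; simp

theorem flip_add (z : ℝ × ℝ) (a : ℝ) : flip (z + (a, 0)) = flip z + (-a, 0) := by
  rw [flip_apply, flip_apply]
  ext <;> simp [add_comm]

namespace Sys

variable (S : Sys)

theorem F_neg (z : ℝ × ℝ) : S.F (z + (-S.P, 0)) = S.F z + (-S.P, 0) := by
  have := S.F_per (z + (-S.P, 0))
  rw [add_pair, neg_add_cancel, add_pair_zero] at this
  rw [this, add_pair, add_neg_cancel, add_pair_zero]

theorem symm_neg (z : ℝ × ℝ) : S.F.symm (z + (-S.P, 0)) = S.F.symm z + (-S.P, 0) := by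
  rw [Homeomorph.symm_apply_eq, S.F_neg, Homeomorph.apply_symm_apply]

theorem C_neg (z : ℝ × ℝ) : z + (-S.P, 0) ∈ S.C ↔ z ∈ S.C := by
  rw [← S.C_per (z + (-S.P, 0)), add_pair, neg_add_cancel, add_pair_zero]

/-- the mirror image of the system; its map is the mirror image of the inverse map -/
noncomputable def mirror : Sys where
  H := S.H
  P := S.P
  F := flip.trans (S.F.symm.trans flip)
  C := flip ⁻¹' S.C
  ν := S.ν.map flip
  hP := S.hP
  F_low z hz := by
    change flip (S.F.symm (flip z)) = z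
    rw [S.symm_low (z := flip z) hz, flip_flip]
  F_high z := S.symm_high (flip z)
  F_per z := by
    change flip (S.F.symm (flip (z + (S.P, 0)))) = flip (S.F.symm (flip z)) + (S.P, 0)
    rw [flip_add, S.symm_neg, flip_add, neg_neg]
  twist x y y' h0 h1 h2 := by
    change -(S.F.symm (-x, y)).1 < -(S.F.symm (-x, y')).1
    have := S.twist' (-x) y y' h0 h1 h2
    linarith
  twist' x y y' h0 h1 h2 := by
    change -(S.F (-x, y')).1 < -(S.F (-x, y)).1
    have := S.twist (-x) y y' h0 h1 h2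
    linarith
  C_closed := S.C_closed.preimage flip.continuous
  C_strip z hz := S.C_strip (flip z) hz
  C_per z := by
    change flip (z + (S.P, 0)) ∈ S.C ↔ flip z ∈ S.C
    rw [flip_add, S.C_neg]
  C_inv z := by
    change flip (flip (S.F.symm (flip z))) ∈ S.C ↔ flip z ∈ S.C
    rw [flip_flip, S.symm_inv]
  C_right z hz R := by
    obtain ⟨Q, h1, h2, h3, h4, q, hq, hqR⟩ := S.C_left (flip z) hz (-R)
    refine ⟨flip '' Q, ?_, h2.image flip.continuous, h3.image _ flip.continuous.continuousOn,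
      ⟨_, h4, flip_flip z⟩, flip q, mem_image_of_mem _ hq, ?_⟩
    · rintro _ ⟨w, hw, rfl⟩
      change flip (flip w) ∈ S.C
      rw [flip_flip]; exact h1 hw
    · rw [flip_apply]; simp only; linarith
  C_left z hz R := by
    obtain ⟨Q, h1, h2, h3, h4, q, hq, hqR⟩ := S.C_right (flip z) hz (-R)
    refine ⟨flip '' Q, ?_, h2.image flip.continuous, h3.image _ flip.continuous.continuousOn,
      ⟨_, h4, flip_flip z⟩, flip q, mem_image_of_mem _ hq, ?_⟩
    · rintro _ ⟨w, hw, rfl⟩
      change flip (flip w) ∈ S.C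
      rw [flip_flip]; exact h1 hw
    · rw [flip_apply]; simp only; linarith
  C_ne := by
    obtain ⟨z, hz⟩ := S.C_ne
    exact ⟨flip z, by change flip (flip z) ∈ S.C; rw [flip_flip]; exact hz⟩
  ν_pres := by
    have h1 : MeasurePreserving flip S.ν (S.ν.map flip) := flip.continuous.measurable.measurePreserving _
    have h2 : MeasurePreserving flip (S.ν.map flip) S.ν := by
      have := MeasurePreserving.symm flip.toMeasurableEquiv h1
      exact this
    have h3 : MeasurePreserving S.F.symm S.ν S.ν := MeasurePreserving.symm S.F.toMeasurableEquiv S.ν_pres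
    exact h1.comp (h3.comp h2)
  ν_per := by
    have h1 : MeasurePreserving flip S.ν (S.ν.map flip) := flip.continuous.measurable.measurePreserving _
    have h2 : MeasurePreserving flip (S.ν.map flip) S.ν := by
      have := MeasurePreserving.symm flip.toMeasurableEquiv h1
      exact this
    have h3 : MeasurePreserving (fun z : ℝ × ℝ => z + (-S.P, 0)) S.ν S.ν := by
      have h4 := MeasurePreserving.symm (Homeomorph.addRight ((S.P, 0) : ℝ × ℝ)).toMeasurableEquiv S.ν_per
      have h5 : (⇑(Homeomorph.addRight ((S.P, 0) : ℝ × ℝ)).toMeasurableEquiv.symm) =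
          fun z : ℝ × ℝ => z + (-S.P, 0) := by
        funext z
        change z + -((S.P, 0) : ℝ × ℝ) = _
        simp
      rw [h5] at h4
      exact h4
    have h6 := h1.comp (h3.comp h2)
    have h7 : (fun z : ℝ × ℝ => z + (S.P, 0)) =
        flip ∘ (fun z : ℝ × ℝ => z + (-S.P, 0)) ∘ flip := by
      funext z
      simp only [Function.comp]
      rw [flip_add, flip_flip, neg_neg]
    rw [h7]
    exact h6
  ν_fin R := by
    rw [Measure.map_apply flip.continuous.measurable]
    · refine lt_of_le_of_lt (measure_mono ?_) (S.ν_fin R)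
      rintro z ⟨h1, h2, h3⟩
      rw [flip_apply] at h1 h2 h3
      simp only [abs_neg] at h1
      exact ⟨h1, h2, h3⟩
    · have e1 : IsClosed {z : ℝ × ℝ | |z.1| ≤ R} := isClosed_le (by fun_prop) continuous_const
      have e2 : IsOpen {z : ℝ × ℝ | 0 < z.2} := isOpen_lt continuous_const continuous_snd
      have e3 : IsOpen {z : ℝ × ℝ | z.2 < S.H} := isOpen_lt continuous_snd continuous_const
      exact e1.measurableSet.inter (e2.measurableSet.inter e3.measurableSet)
  ν_pos U hU hUs hne := by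
    rw [Measure.map_apply flip.continuous.measurable hU.measurableSet]
    refine S.ν_pos _ (hU.preimage flip.continuous) (fun z hz => hUs (flip z) hz) ?_
    obtain ⟨z, hz⟩ := hne
    exact ⟨flip z, by rw [mem_preimage, flip_flip]; exact hz⟩

theorem mirror_m (x : ℝ) : S.mirror.m x = S.m (-x) := rfl

theorem mirror_H : S.mirror.H = S.H := rfl

theorem mem_mirror_V {z : ℝ × ℝ} : z ∈ S.mirror.V ↔ flip z ∈ S.V := by
  rw [mem_V, mem_V, mirror_m, flip_apply]

theorem no_RM (e : ℝ × ℝ) : ¬ S.RM e := by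
  rintro ⟨r, hr, h0, h1, h2⟩
  refine S.mirror.no_LM (flip e) ⟨r, hr, fun z hz => ?_, fun x hx hx' => ?_, fun x hx hx' => ?_⟩
  · obtain ⟨g1, g2⟩ := abs_lt_of_mem_ball hz
    refine h0 (flip z) (mem_ball_of_abs ?_ g2)
    rw [flip_apply] at g1 ⊢
    simp only at g1 ⊢
    rw [← abs_neg]
    rwa [show -(-z.1 - e.1) = z.1 - -e.1 by ring]
  · rw [flip_apply] at hx hx' ⊢
    simp only at hx hx' ⊢
    rw [mirror_m]
    exact h1 _ (by linarith) (by linarith)
  · rw [flip_apply] at hx hx' ⊢
    simp only at hx hx' ⊢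
    rw [mirror_m]
    exact h2 _ (by linarith) (by linarith)

theorem mem_V_of_closure {z : ℝ × ℝ} (hz : z ∈ closure S.V) (hC : z ∉ S.C) (hH : z.2 < S.H) :
    z ∈ S.V := by
  by_contra hcon
  rcases Mouth.cases ⟨hz, hcon, hC, hH⟩ with h | h
  · exact S.no_LM z h
  · exact S.no_RM z h

theorem isPreconnected_V : IsPreconnected S.V := by
  refine isPreconnected_of_forall (0, 0) fun y hy => ?_
  have hlow : IsPreconnected {z : ℝ × ℝ | z.2 ≤ 0} :=
    (convex_halfSpace_le (f := fun z : ℝ × ℝ => z.2) ⟨fun _ _ => rfl, fun _ _ => rfl⟩ 0).isPreconnected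
  refine ⟨{z : ℝ × ℝ | z.2 ≤ 0} ∪ ({y.1} ×ˢ Iic y.2), ?_, Or.inl (le_refl (0 : ℝ)),
    Or.inr (mk_mem_prod rfl self_mem_Iic), ?_⟩
  · rintro z (hz | ⟨hz1, hz2⟩)
    · exact S.low_mem_V hz
    · rw [mem_singleton_iff] at hz1
      rw [S.mem_V, hz1]
      exact lt_of_le_of_lt hz2 (S.mem_V.1 hy)
  · exact IsPreconnected.union (y.1, min y.2 0)
      (show (y.1, min y.2 0) ∈ {z : ℝ × ℝ | z.2 ≤ 0} from min_le_right y.2 0)
      (mk_mem_prod rfl (mem_Iic.2 (min_le_left _ _))) hlow
      (isPreconnected_singleton.prod isPreconnected_Iic)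

theorem F_mem_V {z : ℝ × ℝ} (hz : z ∈ S.V) : S.F z ∈ S.V := by
  have h1 : IsPreconnected (S.F '' S.V) := S.isPreconnected_V.image _ S.F.continuous.continuousOn
  have h2 : (S.F '' S.V ∩ S.V).Nonempty :=
    ⟨(0, 0), ⟨(0, 0), S.low_mem_V le_rfl, S.F_bot 0⟩, S.low_mem_V le_rfl⟩
  refine h1.subset_of_closure_inter_subset S.isOpen_V h2 ?_ (mem_image_of_mem _ hz)
  rintro _ ⟨h3, w, hw, rfl⟩
  exact S.mem_V_of_closure h3 (by rw [S.C_inv]; exact S.not_mem_C_of_mem_V hw)
    ((S.F_high w).2 (S.lt_H_of_mem_V hw))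

theorem symm_mem_V {z : ℝ × ℝ} (hz : z ∈ S.V) : S.F.symm z ∈ S.V := by
  have h1 : IsPreconnected (S.F.symm '' S.V) :=
    S.isPreconnected_V.image _ S.F.symm.continuous.continuousOn
  have h2 : (S.F.symm '' S.V ∩ S.V).Nonempty :=
    ⟨(0, 0), ⟨(0, 0), S.low_mem_V le_rfl, S.symm_low le_rfl⟩, S.low_mem_V le_rfl⟩
  refine h1.subset_of_closure_inter_subset S.isOpen_V h2 ?_ (mem_image_of_mem _ hz)
  rintro _ ⟨h3, w, hw, rfl⟩
  exact S.mem_V_of_closure h3 (by rw [S.symm_inv]; exact S.not_mem_C_of_mem_V hw)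
    ((S.symm_high w).2 (S.lt_H_of_mem_V hw))

theorem no_right {x y : ℝ} (hy : y < S.H) (hm : S.m x < y) :
    ∀ᶠ z in 𝓝 (x, y), z ∈ S.V → z.1 ≤ x := by
  have hy0 : 0 < y := (S.m_pos x).trans hm
  obtain ⟨u', w', huw⟩ : ∃ u' w', S.F.symm (x, y) = (u', w') := ⟨_, _, rfl⟩
  have hF : S.F (u', w') = (x, y) := by rw [← huw, Homeomorph.apply_symm_apply]
  have hw' : 0 < w' := by
    have := S.symm_pos_of_pos (z := (x, y)) hy0
    rwa [huw] at this
  have hw'H : w' < S.H := by
    have := (S.symm_high (x, y)).2 hy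
    rwa [huw] at this
  -- near the preimage the image is above `m x`
  have hN0 : S.F ⁻¹' {z : ℝ × ℝ | S.m x < z.2} ∈ 𝓝 (u', w') :=
    S.F.continuous.continuousAt.preimage_mem_nhds
      ((isOpen_lt continuous_const continuous_snd).mem_nhds (by rw [hF]; exact hm))
  obtain ⟨ρ, hρ, hρ1⟩ := Metric.mem_nhds_iff.1 hN0
  set s₁ := w' - min ρ w' / 2 with hs₁
  have hmin : 0 < min ρ w' := lt_min hρ hw'
  have hminr := min_le_left ρ w'
  have hminw := min_le_right ρ w'
  have hs₁0 : 0 ≤ s₁ := by linarith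
  have hs₁w : s₁ < w' := by linarith
  have htw : (S.F (u', s₁)).1 < x := by
    have := S.twist u' s₁ w' hs₁0 hs₁w hw'H
    rwa [hF] at this
  have hc1 : Continuous fun u : ℝ => (S.F (u, s₁)).1 := by fun_prop
  have hev : ∀ᶠ u in 𝓝 u', (S.F (u, s₁)).1 < x := hc1.continuousAt.eventually_lt_const htw
  have hsymm : Tendsto S.F.symm (𝓝 (x, y)) (𝓝 (u', w')) := by
    rw [← huw]; exact S.F.symm.continuous.continuousAt
  have hfst : Tendsto (fun z => (S.F.symm z).1) (𝓝 (x, y)) (𝓝 u') :=
    (continuous_fst.tendsto (u', w')).comp hsymm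
  have hball := hsymm (ball_mem_nhds (u', w') (show 0 < min ρ w' / 2 by linarith))
  filter_upwards [hfst.eventually hev, hball] with z hz1 hz2 hzV
  by_contra hcon
  rw [not_le] at hcon
  obtain ⟨g1, g2⟩ := abs_lt_of_mem_ball hz2
  set u := (S.F.symm z).1 with hu
  set w := (S.F.symm z).2 with hw
  simp only at g1 g2
  have hFz : S.F (u, w) = z := by
    rw [hu, hw]; exact Homeomorph.apply_symm_apply _ _
  have hVuw : (u, w) ∈ S.V := by
    have := S.symm_mem_V hzV
    exact this
  have hws : s₁ < w := by have := (abs_lt.1 g2).1; linarith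
  have hcont : ContinuousOn (fun s : ℝ => (S.F (u, s)).1) (Icc s₁ w) := by fun_prop
  obtain ⟨s, hs, hsx⟩ := intermediate_value_Icc hws.le hcont ⟨hz1.le, by
    rw [hFz]; exact hcon.le⟩
  simp only at hsx
  have h1 : (u, s) ∈ ball (u', w') ρ := mem_ball_of_abs (by simp only; linarith) (by
    simp only
    rw [abs_lt]
    have := (abs_lt.1 g2).2
    constructor <;> linarith [hs.1, hs.2])
  have h2 : S.m x < (S.F (u, s)).2 := hρ1 h1
  have h3 : (u, s) ∈ S.V := lt_of_le_of_lt hs.2 (S.mem_V.1 hVuw)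
  have h4 := S.mem_V.1 (S.F_mem_V h3)
  rw [hsx] at h4
  linarith

theorem no_left {x y : ℝ} (hy : y < S.H) (hm : S.m x < y) :
    ∀ᶠ z in 𝓝 (x, y), z ∈ S.V → x ≤ z.1 := by
  have h1 := S.mirror.no_right (x := -x) (y := y) hy (by rw [mirror_m, neg_neg]; exact hm)
  have h2 : Tendsto flip (𝓝 (x, y)) (𝓝 (-x, y)) := flip.continuous.tendsto (x, y)
  filter_upwards [h2.eventually h1] with z hz hzV
  have := hz (by rw [mem_mirror_V, flip_flip]; exact hzV)
  rw [flip_apply] at this
  simp only at this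
  linarith

theorem le_m_of_closure {z : ℝ × ℝ} (hz : z ∈ closure S.V) (hH : z.2 < S.H) : z.2 ≤ S.m z.1 := by
  by_contra hcon
  rw [not_le] at hcon
  obtain ⟨x, y⟩ := z
  simp only at hH hcon
  have h1 : ∀ᶠ w : ℝ × ℝ in 𝓝 (x, y), S.m x < w.2 :=
    (isOpen_lt continuous_const continuous_snd).mem_nhds hcon
  have h2 := (S.no_right hH hcon).and ((S.no_left hH hcon).and h1)
  obtain ⟨w, hwV, hw1, hw2, hw3⟩ := ((mem_closure_iff_frequently.1 hz).and_eventually h2).exists
  have := le_antisymm (hw1 hwV) (hw2 hwV)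
  have h3 := S.mem_V.1 hwV
  rw [this] at h3
  linarith

/-- **Birkhoff's theorem**: the lower envelope is continuous. -/
theorem continuous_m : Continuous S.m := by
  rw [continuous_iff_continuousAt]
  intro x
  rw [Metric.continuousAt_iff']
  intro ε hε
  obtain ⟨η, hη, hηε, hηH⟩ : ∃ η > 0, η < ε ∧ S.m x + η < S.H := by
    have := S.m_lt x
    refine ⟨min (ε / 2) ((S.H - S.m x) / 2), lt_min (by linarith) (by linarith), ?_, ?_⟩
    · linarith [min_le_left (ε / 2) ((S.H - S.m x) / 2)]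
    · linarith [min_le_right (ε / 2) ((S.H - S.m x) / 2)]
  -- upper bound
  have h1 : (x, S.m x + η) ∉ closure S.V := fun h => by
    have := S.le_m_of_closure h hηH
    simp only at this
    linarith
  have h2 : ∀ᶠ u : ℝ in 𝓝 x, (u, S.m x + η) ∈ (closure S.V)ᶜ :=
    (show Continuous fun u : ℝ => (u, S.m x + η) by fun_prop).continuousAt.eventually
      (isClosed_closure.isOpen_compl.mem_nhds h1)
  have h3 : (x, S.m x - η) ∈ S.V := show S.m x - η < S.m x by linarith
  have h4 : ∀ᶠ u : ℝ in 𝓝 x, (u, S.m x - η) ∈ S.V :=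
    (show Continuous fun u : ℝ => (u, S.m x - η) by fun_prop).continuousAt.eventually
      (S.isOpen_V.mem_nhds h3)
  filter_upwards [h2, h4] with u hu1 hu2
  have e1 : S.m x - η < S.m u := hu2
  have e2 : S.m u ≤ S.m x + η := by
    by_contra hcon
    rw [not_le] at hcon
    exact hu1 (subset_closure (show S.m x + η < S.m u from hcon))
  rw [Real.dist_eq, abs_lt]
  constructor <;> linarith

/-- **Birkhoff's theorem**: the lower envelope is invariant. -/
theorem F_m (x : ℝ) : (S.F (x, S.m x)).2 = S.m (S.F (x, S.m x)).1 := by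
  have h1 : (x, S.m x) ∈ closure S.V := S.ray_subset_closure le_rfl
  have hC : S.F (x, S.m x) ∈ S.C := (S.C_inv _).2 (S.m_mem x)
  have h2 : S.F (x, S.m x) ∈ closure S.V := by
    have h3 : S.F '' S.V ⊆ S.V := by
      rintro _ ⟨w, hw, rfl⟩; exact S.F_mem_V hw
    exact closure_mono h3 (image_closure_subset_closure_image S.F.continuous
      (mem_image_of_mem _ h1))
  exact le_antisymm (S.le_m_of_closure h2 (S.C_strip _ hC).2) (S.m_le' hC)

end Sys

end Vale.Agent.P097.H438
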