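import Vale.Agent.P097.H438.Curve

/-!
# P097, block LIT: the literal setting of the problem

The plane is identified with the complex numbers.
-/

open Real Set Filter Topology
open scoped ContDiff ComplexConjugate

namespace Vale.Agent.P097.H438

/-- The tables of the problem: a bounded strictly convex open set whose boundary is a smooth simple
closed curve of positive curvature. `γ` is the counterclockwise arclength parametrisation of the
boundary (its velocity turns to the left: `curv`), and `L` is the length of the boundary. -/
structure Table where
  /-- the domain -/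
  Ω : Set ℂ
  /-- the length of the boundary -/
  L : ℝ
  /-- the counterclockwise arclength parametrisation of the boundary -/
  γ : ℝ → ℂ
  L_pos : 0 < L
  isOpen : IsOpen Ω
  bounded : Bornology.IsBounded Ω
  convex : Convex ℝ Ω
  strictConvex : StrictConvex ℝ (closure Ω)
  smooth : ContDiff ℝ ∞ γ
  periodic : ∀ s, γ (s + L) = γ s
  unit : ∀ s, ‖deriv γ s‖ = 1
  simple : ∀ s t, γ s = γ t → (s : AddCircle L) = (t : AddCircle L)
  boundary : range γ = frontier Ω
  curv : ∀ s, 0 < (conj (deriv γ s) * deriv (deriv γ) s).im

namespace Table

variable (B : Table)

/-- One bounce, from the phase point `x` to the phase point `y`: the ball leaves `γ s` in the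
direction at angle `x.2` counterclockwise from the positive tangent, flies a distance `ℓ > 0`, hits
the boundary at `γ t`, coming in at angle `y.2` clockwise from the positive tangent, and is
reflected to the direction at angle `y.2` counterclockwise from the positive tangent. -/
def Bounce (x y : Ann B.L) : Prop := ∃ s t ℓ : ℝ, 0 < ℓ ∧ x.1 = (s : AddCircle B.L) ∧
  y.1 = (t : AddCircle B.L) ∧
  B.γ t = B.γ s + ℓ * (deriv B.γ s * Complex.exp ((x.2 : ℝ) * Complex.I)) ∧
  deriv B.γ s * Complex.exp ((x.2 : ℝ) * Complex.I) =
    deriv B.γ t * Complex.exp (-((y.2 : ℝ) * Complex.I))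

/-- The billiard map of the phase annulus: `B.T x` is the phase point `y` with `B.Bounce x y` (it
exists and is unique). -/
noncomputable def T (x : Ann B.L) : Ann B.L :=
  @Classical.epsilon _ ⟨x⟩ fun y => B.Bounce x y

/-- A rotational curve: a simple closed curve of the phase annulus which is not contractible in
it. -/
def Rotational (A : Set (Ann B.L)) : Prop :=
  ∃ c : C(AddCircle (1 : ℝ), Ann B.L), Function.Injective c ∧ ¬ c.Nullhomotopic ∧ A = range c

/-- Integrability near the boundary, in a weak form: for some `η > 0` an open invariant set `U`
which contains all phase points at angle less than `η` is covered by invariant rotational curves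
contained in `U`. -/
def IntegrableNearBoundary : Prop :=
  ∃ η > 0, ∃ U : Set (Ann B.L), IsOpen U ∧ B.T '' U = U ∧ (∀ x : Ann B.L, (x.2 : ℝ) < η → x ∈ U) ∧
    ∀ x ∈ U, ∃ A, x ∈ A ∧ A ⊆ U ∧ B.Rotational A ∧ B.T '' A = A

end Table

/-- An ellipse (discs included): the image of the open unit disc under an affine bijection of the
plane. -/
def EllipseDomain (E : Set ℂ) : Prop := ∃ A : ℂ ≃ᵃ[ℝ] ℂ, E = A '' Metric.ball 0 1

end Vale.Agent.P097.H438
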