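import Vale.Agent.P097.H438.Sys

/-!
# P097, block LIT: mouths and bubbles

A mouth is a point of the closure of the region below the lower envelope which is neither in that
region nor in the invariant set.
-/

open Set Metric Topology Filter MeasureTheory

namespace Vale.Agent.P097.H438

namespace Sys

variable (S : Sys)

/-- points of the closure of the lower region which are neither in it nor in `C` -/
def Mouth (e : ℝ × ℝ) : Prop := e ∈ closure S.V ∧ e ∉ S.V ∧ e ∉ S.C ∧ e.2 < S.H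

/-- a mouth with the lower region on its right -/
def LM (e : ℝ × ℝ) : Prop := ∃ r > 0, (∀ z ∈ ball e r, z ∉ S.C ∧ z.2 < S.H) ∧
  (∀ x, e.1 < x → x < e.1 + r → e.2 + r ≤ S.m x) ∧
  (∀ x, e.1 - r < x → x ≤ e.1 → S.m x ≤ e.2 - r)

/-- a mouth with the lower region on its left -/
def RM (e : ℝ × ℝ) : Prop := ∃ r > 0, (∀ z ∈ ball e r, z ∉ S.C ∧ z.2 < S.H) ∧
  (∀ x, e.1 - r < x → x < e.1 → e.2 + r ≤ S.m x) ∧
  (∀ x, e.1 ≤ x → x < e.1 + r → S.m x ≤ e.2 - r)

/-- the open set above the closure of the lower region, off the invariant set -/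
def O : Set (ℝ × ℝ) := {z | z.2 < S.H} ∩ (S.C ∪ closure S.V)ᶜ

theorem isOpen_O : IsOpen S.O :=
  (isOpen_lt continuous_snd continuous_const).inter
    (S.C_closed.union isClosed_closure).isOpen_compl

theorem mem_O {z : ℝ × ℝ} : z ∈ S.O ↔ z.2 < S.H ∧ z ∉ S.C ∧ z ∉ closure S.V := by
  simp only [O, mem_inter_iff, mem_ofPred_eq, mem_compl_iff, mem_union, not_or]

/-- the bubble containing `z` -/
def comp (z : ℝ × ℝ) : Set (ℝ × ℝ) := connectedComponentIn S.O z

theorem isOpen_comp (z : ℝ × ℝ) : IsOpen (S.comp z) := S.isOpen_O.connectedComponentIn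

theorem comp_sub (z : ℝ × ℝ) : S.comp z ⊆ S.O := connectedComponentIn_subset _ _

theorem mem_comp {z : ℝ × ℝ} (hz : z ∈ S.O) : z ∈ S.comp z := mem_connectedComponentIn hz

theorem isPreconnected_comp (z : ℝ × ℝ) : IsPreconnected (S.comp z) :=
  isPreconnected_connectedComponentIn

theorem comp_eq {z w : ℝ × ℝ} (h : w ∈ S.comp z) : S.comp z = S.comp w :=
  connectedComponentIn_eq h

theorem sub_comp {A : Set (ℝ × ℝ)} (hA : IsPreconnected A) (hAO : A ⊆ S.O) {z : ℝ × ℝ}
    (hz : z ∈ A) : A ⊆ S.comp z := hA.subset_connectedComponentIn hz hAO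

theorem mem_comp_of_closure {z w : ℝ × ℝ} (hw : w ∈ S.O) (h : w ∈ closure (S.comp z)) :
    w ∈ S.comp z := by
  obtain ⟨v, hv1, hv2⟩ := mem_closure_iff.1 h _ (S.isOpen_comp w) (S.mem_comp hw)
  have e1 := S.comp_eq hv1
  have e2 := S.comp_eq hv2
  rw [e2, ← e1]
  exact S.mem_comp hw

theorem not_mem_V_of_closure_comp {z w : ℝ × ℝ} (h : w ∈ closure (S.comp z)) : w ∉ S.V := by
  intro hV
  obtain ⟨v, hv1, hv2⟩ := mem_closure_iff.1 h _ S.isOpen_V hV
  exact (S.mem_O.1 (S.comp_sub z hv2)).2.2 (subset_closure hv1)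

variable {S}

theorem abs_lt_of_mem_ball {z e : ℝ × ℝ} {r : ℝ} (h : z ∈ ball e r) :
    |z.1 - e.1| < r ∧ |z.2 - e.2| < r := by
  rw [mem_ball, Prod.dist_eq, max_lt_iff, Real.dist_eq, Real.dist_eq] at h
  exact h

theorem mem_ball_of_abs {z e : ℝ × ℝ} {r : ℝ} (h1 : |z.1 - e.1| < r) (h2 : |z.2 - e.2| < r) :
    z ∈ ball e r := by
  rw [mem_ball, Prod.dist_eq, max_lt_iff, Real.dist_eq, Real.dist_eq]
  exact ⟨h1, h2⟩

theorem high_or_low {e : ℝ × ℝ} {r : ℝ} (hb : ∀ z ∈ ball e r, z ∉ S.C ∧ z.2 < S.H) {x : ℝ}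
    (hx : |x - e.1| < r) : e.2 + r ≤ S.m x ∨ S.m x ≤ e.2 - r := by
  by_contra hcon
  rw [not_or, not_le, not_le] at hcon
  refine (hb (x, S.m x) (mem_ball_of_abs hx ?_)).1 (S.m_mem x)
  rw [abs_lt]
  constructor <;> simp only <;> linarith

theorem high_between {e : ℝ × ℝ} {r : ℝ} (hb : ∀ z ∈ ball e r, z ∉ S.C ∧ z.2 < S.H)
    (he : 0 ≤ e.2) {x₁ x₂ x₃ : ℝ} (h1 : |x₁ - e.1| < r) (h3 : |x₃ - e.1| < r) (h12 : x₁ < x₂)
    (h23 : x₂ < x₃) (hh1 : e.2 + r ≤ S.m x₁) (hh3 : e.2 + r ≤ S.m x₃) : e.2 + r ≤ S.m x₂ := by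
  have hr : 0 < r := (abs_nonneg _).trans_lt h1
  have hx2 : |x₂ - e.1| < r := by
    rw [abs_lt] at h1 h3 ⊢
    constructor <;> linarith
  refine (high_or_low hb hx2).resolve_right fun hlow => ?_
  have heH : e.2 < S.H := (hb e (mem_ball_self hr)).2
  set K : Set (ℝ × ℝ) := ({x₁} ×ˢ Icc 0 e.2) ∪ (Icc x₁ x₃ ×ˢ {e.2}) ∪ ({x₃} ×ˢ Icc 0 e.2) with hK
  have hKc : IsCompact K :=
    ((isCompact_singleton.prod isCompact_Icc).union (isCompact_Icc.prod isCompact_singleton)).union
      (isCompact_singleton.prod isCompact_Icc)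
  have hKp : IsPreconnected K := by
    have e1 : IsPreconnected (({x₁} ×ˢ Icc 0 e.2) ∪ (Icc x₁ x₃ ×ˢ {e.2}) : Set (ℝ × ℝ)) :=
      IsPreconnected.union (x₁, e.2) (mk_mem_prod rfl ⟨he, le_rfl⟩)
        (mk_mem_prod ⟨le_rfl, by linarith⟩ rfl)
        (isPreconnected_singleton.prod isPreconnected_Icc)
        (isPreconnected_Icc.prod isPreconnected_singleton)
    exact IsPreconnected.union (x₃, e.2) (Or.inr (mk_mem_prod ⟨by linarith, le_rfl⟩ rfl))
      (mk_mem_prod rfl ⟨he, le_rfl⟩) e1 (isPreconnected_singleton.prod isPreconnected_Icc)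
  obtain ⟨y, hy, hyK⟩ := S.below hKc hKp (by
      rintro z ((⟨hz1, hz2⟩ | ⟨hz1, hz2⟩) | ⟨hz1, hz2⟩)
      · exact ⟨hz2.1, hz2.2.trans heH.le⟩
      · rw [mem_singleton_iff] at hz2
        rw [hz2]; exact ⟨he, heH.le⟩
      · exact ⟨hz2.1, hz2.2.trans heH.le⟩) (by
      rintro z ((⟨hz1, hz2⟩ | ⟨hz1, hz2⟩) | ⟨hz1, hz2⟩) hzC
      · rw [mem_singleton_iff] at hz1
        have := S.m_le' hzC
        rw [hz1] at this
        linarith [hz2.2]
      · rw [mem_singleton_iff] at hz2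
        refine (hb z (mem_ball_of_abs ?_ ?_)).1 hzC
        · rw [abs_lt] at h1 h3 ⊢
          constructor <;> linarith [hz1.1, hz1.2]
        · rw [hz2]; simpa using hr
      · rw [mem_singleton_iff] at hz1
        have := S.m_le' hzC
        rw [hz1] at this
        linarith [hz2.2]) h12 h23
    (Or.inl (Or.inl (mk_mem_prod rfl ⟨le_rfl, he⟩))) (Or.inr (mk_mem_prod rfl ⟨le_rfl, he⟩))
  rcases hyK with (⟨hz1, hz2⟩ | ⟨hz1, hz2⟩) | ⟨hz1, hz2⟩
  · rw [mem_singleton_iff] at hz1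
    simp only at hz1; linarith
  · rw [mem_singleton_iff] at hz2
    simp only at hz2; linarith
  · rw [mem_singleton_iff] at hz1
    simp only at hz1; linarith

theorem Mouth.cases {e : ℝ × ℝ} (h : S.Mouth e) : S.LM e ∨ S.RM e := by
  obtain ⟨h1, h2, h3, h4⟩ := h
  have hem : S.m e.1 ≤ e.2 := not_lt.1 h2
  have he0 : 0 ≤ e.2 := (S.m_pos _).le.trans hem
  obtain ⟨r, hr, hb⟩ : ∃ r > 0, ball e r ⊆ {z | z.2 < S.H} ∩ S.Cᶜ :=
    Metric.isOpen_iff.1 ((isOpen_lt continuous_snd continuous_const).inter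
      S.C_closed.isOpen_compl) e ⟨h4, h3⟩
  have hb' : ∀ z ∈ ball e r, z ∉ S.C ∧ z.2 < S.H := fun z hz => ⟨(hb hz).2, (hb hz).1⟩
  have hlow : S.m e.1 ≤ e.2 - r :=
    (high_or_low hb' (x := e.1) (by simpa using hr)).resolve_left (by linarith)
  have hacc : ∀ ε > 0, ε ≤ r → ∃ x, |x - e.1| < ε ∧ e.2 + r ≤ S.m x := by
    intro ε hε hεr
    obtain ⟨z, hzV, hz⟩ := Metric.mem_closure_iff.1 h1 ε hε
    rw [dist_comm] at hz
    obtain ⟨hz1, hz2⟩ := abs_lt_of_mem_ball (mem_ball.2 hz)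
    refine ⟨z.1, hz1, (high_or_low hb' (hz1.trans_le hεr)).resolve_right fun hl => ?_⟩
    have := S.mem_V.1 hzV
    have := (abs_lt.1 hz2).1
    linarith
  by_cases hA : ∃ x, e.1 < x ∧ x < e.1 + r ∧ e.2 + r ≤ S.m x
  · left
    obtain ⟨x₀, hx1, hx2, hx3⟩ := hA
    have hx₀ : |x₀ - e.1| < r := by rw [abs_lt]; constructor <;> linarith
    refine ⟨x₀ - e.1, by linarith, fun z hz => hb' z (ball_subset_ball (by linarith) hz), ?_, ?_⟩
    · intro x hx hx'
      obtain ⟨x', hx'1, hx'2⟩ := hacc (x - e.1) (by linarith) (by linarith)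
      have hx'r : |x' - e.1| < r := by linarith
      have hx'e : e.1 < x' := by
        by_contra hcon
        rw [not_lt] at hcon
        rcases hcon.lt_or_eq with h5 | h5
        · have := high_between hb' he0 hx'r hx₀ h5 hx1 hx'2 hx3
          linarith
        · rw [h5] at hx'2; linarith
      have : x' < x := by
        have := (abs_lt.1 hx'1).2; linarith
      have := high_between hb' he0 hx'r hx₀ this (by linarith) hx'2 hx3
      linarith
    · intro x hx hx'
      rcases hx'.lt_or_eq with h5 | h5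
      · refine ((high_or_low hb' (x := x) ?_).resolve_left fun hh => ?_).trans (by linarith)
        · rw [abs_lt]; constructor <;> linarith
        · have := high_between hb' he0 (x₁ := x) (by rw [abs_lt]; constructor <;> linarith)
            hx₀ h5 hx1 hh hx3
          linarith
      · rw [h5]; linarith
  · right
    push Not at hA
    obtain ⟨x₀, hx1, hx3⟩ := hacc r hr le_rfl
    have hx₀e : x₀ < e.1 := by
      by_contra hcon
      rw [not_lt] at hcon
      rcases hcon.lt_or_eq with h5 | h5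
      · have := hA x₀ h5 (by have := (abs_lt.1 hx1).2; linarith)
        linarith
      · rw [← h5] at hx3; linarith
    have hx₀r : e.1 - r < x₀ := by have := (abs_lt.1 hx1).1; linarith
    refine ⟨e.1 - x₀, by linarith, fun z hz => hb' z (ball_subset_ball (by linarith) hz), ?_, ?_⟩
    · intro x hx hx'
      obtain ⟨x', hx'1, hx'2⟩ := hacc (e.1 - x) (by linarith) (by linarith)
      have hx'r : |x' - e.1| < r := by linarith
      have hx'e : x' < e.1 := by
        by_contra hcon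
        rw [not_lt] at hcon
        rcases hcon.lt_or_eq with h5 | h5
        · have := hA x' h5 (by have := (abs_lt.1 hx'r).2; linarith)
          linarith
        · rw [← h5] at hx'2; linarith
      have : x < x' := by
        have := (abs_lt.1 hx'1).1; linarith
      have := high_between hb' he0 hx1 hx'r (by linarith) this hx3 hx'2
      linarith
    · intro x hx hx'
      rcases hx.lt_or_eq with h5 | h5
      · refine ((high_or_low hb' (x := x) ?_).resolve_left fun hh => ?_).trans (by linarith)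
        · rw [abs_lt]; constructor <;> linarith
        · have := hA x h5 (by linarith)
          linarith
      · rw [← h5]; linarith

/-- the two types exclude each other on a vertical line -/
theorem LM.not_RM {e q : ℝ × ℝ} (h : S.LM e) (h' : S.RM q) : e.1 ≠ q.1 := by
  intro he
  obtain ⟨r, hr, -, h1, h2⟩ := h
  obtain ⟨r', hr', -, h3, h4⟩ := h'
  have hm : 0 < min r r' := lt_min hr hr'
  have e1 : min r r' ≤ r := min_le_left _ _
  have e2 : min r r' ≤ r' := min_le_right _ _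
  have f1 := h1 (e.1 + min r r' / 2) (by linarith) (by linarith)
  have f2 := h2 (e.1 - min r r' / 2) (by linarith) (by linarith)
  have f3 := h3 (e.1 - min r r' / 2) (by linarith) (by linarith)
  have f4 := h4 (e.1 + min r r' / 2) (by linarith) (by linarith)
  linarith

/-- the left half ball of a left mouth -/
theorem LM.left_half {e : ℝ × ℝ} (h : S.LM e) : ∃ r > 0,
    {z | z ∈ ball e r ∧ z.1 < e.1} ⊆ S.O := by
  obtain ⟨r, hr, h0, h1, h2⟩ := h
  refine ⟨r, hr, ?_⟩
  rintro z ⟨hz, hz1⟩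
  rw [S.mem_O]
  refine ⟨(h0 z hz).2, (h0 z hz).1, fun hcl => ?_⟩
  have hU : IsOpen {z : ℝ × ℝ | z ∈ ball e r ∧ z.1 < e.1} :=
    isOpen_ball.inter (isOpen_lt continuous_fst continuous_const)
  obtain ⟨w, ⟨hw1, hw2⟩, hw3⟩ := mem_closure_iff.1 hcl _ hU ⟨hz, hz1⟩
  obtain ⟨g1, g2⟩ := abs_lt_of_mem_ball hw1
  have := h2 w.1 (by have := (abs_lt.1 g1).1; linarith) hw2.le
  have := S.mem_V.1 hw3
  have := (abs_lt.1 g2).1
  linarith

end Sys

end Vale.Agent.P097.H438
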