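import Vale.Agent.P073.H527.Cross

/-!
# P097, block LIT: invariant separating sets of area preserving twist maps of the strip

The setting of Birkhoff's theorem, lifted to the plane: `F` is a homeomorphism of the plane which
is the identity below the line `y = 0`, preserves the strip `0 < y < H`, commutes with the
translation by `(P, 0)`, twists the vertical lines, and preserves a measure. `C` is a closed
invariant subset of the strip.
-/

open Set Metric Topology Filter MeasureTheory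

namespace Vale.Agent.P097.H438

/-- Two continua in a box, one containing two points of the bottom side, the other one containing
a point of the bottom side between them and a point of the right side, meet. -/
theorem cross_bottom {R H a₁ x a₂ b : ℝ} (hH : 0 < H) (h1 : -R < a₁) (h2 : a₁ < x) (h3 : x < a₂)
    (h4 : a₂ < R) (hb0 : 0 < b) (hbH : b < H) {A B : Set (ℝ × ℝ)} (hA : IsCompact A)
    (hA' : IsPreconnected A) (hAQ : A ⊆ Icc (-R) R ×ˢ Icc 0 H) (hB : IsCompact B)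
    (hB' : IsPreconnected B) (hBQ : B ⊆ Icc (-R) R ×ˢ Icc 0 H)
    (ha1 : (a₁, (0 : ℝ)) ∈ A) (hx : (x, (0 : ℝ)) ∈ B) (ha2 : (a₂, (0 : ℝ)) ∈ A)
    (hbB : (R, b) ∈ B) : (A ∩ B).Nonempty := by
  have hR : 0 < R := by linarith
  set φ : ℝ × ℝ → (Fin 2 → ℝ) := fun z => ![z.1 / R, z.2 / H - 1] with hφ
  have hφc : Continuous φ := by
    rw [hφ]
    refine continuous_pi fun i => ?_
    fin_cases i
    · exact continuous_fst.div_const R
    · exact (continuous_snd.div_const H).sub continuous_const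
  have hφi : Function.Injective φ := by
    intro z w hzw
    have e0 := congrFun hzw 0
    have e1 := congrFun hzw 1
    simp only [hφ, Matrix.cons_val_zero, Matrix.cons_val_one] at e0 e1
    refine Prod.ext ?_ ?_
    · field_simp at e0; exact e0
    · have : z.2 / H = w.2 / H := by linarith
      field_simp at this; exact this
  have hφb : ∀ z ∈ Icc (-R) R ×ˢ Icc 0 H, φ z ∈ closedBall (0 : Fin 2 → ℝ) 1 := by
    rintro z ⟨⟨z1, z2⟩, z3, z4⟩
    rw [mem_closedBall_zero_iff, pi_norm_le_iff_of_nonneg zero_le_one]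
    intro i
    rw [Real.norm_eq_abs, abs_le]
    fin_cases i
    · simp only [hφ]
      constructor
      · rw [Fin.zero_eta, Matrix.cons_val_zero, le_div_iff₀ hR]; linarith
      · rw [Fin.zero_eta, Matrix.cons_val_zero, div_le_iff₀ hR]; linarith
    · change -1 ≤ z.2 / H - 1 ∧ z.2 / H - 1 ≤ 1
      have : 0 ≤ z.2 / H := by positivity
      have : z.2 / H ≤ 1 := by rw [div_le_iff₀ hH]; linarith
      constructor <;> linarith
  have hbot : ∀ a, -R < a → a < R → P073.kap 0 (a / R + 6) = φ (a, 0) := by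
    intro a ha ha'
    have e1 : -1 < a / R := by rw [lt_div_iff₀ hR]; linarith
    have e2 : a / R < 1 := by rw [div_lt_iff₀ hR]; linarith
    obtain ⟨e3, e4⟩ := P073.c57 (t := a / R + 6) (by linarith) (by linarith)
    simp only [P073.kap, e3, e4, P073.mh_neg_one, hφ]
    congr 1 <;> [ring; simp]
  have hrt : P073.kap 0 (7 + b / H) = φ (R, b) := by
    have e1 : 0 < b / H := by positivity
    have e2 : b / H < 1 := by rw [div_lt_iff₀ hH]; linarith
    obtain ⟨e3, e4⟩ := P073.c78 (t := 7 + b / H) (by linarith) (by linarith)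
    simp only [P073.kap, e3, e4, P073.mh, hφ]
    rw [div_self hR.ne']
    congr 1
    simp; ring
  have e1 : -1 < a₁ / R := by rw [lt_div_iff₀ hR]; linarith
  have e2 : a₁ / R < x / R := by gcongr
  have e3 : x / R < a₂ / R := by gcongr
  have e4 : a₂ / R < 1 := by rw [div_lt_iff₀ hR]; linarith
  have e5 : 0 < b / H := by positivity
  have e6 : b / H < 1 := by rw [div_lt_iff₀ hH]; linarith
  obtain ⟨z, ⟨p, hp, rfl⟩, ⟨q, hq, he⟩⟩ := P073.PH.cross_continua (h := 0) (by norm_num)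
    (s₁ := a₁ / R + 6) (s₂ := x / R + 6) (s₃ := a₂ / R + 6) (s₄ := 7 + b / H)
    (by linarith) (by linarith) (by linarith) (by linarith) (by linarith)
    (A := φ '' A) (B := φ '' B) (hA.image hφc) (hA'.image _ hφc.continuousOn)
    (by rintro _ ⟨z, hz, rfl⟩; exact hφb z (hAQ hz)) (hB.image hφc)
    (hB'.image _ hφc.continuousOn) (by rintro _ ⟨z, hz, rfl⟩; exact hφb z (hBQ hz))
    (by rw [hbot _ h1 (by linarith)]; exact mem_image_of_mem _ ha1)
    (by rw [hbot _ (by linarith) (by linarith)]; exact mem_image_of_mem _ hx)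
    (by rw [hbot _ (by linarith) h4]; exact mem_image_of_mem _ ha2)
    (by rw [hrt]; exact mem_image_of_mem _ hbB)
  have := hφi he
  subst this
  exact ⟨q, hp, hq⟩

/-- An area preserving twist map of the strip `0 < y < H`, lifted to the plane, together with a
closed invariant set all of whose points lie in continua reaching arbitrarily far to both sides. -/
structure Sys where
  /-- height of the strip -/
  H : ℝ
  /-- period -/
  P : ℝ
  /-- the map -/
  F : (ℝ × ℝ) ≃ₜ (ℝ × ℝ)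
  /-- the invariant set -/
  C : Set (ℝ × ℝ)
  /-- the invariant measure -/
  ν : Measure (ℝ × ℝ)
  hP : 0 < P
  F_low : ∀ z : ℝ × ℝ, z.2 ≤ 0 → F z = z
  F_high : ∀ z : ℝ × ℝ, (F z).2 < H ↔ z.2 < H
  F_per : ∀ z : ℝ × ℝ, F (z + (P, 0)) = F z + (P, 0)
  twist : ∀ x y y', 0 ≤ y → y < y' → y' < H → (F (x, y)).1 < (F (x, y')).1
  twist' : ∀ x y y', 0 ≤ y → y < y' → y' < H → (F.symm (x, y')).1 < (F.symm (x, y)).1
  C_closed : IsClosed C
  C_strip : ∀ z ∈ C, 0 < z.2 ∧ z.2 < H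
  C_per : ∀ z, z + (P, 0) ∈ C ↔ z ∈ C
  C_inv : ∀ z, F z ∈ C ↔ z ∈ C
  C_right : ∀ z ∈ C, ∀ R, ∃ Q ⊆ C, IsCompact Q ∧ IsPreconnected Q ∧ z ∈ Q ∧ ∃ q ∈ Q, R < q.1
  C_left : ∀ z ∈ C, ∀ R, ∃ Q ⊆ C, IsCompact Q ∧ IsPreconnected Q ∧ z ∈ Q ∧ ∃ q ∈ Q, q.1 < R
  C_ne : C.Nonempty
  ν_pres : MeasurePreserving F ν ν
  ν_per : MeasurePreserving (fun z : ℝ × ℝ => z + (P, 0)) ν ν
  ν_fin : ∀ R : ℝ, ν {z | |z.1| ≤ R ∧ 0 < z.2 ∧ z.2 < H} < ⊤
  ν_pos : ∀ U : Set (ℝ × ℝ), IsOpen U → (∀ z ∈ U, 0 < z.2 ∧ z.2 < H) → U.Nonempty → 0 < ν U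

namespace Sys

variable (S : Sys)

theorem hH : 0 < S.H := by
  obtain ⟨z, hz⟩ := S.C_ne
  exact (S.C_strip z hz).1.trans (S.C_strip z hz).2

/-- every vertical line meets the invariant set -/
theorem exists_mem (x : ℝ) : ∃ y, (x, y) ∈ S.C := by
  obtain ⟨z, hz⟩ := S.C_ne
  obtain ⟨Q, hQC, -, hQ, hzQ, q, hq, hqR⟩ := S.C_right z hz x
  obtain ⟨Q', hQC', -, hQ', hzQ', q', hq', hqR'⟩ := S.C_left z hz x
  have h1 : IsPreconnected (Q ∪ Q') := hQ.union z hzQ hzQ' hQ'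
  obtain ⟨w, hw, hwx⟩ := h1.intermediate_value (Or.inr hq') (Or.inl hq)
    continuous_fst.continuousOn ⟨hqR'.le, hqR.le⟩
  refine ⟨w.2, ?_⟩
  have : w ∈ S.C := hw.elim (fun h => hQC h) (fun h => hQC' h)
  rw [← hwx]
  exact this

/-- the lower envelope of the invariant set -/
noncomputable def m (x : ℝ) : ℝ := sInf {y | (x, y) ∈ S.C}

theorem bddBelow_slice (x : ℝ) : BddBelow {y | (x, y) ∈ S.C} :=
  ⟨0, fun _ hy => (S.C_strip _ hy).1.le⟩

theorem m_mem (x : ℝ) : (x, S.m x) ∈ S.C := by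
  have h1 : IsClosed {y | (x, y) ∈ S.C} := S.C_closed.preimage (by fun_prop)
  exact h1.csInf_mem (S.exists_mem x) (S.bddBelow_slice x)

theorem m_le {x y : ℝ} (h : (x, y) ∈ S.C) : S.m x ≤ y := csInf_le (S.bddBelow_slice x) h

theorem m_le' {z : ℝ × ℝ} (h : z ∈ S.C) : S.m z.1 ≤ z.2 := S.m_le h

theorem m_pos (x : ℝ) : 0 < S.m x := (S.C_strip _ (S.m_mem x)).1

theorem m_lt (x : ℝ) : S.m x < S.H := (S.C_strip _ (S.m_mem x)).2

theorem m_per (x : ℝ) : S.m (x + S.P) = S.m x := by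
  unfold m
  congr 1
  ext y
  simp only [mem_ofPred_eq]
  rw [← S.C_per (x, y)]
  simp

/-- the open set below the lower envelope -/
def V : Set (ℝ × ℝ) := {z | z.2 < S.m z.1}

theorem mem_V {z : ℝ × ℝ} : z ∈ S.V ↔ z.2 < S.m z.1 := Iff.rfl

theorem low_mem_V {z : ℝ × ℝ} (h : z.2 ≤ 0) : z ∈ S.V := h.trans_lt (S.m_pos _)

theorem not_mem_C_of_mem_V {z : ℝ × ℝ} (h : z ∈ S.V) : z ∉ S.C := fun h' =>
  (S.m_le' h').not_gt h

theorem lt_H_of_mem_V {z : ℝ × ℝ} (h : z ∈ S.V) : z.2 < S.H := lt_trans h (S.m_lt _)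

theorem isOpen_V : IsOpen S.V := by
  rw [isOpen_iff_mem_nhds]
  intro z hz
  obtain ⟨b, hzb, hb⟩ := exists_between (show z.2 < S.m z.1 from hz)
  have h1 : ({z.1} : Set ℝ) ×ˢ Icc 0 b ⊆ S.Cᶜ := by
    rintro ⟨x, y⟩ ⟨hx, hy⟩ hC
    rw [mem_singleton_iff] at hx
    simp only at hx
    subst hx
    exact absurd (S.m_le hC) (not_le.2 (hy.2.trans_lt hb))
  obtain ⟨u, v, hu, -, hxu, hv, huv⟩ := generalized_tube_lemma isCompact_singleton isCompact_Icc
    S.C_closed.isOpen_compl h1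
  have h2 : {w : ℝ × ℝ | w.1 ∈ u ∧ w.2 < b} ∈ 𝓝 z := by
    apply IsOpen.mem_nhds
    · exact (hu.preimage continuous_fst).inter (isOpen_lt continuous_snd continuous_const)
    · exact ⟨hxu rfl, hzb⟩
  filter_upwards [h2] with w hw
  refine hw.2.trans ?_
  by_contra hcon
  rw [not_lt] at hcon
  exact huv (mk_mem_prod hw.1 (hv ⟨(S.m_pos w.1).le, hcon⟩)) (S.m_mem w.1)

theorem ray_subset_closure {x y : ℝ} (h : y ≤ S.m x) : (x, y) ∈ closure S.V := by
  rw [Metric.mem_closure_iff]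
  intro ε hε
  refine ⟨(x, y - ε / 2), show y - ε / 2 < S.m x by linarith, ?_⟩
  rw [Prod.dist_eq, dist_self, Real.dist_eq, show y - (y - ε / 2) = ε / 2 by ring,
    abs_of_pos (by linarith)]
  exact max_lt hε (by linarith)

/-- The basic separation property: a continuum in the closed strip which avoids `C` and joins two
points of the bottom line meets every vertical segment from a point of the bottom line between
them to the lower envelope. -/
theorem below {K : Set (ℝ × ℝ)} (hK : IsCompact K) (hK' : IsPreconnected K)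
    (hKs : ∀ z ∈ K, 0 ≤ z.2 ∧ z.2 ≤ S.H) (hKC : ∀ z ∈ K, z ∉ S.C) {a₁ x a₂ : ℝ} (h1 : a₁ < x)
    (h2 : x < a₂) (ha1 : (a₁, (0 : ℝ)) ∈ K) (ha2 : (a₂, (0 : ℝ)) ∈ K) :
    ∃ y, y ≤ S.m x ∧ (x, y) ∈ K := by
  obtain ⟨R₁, hR₁⟩ := hK.bddAbove_image (f := fun z : ℝ × ℝ => |z.1|) (by fun_prop)
  have hR₁' : ∀ z ∈ K, |z.1| ≤ R₁ := fun z hz => hR₁ (mem_image_of_mem _ hz)
  obtain ⟨Q, hQC, hQ, hQ', hxQ, q, hq, hqR⟩ := S.C_right _ (S.m_mem x) R₁
  obtain ⟨R₂, hR₂⟩ := hQ.bddAbove_image (f := fun z : ℝ × ℝ => |z.1|) (by fun_prop)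
  have hR₂' : ∀ z ∈ Q, |z.1| ≤ R₂ := fun z hz => hR₂ (mem_image_of_mem _ hz)
  set R := max (R₁ + 1) R₂ with hR
  have hR1 : R₁ < R := by rw [hR]; exact lt_of_lt_of_le (by linarith) (le_max_left _ _)
  have hR2 : R₂ ≤ R := le_max_right _ _
  have hqC := S.C_strip q (hQC hq)
  have hR₁0 : 0 ≤ R₁ := (abs_nonneg _).trans (hR₁' _ ha1)
  have hq1 : q.1 ≤ R := (le_abs_self _).trans ((hR₂' q hq).trans hR2)
  have ha1R : -R < a₁ := by
    have := (abs_le.1 (hR₁' _ ha1)).1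
    simp only at this
    linarith
  have ha2R : a₂ < R := by
    have := (abs_le.1 (hR₁' _ ha2)).2
    simp only at this
    linarith
  -- the second continuum
  set B : Set (ℝ × ℝ) := ({x} ×ˢ Icc 0 (S.m x)) ∪ Q ∪ (Icc q.1 R ×ˢ {q.2}) with hB
  have hBc : IsCompact B :=
    ((isCompact_singleton.prod isCompact_Icc).union hQ).union (isCompact_Icc.prod isCompact_singleton)
  have hBp : IsPreconnected B := by
    have e1 : IsPreconnected (({x} ×ˢ Icc 0 (S.m x)) ∪ Q : Set (ℝ × ℝ)) :=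
      IsPreconnected.union (x, S.m x) (mk_mem_prod rfl ⟨(S.m_pos x).le, le_rfl⟩) hxQ
        (isPreconnected_singleton.prod isPreconnected_Icc) hQ'
    exact IsPreconnected.union q (Or.inr hq) (mk_mem_prod ⟨le_rfl, hq1⟩ rfl) e1
      (isPreconnected_Icc.prod isPreconnected_singleton)
  obtain ⟨z, hzK, hzB⟩ := cross_bottom (R := R) (H := S.H) S.hH ha1R h1 h2 ha2R hqC.1 hqC.2 hK hK'
    (fun z hz => ⟨abs_le.1 ((hR₁' z hz).trans hR1.le), hKs z hz⟩) hBc hBp (by
      rintro z ((hz | hz) | hz)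
      · obtain ⟨hz1, hz2, hz3⟩ := hz
        rw [mem_singleton_iff] at hz1
        exact ⟨⟨by rw [hz1]; linarith, by rw [hz1]; linarith⟩, hz2, hz3.trans (S.m_lt x).le⟩
      · exact ⟨abs_le.1 ((hR₂' z hz).trans hR2), (S.C_strip z (hQC hz)).1.le,
          (S.C_strip z (hQC hz)).2.le⟩
      · obtain ⟨⟨hz1, hz2⟩, hz3⟩ := hz
        rw [mem_singleton_iff] at hz3
        exact ⟨⟨by linarith, hz2⟩, by rw [hz3]; exact ⟨hqC.1.le, hqC.2.le⟩⟩)
    ha1 (Or.inl (Or.inl (mk_mem_prod rfl ⟨le_rfl, (S.m_pos x).le⟩))) ha2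
    (Or.inr (mk_mem_prod ⟨hq1, le_rfl⟩ rfl))
  rcases hzB with (hz | hz) | hz
  · obtain ⟨hz1, hz2⟩ := hz
    rw [mem_singleton_iff] at hz1
    exact ⟨z.2, hz2.2, by rw [← hz1]; exact hzK⟩
  · exact absurd (hQC hz) (hKC z hzK)
  · have e1 := hz.1.1
    have e2 := (abs_le.1 (hR₁' z hzK)).2
    linarith

end Sys

end Vale.Agent.P097.H438
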