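import Vale.Agent.P097.H438.Bubble

/-!
# P097, block LIT: the bubbles with a left mouth are mapped into each other by the inverse map
-/

open Set Metric Topology Filter MeasureTheory

namespace Vale.Agent.P097.H438

namespace Sys

variable (S : Sys)

theorem F_bot (x : ℝ) : S.F (x, 0) = (x, 0) := S.F_low _ le_rfl

theorem symm_low {z : ℝ × ℝ} (h : z.2 ≤ 0) : S.F.symm z = z := by
  rw [Homeomorph.symm_apply_eq, S.F_low z h]

theorem symm_high (z : ℝ × ℝ) : (S.F.symm z).2 < S.H ↔ z.2 < S.H := by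
  rw [← S.F_high (S.F.symm z), Homeomorph.apply_symm_apply]

theorem symm_inv (z : ℝ × ℝ) : S.F.symm z ∈ S.C ↔ z ∈ S.C := by
  rw [← S.C_inv (S.F.symm z), Homeomorph.apply_symm_apply]

theorem symm_per (z : ℝ × ℝ) : S.F.symm (z + (S.P, 0)) = S.F.symm z + (S.P, 0) := by
  rw [Homeomorph.symm_apply_eq, S.F_per, Homeomorph.apply_symm_apply]

theorem pos_of_pos {z : ℝ × ℝ} (h : 0 < z.2) : 0 < (S.F z).2 := by
  by_contra hcon
  rw [not_lt] at hcon
  have h1 := S.symm_low hcon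
  rw [Homeomorph.symm_apply_apply] at h1
  rw [← h1] at hcon
  linarith

theorem symm_pos_of_pos {z : ℝ × ℝ} (h : 0 < z.2) : 0 < (S.F.symm z).2 := by
  by_contra hcon
  rw [not_lt] at hcon
  have h1 := S.F_low _ hcon
  rw [Homeomorph.apply_symm_apply] at h1
  rw [← h1] at hcon
  linarith

theorem pos_of_mem_O {z : ℝ × ℝ} (h : z ∈ S.O) : 0 < z.2 := by
  by_contra hcon
  exact (S.mem_O.1 h).2.2 (subset_closure (S.low_mem_V (not_lt.1 hcon)))

/-- the union of the bubbles with a left mouth -/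
def W : Set (ℝ × ℝ) := {z | z ∈ S.O ∧ ∃ e, S.LM e ∧ e ∈ closure (S.comp z)}

variable {S}

theorem W_sub : S.W ⊆ S.O := fun _ h => h.1

theorem W_of_comp {z w : ℝ × ℝ} (hz : z ∈ S.W) (hw : w ∈ S.comp z) : w ∈ S.W := by
  obtain ⟨-, e, he, hez⟩ := hz
  exact ⟨S.comp_sub z hw, e, he, by rw [← S.comp_eq hw]; exact hez⟩

theorem isOpen_W : IsOpen S.W := by
  rw [isOpen_iff_mem_nhds]
  intro z hz
  filter_upwards [(S.isOpen_comp z).mem_nhds (S.mem_comp hz.1)] with w hw
  exact W_of_comp hz hw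

theorem W_of_closure {w : ℝ × ℝ} (hw : w ∈ S.O) (h : w ∈ closure S.W) : w ∈ S.W := by
  obtain ⟨v, hv1, hv2⟩ := mem_closure_iff.1 h _ (S.isOpen_comp w) (S.mem_comp hw)
  refine W_of_comp hv2 ?_
  rw [← S.comp_eq hv1]
  exact S.mem_comp hw

/-- points slightly right of a left mouth are in the lower region -/
theorem LM.right_V {e : ℝ × ℝ} (h : S.LM e) : ∀ᶠ z in 𝓝 e, e.1 < z.1 → z ∈ S.V := by
  obtain ⟨r, hr, h0, h1, h2⟩ := h
  filter_upwards [ball_mem_nhds e hr] with z hz hz1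
  obtain ⟨g1, g2⟩ := abs_lt_of_mem_ball hz
  have := h1 z.1 hz1 (by have := (abs_lt.1 g1).2; linarith)
  have := (abs_lt.1 g2).2
  exact S.mem_V.2 (by linarith)

theorem RM.left_V {e : ℝ × ℝ} (h : S.RM e) : ∀ᶠ z in 𝓝 e, z.1 < e.1 → z ∈ S.V := by
  obtain ⟨r, hr, h0, h1, h2⟩ := h
  filter_upwards [ball_mem_nhds e hr] with z hz hz1
  obtain ⟨g1, g2⟩ := abs_lt_of_mem_ball hz
  have := h1 z.1 (by have := (abs_lt.1 g1).1; linarith) hz1
  have := (abs_lt.1 g2).2
  exact S.mem_V.2 (by linarith)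

theorem frequently_right {p : ℝ → Prop} {s : ℝ} {b : ℝ} (hb : s < b) (h : ∀ᶠ t in 𝓝 s, p t) :
    ∃ t, s < t ∧ t ≤ b ∧ p t := by
  obtain ⟨ε, hε, h4⟩ := Metric.eventually_nhds_iff.1 h
  have h5 : 0 < min (ε / 2) (b - s) := lt_min (by linarith) (by linarith)
  refine ⟨s + min (ε / 2) (b - s), by linarith, by linarith [min_le_right (ε / 2) (b - s)], h4 ?_⟩
  rw [Real.dist_eq, add_sub_cancel_left, abs_of_pos h5]
  linarith [min_le_left (ε / 2) (b - s)]

theorem symm_not_mem_V {z : ℝ × ℝ} (hz : z ∈ S.W) : S.F.symm z ∉ S.V := by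
  intro hV
  obtain ⟨hzO, e, he, hez⟩ := hz
  have hzpos := S.pos_of_mem_O hzO
  set w := S.F.symm z with hw
  have hFw : S.F w = z := by rw [hw, Homeomorph.apply_symm_apply]
  have hwpos : 0 < w.2 := S.symm_pos_of_pos hzpos
  have hwH : w.2 < S.H := S.lt_H_of_mem_V hV
  have hp : Continuous fun s : ℝ => S.F (w.1, s) := by fun_prop
  have hray : ∀ s, s ≤ w.2 → (w.1, s) ∈ S.V := fun s hs => lt_of_le_of_lt hs (S.mem_V.1 hV)
  obtain ⟨s, hs0, hsb, hs, hout⟩ := last_exit (S := S) hp hwpos.le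
    (by rw [S.F_bot]; exact S.low_mem_V le_rfl)
    (by rw [hFw]; exact hzO) (fun s hs0 hsb =>
      ⟨by rw [S.C_inv]; exact S.not_mem_C_of_mem_V (hray s hsb),
        (S.F_high _).2 (S.lt_H_of_mem_V (hray s hsb))⟩)
  simp only [hFw] at hout
  have hcl : S.F (w.1, s) ∈ closure (S.comp z) := by
    rw [_root_.mem_closure_iff]
    intro U hU hUs
    obtain ⟨t, ht, htb, htU⟩ := frequently_right hsb (hp.continuousAt.preimage_mem_nhds
      (hU.mem_nhds hUs))
    exact ⟨_, htU, hout t ht htb⟩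
  have hx := same_x (Or.inl he) hs hez hcl
  rcases hs with hs | hs
  · have hev : ∀ᶠ t in 𝓝 s, (S.F (w.1, s)).1 < (S.F (w.1, t)).1 → S.F (w.1, t) ∈ S.V :=
      hp.continuousAt.eventually hs.right_V
    obtain ⟨t, ht, htb, htV⟩ := frequently_right hsb hev
    have h1 := htV (S.twist w.1 s t hs0 ht (lt_of_le_of_lt htb hwH))
    exact (S.mem_O.1 (S.comp_sub z (hout t ht htb))).2.2 (subset_closure h1)
  · exact he.not_RM hs hx

theorem symm_not_mem_closure {z : ℝ × ℝ} (hz : z ∈ S.W) : S.F.symm z ∉ closure S.V := by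
  intro hcl
  have h1 : IsOpen (S.F ⁻¹' S.comp z) := (S.isOpen_comp z).preimage S.F.continuous
  obtain ⟨v, hv1, hv2⟩ := mem_closure_iff.1 hcl _ h1 (by
    rw [mem_preimage, Homeomorph.apply_symm_apply]; exact S.mem_comp hz.1)
  refine symm_not_mem_V (W_of_comp hz hv1) ?_
  rw [Homeomorph.symm_apply_apply]
  exact hv2

theorem symm_mem_O {z : ℝ × ℝ} (hz : z ∈ S.W) : S.F.symm z ∈ S.O := by
  have := S.mem_O.1 hz.1
  exact S.mem_O.2 ⟨(S.symm_high z).2 this.1, by rw [S.symm_inv]; exact this.2.1,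
    symm_not_mem_closure hz⟩

/-- there are only countably many heights at which an injective function of the height takes its
values in a countable set -/
theorem exists_not_mem_of_injOn {f : ℝ → ℝ} {a b : ℝ} (hab : a < b) (hf : InjOn f (Ioo a b))
    {J : Set ℝ} (hJ : J.Countable) : ∃ y ∈ Ioo a b, f y ∉ J := by
  by_contra hcon
  push Not at hcon
  have h1 : (Ioo a b).Countable := MapsTo.countable_of_injOn (t := J) hcon hf hJ
  have h2 := h1.measure_zero volume
  rw [Real.volume_Ioo, ENNReal.ofReal_eq_zero] at h2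
  linarith

/-- the part of a vertical line just above and below a left mouth consists of left mouths, all in
the closure of the bubble -/
theorem LM.left_half_comp {e z : ℝ × ℝ} (h : S.LM e) (hez : e ∈ closure (S.comp z)) :
    ∃ r > 0, (∀ z ∈ ball e r, z ∉ S.C ∧ z.2 < S.H) ∧
      (∀ x, e.1 < x → x < e.1 + r → e.2 + r ≤ S.m x) ∧
      (∀ x, e.1 - r < x → x ≤ e.1 → S.m x ≤ e.2 - r) ∧
      ∀ y, |y - e.2| < r → (e.1, y) ∈ closure (S.comp z) := by
  obtain ⟨r, hr, h0, h1, h2⟩ := h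
  refine ⟨r, hr, h0, h1, h2, ?_⟩
  have hO : {w | w ∈ ball e r ∧ w.1 < e.1} ⊆ S.O := by
    rintro w ⟨hz, hz1⟩
    rw [S.mem_O]
    refine ⟨(h0 w hz).2, (h0 w hz).1, fun hcl => ?_⟩
    have hU : IsOpen {z : ℝ × ℝ | z ∈ ball e r ∧ z.1 < e.1} :=
      isOpen_ball.inter (isOpen_lt continuous_fst continuous_const)
    obtain ⟨w, ⟨hw1, hw2⟩, hw3⟩ := mem_closure_iff.1 hcl _ hU ⟨hz, hz1⟩
    obtain ⟨g1, g2⟩ := abs_lt_of_mem_ball hw1
    have := h2 w.1 (by have := (abs_lt.1 g1).1; linarith) hw2.le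
    have := S.mem_V.1 hw3
    have := (abs_lt.1 g2).1
    linarith
  have hconv : Convex ℝ {z | z ∈ ball e r ∧ z.1 < e.1} :=
    (convex_ball e r).inter (convex_halfSpace_lt (f := fun z : ℝ × ℝ => z.1) ⟨fun _ _ => rfl, fun _ _ => rfl⟩ e.1)
  -- the half ball meets the bubble
  obtain ⟨v, hv1, hv2⟩ : ∃ v, v ∈ {z | z ∈ ball e r ∧ z.1 < e.1} ∧ v ∈ S.comp z := by
    obtain ⟨v, hv1, hv2⟩ := mem_closure_iff.1 hez _ isOpen_ball (mem_ball_self hr)
    obtain ⟨g1, g2⟩ := abs_lt_of_mem_ball hv1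
    have hve : v.1 ≤ e.1 := by
      by_contra hcon
      rw [not_le] at hcon
      have := h1 v.1 hcon (by have := (abs_lt.1 g1).2; linarith)
      have := (abs_lt.1 g2).2
      exact (S.mem_O.1 (S.comp_sub z hv2)).2.2 (subset_closure (S.mem_V.2 (by linarith)))
    rcases hve.lt_or_eq with h3 | h3
    · exact ⟨v, ⟨hv1, h3⟩, hv2⟩
    · obtain ⟨ε, hε, h4⟩ := Metric.isOpen_iff.1 (isOpen_ball.inter (S.isOpen_comp z)) v ⟨hv1, hv2⟩
      have h5 : (v.1 - ε / 2, v.2) ∈ ball v ε := mem_ball_of_abs (by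
        rw [show v.1 - ε / 2 - v.1 = -(ε / 2) by ring, abs_neg, abs_of_pos] <;> linarith)
        (by simpa using hε)
      exact ⟨_, ⟨(h4 h5).1, by simp only; linarith⟩, (h4 h5).2⟩
  have hsub : {z | z ∈ ball e r ∧ z.1 < e.1} ⊆ S.comp z := by
    rw [S.comp_eq hv2]
    exact S.sub_comp hconv.isPreconnected hO hv1
  intro y hy
  rw [Metric.mem_closure_iff]
  intro ε hε
  have hm := lt_min hε hr
  refine ⟨(e.1 - min ε r / 2, y), hsub ⟨mem_ball_of_abs ?_ hy, by simp only; linarith⟩, ?_⟩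
  · rw [show e.1 - min ε r / 2 - e.1 = -(min ε r / 2) by ring, abs_neg, abs_of_pos (by linarith)]
    have := min_le_right ε r; linarith
  · have := min_le_left ε r
    rw [Prod.dist_eq, dist_self, Real.dist_eq, sub_sub_cancel, abs_of_pos (by linarith)]
    exact max_lt (by linarith) hε

theorem symm_mem_W {z : ℝ × ℝ} (hz : z ∈ S.W) : S.F.symm z ∈ S.W := by
  refine ⟨symm_mem_O hz, ?_⟩
  have hsub : S.F.symm '' S.comp z ⊆ S.comp (S.F.symm z) := by
    refine S.sub_comp ((S.isPreconnected_comp z).image _ S.F.symm.continuous.continuousOn) ?_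
      (mem_image_of_mem _ (S.mem_comp hz.1))
    rintro _ ⟨w, hw, rfl⟩
    exact symm_mem_O (W_of_comp hz hw)
  obtain ⟨-, e, he, hez⟩ := hz
  obtain ⟨r, hr, h0, h1, h2, h3⟩ := he.left_half_comp hez
  have hlow := h2 e.1 (by linarith) le_rfl
  have hmpos := S.m_pos e.1
  have hH : ∀ y ∈ Ioo (e.2 - r) (e.2 + r), y < S.H := by
    intro y hy
    exact (h0 (e.1, y) (mem_ball_of_abs (by simpa using hr)
      (by simp only; rw [abs_lt]; constructor <;> linarith [hy.1, hy.2]))).2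
  have hinj : InjOn (fun y => (S.F.symm (e.1, y)).1) (Ioo (e.2 - r) (e.2 + r)) := by
    intro y hy y' hy' hyy
    simp only at hyy
    rcases lt_trichotomy y y' with h | h | h
    · have := S.twist' e.1 y y' (by linarith [hy.1]) h (hH y' hy')
      linarith
    · exact h
    · have := S.twist' e.1 y' y (by linarith [hy'.1]) h (hH y hy)
      linarith
  obtain ⟨y, hy, hyJ⟩ := exists_not_mem_of_injOn (by linarith) hinj S.countable_J
  have hyr : |y - e.2| < r := by rw [abs_lt]; constructor <;> linarith [hy.1, hy.2]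
  have hyH := hH y hy
  have hy0 : 0 ≤ y := by linarith [hy.1]
  have hyC : (e.1, y) ∉ S.C := (h0 (e.1, y) (mem_ball_of_abs (by simpa using hr) hyr)).1
  have hcl : S.F.symm (e.1, y) ∈ closure (S.comp (S.F.symm z)) :=
    closure_mono hsub (image_closure_subset_closure_image S.F.symm.continuous
      (mem_image_of_mem _ (h3 y hyr)))
  have hO : S.F.symm (e.1, y) ∈ S.O := by
    rw [S.mem_O]
    refine ⟨(S.symm_high _).2 hyH, by rw [S.symm_inv]; exact hyC, fun hV => hyJ ?_⟩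
    exact ⟨_, Mouth.cases ⟨hV, S.not_mem_V_of_closure_comp hcl, by rw [S.symm_inv]; exact hyC,
      (S.symm_high _).2 hyH⟩, rfl⟩
  have hin := S.mem_comp_of_closure hO hcl
  -- a vertical ray slightly to the right
  have hcont : Continuous fun x : ℝ => S.F.symm (x, y) := by fun_prop
  obtain ⟨x, hx1, hx2, hx3⟩ := frequently_right (s := e.1) (b := e.1 + r / 2) (by linarith)
    (hcont.continuousAt.preimage_mem_nhds ((S.isOpen_comp _).mem_nhds hin))
  have hx3' : S.F.symm (x, y) ∈ S.comp (S.F.symm z) := hx3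
  have hmx := h1 x hx1 (by linarith)
  have hray : ∀ s, s ≤ y → (x, s) ∈ S.V := fun s hs => S.mem_V.2 (by
    have := hy.2
    simp only
    linarith)
  have hp : Continuous fun s : ℝ => S.F.symm (x, s) := by fun_prop
  obtain ⟨s, hs0, hsb, hs, hout⟩ := last_exit (S := S) hp hy0
    (by rw [S.symm_low (z := (x, (0 : ℝ))) le_rfl]; exact S.low_mem_V le_rfl)
    (S.comp_sub _ hx3') (fun s hs0 hsb =>
      ⟨by rw [S.symm_inv]; exact S.not_mem_C_of_mem_V (hray s hsb),
        (S.symm_high _).2 (S.lt_H_of_mem_V (hray s hsb))⟩)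
  rw [← S.comp_eq hx3'] at hout
  have hcl' : S.F.symm (x, s) ∈ closure (S.comp (S.F.symm z)) := by
    rw [_root_.mem_closure_iff]
    intro U hU hUs
    obtain ⟨t, ht, htb, htU⟩ := frequently_right hsb (hp.continuousAt.preimage_mem_nhds
      (hU.mem_nhds hUs))
    exact ⟨_, htU, hout t ht htb⟩
  rcases hs with hs | hs
  · exact ⟨_, hs, hcl'⟩
  · exfalso
    have hev : ∀ᶠ t in 𝓝 s, (S.F.symm (x, t)).1 < (S.F.symm (x, s)).1 →
        S.F.symm (x, t) ∈ S.V := hp.continuousAt.eventually hs.left_V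
    obtain ⟨t, ht, htb, htV⟩ := frequently_right hsb hev
    have h1 := htV (S.twist' x s t hs0 ht (lt_of_le_of_lt htb hyH))
    exact (S.mem_O.1 (S.comp_sub _ (hout t ht htb))).2.2 (subset_closure h1)

end Sys

end Vale.Agent.P097.H438
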